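import Vale.Agent.P218.H63.Defs
import Vale.Agent.P218.H552.LinAlg

/-! Geometry of the signed distance function of a self-shrinker: the ray to the foot point, the
Riccati equation, and the expansion `Δw - ⟨x, ∇w⟩/2 = -w (|D²w|² + 1/2) + O(w²)`. -/

set_option linter.unusedSectionVars false

open MeasureTheory Set Filter Topology Metric
open scoped ENNReal NNReal RealInnerProductSpace

namespace Vale.Agent.P218.H63

variable {E : Type*} [NormedAddCommGroup E] [InnerProductSpace ℝ E] [FiniteDimensional ℝ E]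

lemma inner_gradient (f : E → ℝ) (x v : E) : ⟪gradient f x, v⟫ = fderiv ℝ f x v := by
  rw [gradient, InnerProductSpace.toDual_symm_apply]

lemma inner_gradient' (f : E → ℝ) (x v : E) : ⟪v, gradient f x⟫ = fderiv ℝ f x v := by
  rw [real_inner_comm, inner_gradient]

lemma gradient_eq_comp (f : E → ℝ) :
    gradient f = fun x => (InnerProductSpace.toDual ℝ E).symm.toContinuousLinearEquiv
      (fderiv ℝ f x) := rfl

lemma contDiff_gradient {f : E → ℝ} {n k : WithTop ℕ∞} (hf : ContDiff ℝ k f) (h : n + 1 ≤ k) :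
    ContDiff ℝ n (gradient f) := by
  rw [gradient_eq_comp]
  exact (InnerProductSpace.toDual ℝ E).symm.toContinuousLinearEquiv.contDiff.comp
    (hf.fderiv_right h)

lemma norm_gradient (f : E → ℝ) (x : E) : ‖gradient f x‖ = ‖fderiv ℝ f x‖ := by
  rw [gradient, LinearIsometryEquiv.norm_map]

/-- the Hessian as an operator is the second derivative -/
lemma inner_hess {f : E → ℝ} (hf : ContDiff ℝ 2 f) (x a b : E) :
    ⟪fderiv ℝ (gradient f) x a, b⟫ = fderiv ℝ (fderiv ℝ f) x a b := by
  have h1 : ContDiff ℝ 1 (gradient f) := contDiff_gradient hf (by norm_num)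
  have h2 : ContDiff ℝ 1 (fderiv ℝ f) := hf.fderiv_right (by norm_num)
  have h3 : HasFDerivAt (fun y => ⟪gradient f y, b⟫)
      ((innerSL ℝ b).comp (fderiv ℝ (gradient f) x)) x := by
    have := (innerSL ℝ b).hasFDerivAt.comp x
      (h1.differentiable (by norm_num) x).hasFDerivAt
    refine this.congr_of_eventuallyEq (Eventually.of_forall fun y => ?_)
    simp [real_inner_comm]
  have h4 : HasFDerivAt (fun y => fderiv ℝ f y b)
      ((ContinuousLinearMap.apply ℝ ℝ b).comp (fderiv ℝ (fderiv ℝ f) x)) x :=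
    (ContinuousLinearMap.apply ℝ ℝ b).hasFDerivAt.comp x
      (h2.differentiable (by norm_num) x).hasFDerivAt
  have h5 : (fun y => ⟪gradient f y, b⟫) = fun y => fderiv ℝ f y b := by
    ext y; exact inner_gradient f y b
  rw [h5] at h3
  have h6 := h3.unique h4
  have h7 := congrArg (fun L : E →L[ℝ] ℝ => L a) h6
  simpa [real_inner_comm] using h7

lemma hess_symm {f : E → ℝ} (hf : ContDiff ℝ 2 f) (x a b : E) :
    ⟪fderiv ℝ (gradient f) x a, b⟫ = ⟪a, fderiv ℝ (gradient f) x b⟫ := by
  rw [inner_hess hf, real_inner_comm, inner_hess hf]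
  have h : IsSymmSndFDerivAt ℝ f x := by
    apply ContDiffAt.isSymmSndFDerivAt hf.contDiffAt
    simp
  exact h.eq a b

/-- the trace is bounded by the dimension times the norm -/
lemma abs_trace_le (A : E →L[ℝ] E) :
    |LinearMap.trace ℝ E A.toLinearMap| ≤ Module.finrank ℝ E * ‖A‖ := by
  rw [LinearMap.trace_eq_sum_inner A.toLinearMap (stdOrthonormalBasis ℝ E)]
  refine (Finset.abs_sum_le_sum_abs _ _).trans ?_
  calc ∑ i, |⟪stdOrthonormalBasis ℝ E i, A.toLinearMap (stdOrthonormalBasis ℝ E i)⟫|
      ≤ ∑ _i : Fin (Module.finrank ℝ E), ‖A‖ := by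
        refine Finset.sum_le_sum fun i _ => ?_
        refine (abs_real_inner_le_norm _ _).trans ?_
        have h1 : ‖stdOrthonormalBasis ℝ E i‖ = 1 := (stdOrthonormalBasis ℝ E).orthonormal.1 i
        have h2 := A.le_opNorm (stdOrthonormalBasis ℝ E i)
        rw [h1] at *
        simpa using h2
    _ = _ := by simp

section tube

variable {S : Set E} {w : E → ℝ} {δ C : ℝ}

lemma IsTubeShrinker.neg (h : IsTubeShrinker S w δ C) : IsTubeShrinker S (fun x => -w x) δ C := by
  have e1 : gradient (fun x => -w x) = fun x => - gradient w x := by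
    ext x
    apply ext_inner_right ℝ
    intro v
    rw [inner_gradient, inner_neg_left, inner_gradient, fderiv_fun_neg]
    rfl
  have e2 : ∀ x, fderiv ℝ (gradient (fun x => -w x)) x = - fderiv ℝ (gradient w) x := by
    intro x; rw [e1, fderiv_fun_neg]
  refine ⟨h.pos, h.smooth.neg, fun x => ?_, fun x hx => ?_, fun x hx => ?_, fun x hx => ?_⟩
  · rw [h.mem_iff, neg_eq_zero]
  · rw [e1, norm_neg]; rw [abs_neg] at hx; exact h.norm_grad x hx
  · rw [e2, norm_neg]; rw [abs_neg] at hx; exact h.hess_le x hx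
  · unfold lap
    rw [e2, e1, inner_neg_right]
    have := h.shrinker x hx
    unfold lap at this
    rw [ContinuousLinearMap.toLinearMap_neg, map_neg, this]
    ring

/-- the open tube -/
lemma IsTubeShrinker.isOpen_tube (h : IsTubeShrinker S w δ C) : IsOpen {x | |w x| < δ} :=
  isOpen_lt h.smooth.continuous.abs continuous_const

/-- the Hessian kills the gradient -/
lemma IsTubeShrinker.hess_grad (h : IsTubeShrinker S w δ C) {x : E} (hx : |w x| < δ) :
    fderiv ℝ (gradient w) x (gradient w x) = 0 := by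
  have hw2 : ContDiff ℝ 2 w := h.smooth.of_le (by norm_num)
  have h1 : ContDiff ℝ 1 (gradient w) := contDiff_gradient hw2 (by norm_num)
  have hd : HasFDerivAt (gradient w) (fderiv ℝ (gradient w) x) x :=
    (h1.differentiable (by norm_num) x).hasFDerivAt
  have h2 : HasFDerivAt (fun y => ‖gradient w y‖ ^ 2)
      (2 • (innerSL ℝ (gradient w x)).comp (fderiv ℝ (gradient w) x)) x := hd.norm_sq
  have h3 : (fun y => ‖gradient w y‖ ^ 2) =ᶠ[𝓝 x] fun _ => 1 := by
    filter_upwards [h.isOpen_tube.mem_nhds hx] with y hy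
    rw [h.norm_grad y hy]; norm_num
  have h4 : HasFDerivAt (fun y => ‖gradient w y‖ ^ 2) (0 : E →L[ℝ] ℝ) x :=
    (hasFDerivAt_const (1 : ℝ) x).congr_of_eventuallyEq h3
  have h5 := h2.unique h4
  apply ext_inner_left ℝ
  intro v
  rw [inner_zero_right, ← hess_symm hw2]
  have h6 := congrArg (fun L : E →L[ℝ] ℝ => L v) h5
  simp at h6
  rw [real_inner_comm, inner_gradient]
  exact h6

/-- the ray towards the foot point, starting on the positive side -/
lemma IsTubeShrinker.ray_pos (h : IsTubeShrinker S w δ C) {x : E} (hx0 : 0 ≤ w x)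
    (hx : w x < δ) : ∀ t ∈ Icc 0 (w x), gradient w (x - t • gradient w x) = gradient w x ∧
      w (x - t • gradient w x) = w x - t := by
  have hw2 : ContDiff ℝ 2 w := h.smooth.of_le (by norm_num)
  have hg1 : ContDiff ℝ 1 (gradient w) := contDiff_gradient hw2 (by norm_num)
  set e := gradient w x with he
  set c : ℝ → E := fun t => x - t • e with hc
  have hcc : Continuous c := by rw [hc]; fun_prop
  have hcd : ∀ t, HasDerivAt c (-e) t := by
    intro t
    have h1 : HasDerivAt (fun t : ℝ => t • e) ((1 : ℝ) • e) t := (hasDerivAt_id t).smul_const e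
    rw [one_smul] at h1
    exact h1.const_sub x
  have he1 : ‖e‖ = 1 := h.norm_grad x (by rw [abs_of_nonneg hx0]; exact hx)
  set A : Set ℝ := {t | gradient w (c t) = e ∧ w (c t) = w x - t} with hA
  have hAc : IsClosed A := by
    rw [hA, Set.ofPred_and]
    exact (isClosed_eq (hg1.continuous.comp hcc) continuous_const).inter
      (isClosed_eq (hw2.continuous.comp hcc) (by fun_prop))
  have h0 : (0 : ℝ) ∈ A := by simp [hA, hc, he]
  have key : Icc 0 (w x) ⊆ A := by
    refine (hAc.inter isClosed_Icc).Icc_subset_of_forall_mem_nhdsWithin h0 ?_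
    rintro t ⟨⟨ht1, ht2⟩, ht3⟩
    have hct : |w (c t)| < δ := by
      rw [ht2, abs_of_nonneg (by linarith [ht3.2])]
      linarith [ht3.1]
    obtain ⟨ε, hε, hball⟩ := Metric.mem_nhds_iff.1
      ((h.isOpen_tube.preimage hcc).mem_nhds (show t ∈ c ⁻¹' {x | |w x| < δ} from hct))
    have hIcc : ∀ s ∈ Icc t (t + ε / 2), |w (c s)| < δ := by
      intro s hs
      apply hball
      rw [mem_ball, Real.dist_eq, abs_of_nonneg (by linarith [hs.1])]
      linarith [hs.2]
    -- Gronwall
    have hz : ∀ s ∈ Icc t (t + ε / 2), ‖gradient w (c s) - e‖ ≤ gronwallBound 0 C 0 (s - t) := by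
      apply norm_le_gronwallBound_of_norm_deriv_right_le
        (f' := fun s => fderiv ℝ (gradient w) (c s) (-e))
      · exact ((hg1.continuous.comp hcc).sub continuous_const).continuousOn
      · intro s hs
        have h1 : HasFDerivAt (gradient w) (fderiv ℝ (gradient w) (c s)) (c s) :=
          (hg1.differentiable (by norm_num) _).hasFDerivAt
        exact ((h1.comp_hasDerivAt s (hcd s)).sub_const e).hasDerivWithinAt
      · rw [ht1, sub_self, norm_zero]
      · intro s hs
        have hs' : |w (c s)| < δ := hIcc s ⟨hs.1, hs.2.le⟩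
        have h1 : fderiv ℝ (gradient w) (c s) (-e)
            = fderiv ℝ (gradient w) (c s) (gradient w (c s) - e) := by
          rw [map_sub, h.hess_grad hs', map_neg, zero_sub]
        rw [h1, add_zero]
        exact (ContinuousLinearMap.le_opNorm _ _).trans
          (mul_le_mul_of_nonneg_right (h.hess_le _ hs') (norm_nonneg _))
    have hz' : ∀ s ∈ Icc t (t + ε / 2), gradient w (c s) = e := by
      intro s hs
      have := hz s hs
      rw [gronwallBound_ε0_δ0] at this
      exact sub_eq_zero.1 (norm_le_zero_iff.1 this)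
    have hw' : ∀ s ∈ Icc t (t + ε / 2), w (c s) = w x - s := by
      intro s hs
      have h1 : ∀ r ∈ Icc t (t + ε / 2), HasDerivWithinAt (fun r => w (c r) + r) 0
          (Icc t (t + ε / 2)) r := by
        intro r hr
        have h2 : HasFDerivAt w (fderiv ℝ w (c r)) (c r) :=
          (hw2.differentiable (by norm_num) _).hasFDerivAt
        have h3 := (h2.comp_hasDerivAt r (hcd r)).add (hasDerivAt_id r)
        have h4 : fderiv ℝ w (c r) (-e) + 1 = 0 := by
          rw [← inner_gradient, hz' r hr, inner_neg_right, real_inner_self_eq_norm_sq, he1]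
          norm_num
        rw [h4] at h3
        exact h3.hasDerivWithinAt
      have h5 := (convex_Icc t (t + ε / 2)).norm_image_sub_le_of_norm_hasDerivWithin_le
        (C := 0) h1 (fun r _ => by simp) (show t ∈ Icc t (t + ε / 2) from ⟨le_rfl, by linarith⟩) hs
      rw [zero_mul] at h5
      have h6 : w (c s) + s = w (c t) + t := sub_eq_zero.1 (norm_le_zero_iff.1 h5)
      linarith
    rw [mem_nhdsWithin]
    refine ⟨Iio (t + ε / 2), isOpen_Iio, mem_Iio.2 (by linarith), ?_⟩
    rintro s ⟨hs1, hs2⟩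
    have hs : s ∈ Icc t (t + ε / 2) := ⟨(mem_Ioi.1 hs2).le, (mem_Iio.1 hs1).le⟩
    exact ⟨hz' s hs, hw' s hs⟩
  intro t ht
  exact key ht

/-- the Riccati equation -/
lemma IsTubeShrinker.riccati (h : IsTubeShrinker S w δ C) {x : E} (hx : |w x| < δ) :
    fderiv ℝ (fderiv ℝ (gradient w)) x (gradient w x)
      = -((fderiv ℝ (gradient w) x).comp (fderiv ℝ (gradient w) x)) := by
  have hg2 : ContDiff ℝ 2 (gradient w) := contDiff_gradient h.smooth (by norm_num)
  have hB1 : ContDiff ℝ 1 (fderiv ℝ (gradient w)) := hg2.fderiv_right (by norm_num)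
  have hd : HasFDerivAt (gradient w) (fderiv ℝ (gradient w) x) x :=
    (hg2.differentiable (by norm_num) x).hasFDerivAt
  have hdB : HasFDerivAt (fderiv ℝ (gradient w)) (fderiv ℝ (fderiv ℝ (gradient w)) x) x :=
    (hB1.differentiable (by norm_num) x).hasFDerivAt
  have h2 := hdB.clm_apply hd
  have h3 : (fun y => fderiv ℝ (gradient w) y (gradient w y)) =ᶠ[𝓝 x] fun _ => 0 := by
    filter_upwards [h.isOpen_tube.mem_nhds hx] with y hy using h.hess_grad hy
  have h4 : HasFDerivAt (fun y => fderiv ℝ (gradient w) y (gradient w y)) (0 : E →L[ℝ] E) x :=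
    (hasFDerivAt_const (0 : E) x).congr_of_eventuallyEq h3
  have h5 := h2.unique h4
  have hs : IsSymmSndFDerivAt ℝ (gradient w) x := by
    apply ContDiffAt.isSymmSndFDerivAt hg2.contDiffAt
    simp
  ext v
  have h6 := congrArg (fun L : E →L[ℝ] E => L v) h5
  simp at h6
  rw [hs.eq (gradient w x) v]
  simp only [_root_.neg_apply, ContinuousLinearMap.comp_apply]
  rw [eq_neg_iff_add_eq_zero, add_comm]
  exact h6

/-- the expansion on the positive side -/
lemma IsTubeShrinker.expand_pos (h : IsTubeShrinker S w δ C) (hC : 0 ≤ C) {x : E} (hx0 : 0 ≤ w x)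
    (hx : w x < δ) : |lap w x - ⟪x, gradient w x⟫ / 2 + w x * (hessSq w x + 1 / 2)|
      ≤ 2 * Module.finrank ℝ E * C ^ 3 * (w x) ^ 2 := by
  have hg2 : ContDiff ℝ 2 (gradient w) := contDiff_gradient h.smooth (by norm_num)
  have hB1 : ContDiff ℝ 1 (fderiv ℝ (gradient w)) := hg2.fderiv_right (by norm_num)
  set e := gradient w x with he
  set L := w x with hL
  set p := x - L • e with hp
  have he1 : ‖e‖ = 1 := h.norm_grad x (by rw [abs_of_nonneg hx0]; exact hx)
  -- the ray, in the outward direction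
  set y : ℝ → E := fun s => p + s • e with hy
  have hyd : ∀ s, HasDerivAt y e s := by
    intro s
    have h1 : HasDerivAt (fun t : ℝ => t • e) ((1 : ℝ) • e) s := (hasDerivAt_id s).smul_const e
    rw [one_smul] at h1
    exact h1.const_add p
  have hray : ∀ s ∈ Icc 0 L, gradient w (y s) = e ∧ w (y s) = s := by
    intro s hs
    have h1 := h.ray_pos hx0 hx (L - s) ⟨by linarith [hs.2], by linarith [hs.1]⟩
    have h2 : x - (L - s) • gradient w x = y s := by
      simp only [hy, hp, he]
      rw [sub_smul]; abel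
    rw [h2] at h1
    refine ⟨h1.1, ?_⟩
    rw [h1.2]; ring
  have hyL : y L = x := by simp [hy, hp]
  have hy0 : y 0 = p := by simp [hy]
  have hpS : p ∈ S := by
    rw [h.mem_iff, ← hy0]
    exact (hray 0 ⟨le_rfl, hx0⟩).2
  set B : E → E →L[ℝ] E := fderiv ℝ (gradient w) with hB
  have hBd : ∀ s ∈ Icc 0 L, HasDerivAt (fun s => B (y s)) (-((B (y s)).comp (B (y s)))) s := by
    intro s hs
    have h1 : HasFDerivAt B (fderiv ℝ B (y s)) (y s) :=
      (hB1.differentiable (by norm_num) _).hasFDerivAt
    have h2 := h1.comp_hasDerivAt s (hyd s)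
    have h3 : |w (y s)| < δ := by
      rw [(hray s hs).2, abs_of_nonneg hs.1]; linarith [hs.2]
    have h4 := h.riccati h3
    rw [(hray s hs).1] at h4
    rw [← h4]
    exact h2
  let tr : (E →L[ℝ] E) →ₗ[ℝ] ℝ := (LinearMap.trace ℝ E).comp (ContinuousLinearMap.coeLM ℝ)
  let trL : (E →L[ℝ] E) →L[ℝ] ℝ := LinearMap.toContinuousLinearMap tr
  have htr : ∀ A : E →L[ℝ] E, trL A = LinearMap.trace ℝ E A.toLinearMap := fun A => rfl
  set F : ℝ → ℝ := fun s => lap w (y s) - ⟪y s, e⟫ / 2 + s * (hessSq w (y s) + 1 / 2) with hF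
  have hF0 : F 0 = 0 := by
    simp only [hF, hy0, zero_mul, add_zero]
    have h1 := h.shrinker p hpS
    have h2 : gradient w p = e := by rw [← hy0]; exact (hray 0 ⟨le_rfl, hx0⟩).1
    rw [h2] at h1
    rw [h1]; ring
  have hFL : F L = lap w x - ⟪x, e⟫ / 2 + L * (hessSq w x + 1 / 2) := by
    simp only [hF, hyL]
  have hFd : ∀ s ∈ Icc 0 L, HasDerivWithinAt F
      (s * (-2 * trL ((B (y s)).comp ((B (y s)).comp (B (y s)))))) (Icc 0 L) s := by
    intro s hs
    have h1 : HasDerivAt (fun s => lap w (y s)) (trL (-((B (y s)).comp (B (y s))))) s := by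
      exact trL.hasFDerivAt.comp_hasDerivAt s (hBd s hs)
    have h2 : HasDerivAt (fun s => (B (y s)).comp (B (y s)))
        ((-((B (y s)).comp (B (y s)))).comp (B (y s))
          + (B (y s)).comp (-((B (y s)).comp (B (y s))))) s := (hBd s hs).clm_comp (hBd s hs)
    have h3 : HasDerivAt (fun s => hessSq w (y s))
        (trL ((-((B (y s)).comp (B (y s)))).comp (B (y s))
          + (B (y s)).comp (-((B (y s)).comp (B (y s)))))) s :=
      trL.hasFDerivAt.comp_hasDerivAt s h2
    have h4 : HasDerivAt (fun s => ⟪y s, e⟫) 1 s := by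
      have := (hyd s).inner ℝ (hasDerivAt_const s e)
      refine this.congr_deriv ?_
      rw [inner_zero_right, zero_add, real_inner_self_eq_norm_sq, he1]; norm_num
    have h5 := (h1.sub (h4.div_const 2)).add ((hasDerivAt_id s).mul (h3.add_const (1 / 2 : ℝ)))
    refine (h5.congr_deriv ?_).hasDerivWithinAt
    have e1 : trL (-((B (y s)).comp (B (y s)))) = - hessSq w (y s) := by
      rw [map_neg, htr]; rfl
    have e2 : ((-((B (y s)).comp (B (y s)))).comp (B (y s))
          + (B (y s)).comp (-((B (y s)).comp (B (y s)))))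
        = (-2 : ℝ) • ((B (y s)).comp ((B (y s)).comp (B (y s)))) := by
      ext v
      simp only [_root_.add_apply, _root_.neg_apply, ContinuousLinearMap.comp_apply,
        _root_.smul_apply, map_neg]
      rw [neg_smul, two_smul]; abel
    rw [e1, e2, map_smul, smul_eq_mul]
    simp only [id]
    ring
  have hCB : ∀ s ∈ Icc 0 L, ‖B (y s)‖ ≤ C := by
    intro s hs
    apply h.hess_le
    rw [(hray s hs).2, abs_of_nonneg hs.1]; linarith [hs.2]
  have hbound : ∀ s ∈ Icc 0 L,
      ‖s * (-2 * trL ((B (y s)).comp ((B (y s)).comp (B (y s)))))‖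
        ≤ 2 * Module.finrank ℝ E * C ^ 3 * L := by
    intro s hs
    have h1 := hCB s hs
    have h2 : |trL ((B (y s)).comp ((B (y s)).comp (B (y s))))| ≤ Module.finrank ℝ E * C ^ 3 := by
      rw [htr]
      refine (abs_trace_le _).trans ?_
      have h3 : ‖(B (y s)).comp ((B (y s)).comp (B (y s)))‖ ≤ C * (C * C) := by
        refine (ContinuousLinearMap.opNorm_comp_le _ _).trans ?_
        have h4 : ‖(B (y s)).comp (B (y s))‖ ≤ C * C :=
          (ContinuousLinearMap.opNorm_comp_le _ _).trans
            (mul_le_mul h1 h1 (norm_nonneg _) hC)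
        exact mul_le_mul h1 h4 (norm_nonneg _) hC
      calc (Module.finrank ℝ E : ℝ) * ‖(B (y s)).comp ((B (y s)).comp (B (y s)))‖
          ≤ Module.finrank ℝ E * (C * (C * C)) := by gcongr
        _ = _ := by ring
    rw [Real.norm_eq_abs, abs_mul, abs_mul, abs_of_nonneg hs.1]
    have h5 : |(-2 : ℝ)| = 2 := by norm_num
    rw [h5]
    calc s * (2 * |trL ((B (y s)).comp ((B (y s)).comp (B (y s))))|)
        ≤ L * (2 * (Module.finrank ℝ E * C ^ 3)) := by
          apply mul_le_mul hs.2 _ (by positivity) hx0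
          linarith
      _ = _ := by ring
  have hfin := (convex_Icc 0 L).norm_image_sub_le_of_norm_hasDerivWithin_le hFd hbound
    (show (0 : ℝ) ∈ Icc 0 L from ⟨le_rfl, hx0⟩) (show L ∈ Icc 0 L from ⟨hx0, le_rfl⟩)
  rw [hF0, sub_zero, sub_zero, Real.norm_eq_abs, Real.norm_eq_abs, hFL, abs_of_nonneg hx0] at hfin
  calc _ ≤ _ := hfin
    _ = _ := by ring

lemma lap_neg (w : E → ℝ) (x : E) : lap (fun y => -w y) x = -lap w x := by
  have e1 : gradient (fun x => -w x) = fun x => - gradient w x := by
    ext x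
    apply ext_inner_right ℝ
    intro v
    rw [inner_gradient, inner_neg_left, inner_gradient, fderiv_fun_neg]
    rfl
  unfold lap
  rw [e1, fderiv_fun_neg, ContinuousLinearMap.toLinearMap_neg, map_neg]

lemma gradient_neg' (w : E → ℝ) (x : E) : gradient (fun y => -w y) x = -gradient w x := by
  apply ext_inner_right ℝ
  intro v
  rw [inner_gradient, inner_neg_left, inner_gradient, fderiv_fun_neg]
  rfl

lemma hessSq_neg (w : E → ℝ) (x : E) : hessSq (fun y => -w y) x = hessSq w x := by
  have e1 : gradient (fun x => -w x) = fun x => - gradient w x := by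
    ext x; exact gradient_neg' w x
  unfold hessSq
  rw [e1, fderiv_fun_neg]
  congr 2
  ext v
  simp

/-- **The expansion** `Δw - ⟨x, ∇w⟩/2 = -w (|D²w|² + 1/2) + O(w²)` in the tube. -/
theorem IsTubeShrinker.expand (h : IsTubeShrinker S w δ C) (hC : 0 ≤ C) {x : E}
    (hx : |w x| < δ) : |lap w x - ⟪x, gradient w x⟫ / 2 + w x * (hessSq w x + 1 / 2)|
      ≤ 2 * Module.finrank ℝ E * C ^ 3 * (w x) ^ 2 := by
  rcases le_total 0 (w x) with h0 | h0
  · rw [abs_of_nonneg h0] at hx
    exact h.expand_pos hC h0 hx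
  · rw [abs_of_nonpos h0] at hx
    have h1 := h.neg.expand_pos hC (x := x) (by simpa using h0) (by simpa using hx)
    rw [lap_neg, gradient_neg', hessSq_neg, inner_neg_right] at h1
    rw [neg_sq] at h1
    refine le_trans (le_of_eq ?_) h1
    rw [← abs_neg]
    congr 1
    ring

end tube

end Vale.Agent.P218.H63
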