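import Vale.Agent.P218.H63.Defs
import Vale.Agent.P218.H313.W2
import Vale.Agent.P218.H313.Final

/-! Natural hypotheses: the Gaussian area measure, Jacobi fields, and uniqueness. -/

open MeasureTheory Set Filter Topology Metric
open scoped ENNReal NNReal RealInnerProductSpace

namespace Vale.Agent.P218.H63

open Vale.Agent.P218.H313 (TubeD grad tr jac rho Fam skew)

variable {E : Type*} [NormedAddCommGroup E] [InnerProductSpace ℝ E] [FiniteDimensional ℝ E]
  [MeasurableSpace E] [BorelSpace E]
variable {m : ℕ} {S : Set E} {w : E → ℝ} {δ C : ℝ}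

omit [FiniteDimensional ℝ E] in
lemma measurable_dens : Measurable fun x : E => ENNReal.ofReal (Real.exp (-‖x‖ ^ 2 / 4)) := by
  fun_prop

omit [FiniteDimensional ℝ E] in
lemma gaussArea_ac : gaussArea m S ≪ (μH[m] : Measure E).restrict S :=
  withDensity_absolutelyContinuous _ _

omit [FiniteDimensional ℝ E] in
lemma ac_gaussArea : (μH[m] : Measure E).restrict S ≪ gaussArea m S := by
  refine withDensity_absolutelyContinuous' measurable_dens.aemeasurable
    (Eventually.of_forall fun x => ?_)
  simp [Real.exp_pos]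

omit [FiniteDimensional ℝ E] in
lemma integral_gaussArea (f : E → ℝ) :
    ∫ x, f x ∂(gaussArea m S) = ∫ x, f x * rho x ∂(μH[m] : Measure E).restrict S := by
  unfold gaussArea
  rw [integral_withDensity_eq_integral_toReal_smul measurable_dens
    (Eventually.of_forall fun x => ENNReal.ofReal_lt_top)]
  refine integral_congr_ae (Eventually.of_forall fun x => ?_)
  simp only [smul_eq_mul]
  rw [ENNReal.toReal_ofReal (Real.exp_pos _).le, mul_comm]
  rfl

omit [FiniteDimensional ℝ E] in
lemma integrable_gaussArea {f : E → ℝ}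
    (h : Integrable (fun x => f x * rho x) ((μH[m] : Measure E).restrict S)) :
    Integrable f (gaussArea m S) := by
  unfold gaussArea
  rw [integrable_withDensity_iff measurable_dens
    (Eventually.of_forall fun x => ENNReal.ofReal_lt_top)]
  refine h.congr (Eventually.of_forall fun x => ?_)
  simp only
  rw [ENNReal.toReal_ofReal (Real.exp_pos _).le]
  rfl

/-- **Uniqueness of the tangent flow** at a point where some tangent flow is a self-shrinker with
multiplicity one, a uniform tubular neighbourhood and no Jacobi fields but rotations. -/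
theorem unique_of_nondegenerate (hm : 0 < m) (hE : Module.finrank ℝ E = m + 1)
    (hS : IsTubeShrinker S w δ C) (hN : RotationallyNondegenerate m S w)
    {μ : ℝ → Measure E} (hμ : IsIntegralBrakkeFlow m μ) (h0 : μ 0 univ < ⊤) (x₀ : E) {t₀ : ℝ}
    (ht : 0 < t₀) (hκ : (μH[m] : Measure E).restrict S ∈ tangentSlices m μ x₀ t₀) :
    TangentFlowUnique m μ x₀ t₀ := by
  obtain ⟨W, c, K, hW, hWS, hc, -, -, hg, hH⟩ := H313.exists_tubeD hS
  have hSe : {x | W x = 0} = S := by ext x; exact hWS x
  have hSm : MeasurableSet S := by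
    rw [← hSe]; exact (isClosed_eq hW.cont continuous_const).measurableSet
  have hsmall : ∀ x ∈ S, |w x| < c := fun x hx => by
    rw [(hS.mem_iff x).1 hx, abs_zero]; exact hW.cpos
  have hjac : ∀ ζ : E → ℝ, ∀ x ∈ S, jac W ζ x = stab w ζ x := by
    intro ζ x hx
    have h1 := hg x (hsmall x hx)
    have h2 := hH x (hsmall x hx)
    unfold jac stab lap hessSq tr
    rw [h1, h2, H313.grad_eq_gradient]
    ring
  refine H313.unique_of_tubeD hm hE hW hμ h0 x₀ ht (by rw [hSe]; exact hκ) ?_
  rw [hSe]
  intro u hu hu2 hweak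
  have hJ : IsJacobiField m S w u := by
    refine ⟨(memLp_two_iff_integrable_sq (hu.mono_ac gaussArea_ac)).2 (integrable_gaussArea hu2),
      fun η hη hηc => ?_⟩
    rw [integral_gaussArea, ← hweak η hη hηc]
    refine integral_congr_ae ((ae_restrict_mem hSm).mono fun x hx => ?_)
    simp only
    rw [hjac η x hx]
  obtain ⟨A, hA, hAu⟩ := hN u hJ
  refine ⟨A, hA, ?_⟩
  have h1 : u =ᵐ[(μH[m] : Measure E).restrict S] fun x => ⟪A x, gradient w x⟫ :=
    ac_gaussArea.ae_eq hAu
  filter_upwards [h1, ae_restrict_mem hSm] with x hx hxS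
  rw [hx, hg x (hsmall x hxS)]

end Vale.Agent.P218.H63
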