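import Vale.Agent.P218.H63.Geom

/-! The truncated signed distance function and its pointwise properties. -/

set_option linter.unusedSectionVars false
set_option linter.unusedSimpArgs false

open MeasureTheory Set Filter Topology Metric
open scoped ENNReal NNReal RealInnerProductSpace

namespace Vale.Agent.P218.H63

open Vale.Agent.P214 (proj divAlong)
open Vale.Agent.P218.H552 (inner_proj_left proj_mem sub_proj_mem norm_proj_le)

variable {E : Type*} [NormedAddCommGroup E] [InnerProductSpace ℝ E] [FiniteDimensional ℝ E]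

/-- the properties of the truncated signed distance function `W` of a self-shrinker that are used
in the sequel; `C` is one constant for all of them, `m` is the dimension of the shrinker -/
structure IsTrunc (m : ℕ) (W : E → ℝ) (C : ℝ) : Prop where
  one_le : 1 ≤ C
  smooth : ContDiff ℝ 2 W
  abs_le : ∀ x, |W x| ≤ C
  grad_le : ∀ x, ‖gradient W x‖ ≤ 1
  hess_le : ∀ x, ‖fderiv ℝ (gradient W) x‖ ≤ C
  expand : ∀ T : Submodule ℝ E, Module.finrank ℝ T = m → ∀ x,
    |divAlong T (gradient W) x - ⟪x, gradient W x⟫ / 2 + (hessSq W x + 1 / 2) * W x|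
      ≤ C * (W x ^ 2 + ‖proj T (gradient W x)‖ ^ 2)
  absorb : ∀ T : Submodule ℝ E, Module.finrank ℝ T = m → ∀ x,
    |W x| * |divAlong T (gradient W) x - ⟪x, gradient W x⟫ / 2|
      ≤ C * W x ^ 2 + 1 / 4 * ‖proj T (gradient W x)‖ ^ 2
  normal : ∀ T : Submodule ℝ E, Module.finrank ℝ T = m → ∀ x Y φ : E, φ ∈ Tᗮ →
    |⟪Y, φ⟫ - ⟪gradient W x, Y⟫ * ⟪gradient W x, φ⟫|
      ≤ C * ‖Y‖ * ‖φ‖ * (‖proj T (gradient W x)‖ + |W x|)
  tilt : ∀ T : Submodule ℝ E, Module.finrank ℝ T = m → ∀ (x : E) (X : E → E),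
    |divAlong T X x - (LinearMap.trace ℝ E (fderiv ℝ X x).toLinearMap
        - ⟪fderiv ℝ X x (gradient W x), gradient W x⟫)|
      ≤ C * ‖fderiv ℝ X x‖ * (‖proj T (gradient W x)‖ + |W x|)

/-- a hyperplane has a unit normal -/
lemma exists_normal {m : ℕ} (hE : Module.finrank ℝ E = m + 1) {T : Submodule ℝ E}
    (hT : Module.finrank ℝ T = m) : ∃ n : E, ‖n‖ = 1 ∧ n ∈ Tᗮ ∧
      (∀ φ ∈ Tᗮ, φ = ⟪n, φ⟫ • n) ∧ ∀ v, proj T v = v - ⟪n, v⟫ • n := by
  have h1 : Module.finrank ℝ Tᗮ = 1 := by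
    have := Submodule.finrank_add_finrank_orthogonal T
    omega
  obtain ⟨v, hv0, hv⟩ := finrank_eq_one_iff'.1 h1
  have hv0' : (v : E) ≠ 0 := fun h => hv0 (Subtype.ext h)
  have hn0 : ‖(v : E)‖ ≠ 0 := norm_ne_zero_iff.2 hv0'
  set n : E := ‖(v : E)‖⁻¹ • (v : E) with hn
  have hn1 : ‖n‖ = 1 := by
    rw [hn, norm_smul, norm_inv, norm_norm, inv_mul_cancel₀ hn0]
  have hnT : n ∈ Tᗮ := Submodule.smul_mem _ _ v.2
  have hφ : ∀ φ ∈ Tᗮ, φ = ⟪n, φ⟫ • n := by
    intro φ hφ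
    obtain ⟨c, hc⟩ := hv ⟨φ, hφ⟩
    have hc' : c • (v : E) = φ := congrArg Subtype.val hc
    have h2 : φ = (c * ‖(v : E)‖) • n := by
      rw [hn, smul_smul, ← hc', mul_assoc, mul_inv_cancel₀ hn0, mul_one]
    rw [h2, real_inner_smul_right, real_inner_self_eq_norm_sq, hn1]
    norm_num
  refine ⟨n, hn1, hnT, hφ, fun v => ?_⟩
  have h3 := hφ _ (sub_proj_mem T v)
  have h4 : ⟪n, v - proj T v⟫ = ⟪n, v⟫ := by
    rw [inner_sub_right]
    have : ⟪n, proj T v⟫ = 0 := by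
      rw [real_inner_comm]
      exact (Submodule.mem_orthogonal T n).1 hnT _ (proj_mem T v)
    rw [this, sub_zero]
  rw [h4] at h3
  rw [← h3]; abel

/-- divergence along a hyperplane -/
lemma divAlong_normal {T : Submodule ℝ E} {n : E} (hn : ∀ v, proj T v = v - ⟪n, v⟫ • n)
    (X : E → E) (x : E) : divAlong T X x
      = LinearMap.trace ℝ E (fderiv ℝ X x).toLinearMap - ⟪fderiv ℝ X x n, n⟫ := by
  unfold divAlong
  have h1 : ((proj T).comp (fderiv ℝ X x)).toLinearMap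
      = (fderiv ℝ X x).toLinearMap
        - ((innerSL ℝ n).comp (fderiv ℝ X x)).toLinearMap.smulRight n := by
    ext v
    simp [hn]
  rw [h1, map_sub, LinearMap.trace_smulRight]
  congr 1
  simp [real_inner_comm]

section vectors

variable {n g : E}

lemma norm_proj_sq {T : Submodule ℝ E} (hn1 : ‖n‖ = 1) (hn : ∀ v, proj T v = v - ⟪n, v⟫ • n)
    (g : E) : ‖proj T g‖ ^ 2 = ‖g‖ ^ 2 - ⟪n, g⟫ ^ 2 := by
  rw [hn, norm_sub_sq_real, real_inner_smul_right, norm_smul, hn1, real_inner_comm g n]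
  simp
  ring

lemma norm_sub_sq' (hn1 : ‖n‖ = 1) (hg1 : ‖g‖ = 1) : ‖n - ⟪n, g⟫ • g‖ ^ 2 = 1 - ⟪n, g⟫ ^ 2 := by
  rw [norm_sub_sq_real, real_inner_smul_right, norm_smul, hn1, hg1]
  simp
  ring

/-- quadratic forms at the two unit vectors -/
lemma abs_quad_sub_le (A : E →L[ℝ] E) (hn1 : ‖n‖ = 1) (hg1 : ‖g‖ = 1) :
    |⟪A n, n⟫ - ⟪A g, g⟫| ≤ 4 * ‖A‖ * √(1 - ⟪n, g⟫ ^ 2) := by
  set c := ⟪n, g⟫ with hc
  have hc1 : |c| ≤ 1 := by
    have := abs_real_inner_le_norm n g
    rwa [hn1, hg1, mul_one] at this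
  set v := n - c • g with hv
  have hv2 : ‖v‖ = √(1 - c ^ 2) := by
    rw [← norm_sub_sq' hn1 hg1, Real.sqrt_sq (norm_nonneg _)]
  have hv1 : ‖v‖ ≤ 1 := by
    rw [hv2]
    rw [Real.sqrt_le_one]
    nlinarith [sq_nonneg c]
  have hn' : n = c • g + v := by rw [hv]; abel
  have e1 : ⟪A n, n⟫ - ⟪A g, g⟫ = (c ^ 2 - 1) * ⟪A g, g⟫ + c * ⟪A g, v⟫ + c * ⟪A v, g⟫ + ⟪A v, v⟫ := by
    rw [hn']
    simp only [map_add, map_smul, inner_add_left, inner_add_right, real_inner_smul_left,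
      real_inner_smul_right]
    ring
  have b : ∀ a b : E, ‖a‖ ≤ 1 → |⟪A a, b⟫| ≤ ‖A‖ * ‖b‖ := by
    intro a b ha
    refine (abs_real_inner_le_norm _ _).trans ?_
    apply mul_le_mul_of_nonneg_right _ (norm_nonneg _)
    exact (A.le_opNorm a).trans (mul_le_of_le_one_right (norm_nonneg _) ha)
  have b' : ∀ a b : E, ‖b‖ ≤ 1 → |⟪A a, b⟫| ≤ ‖A‖ * ‖a‖ := by
    intro a b hb
    refine (abs_real_inner_le_norm _ _).trans ?_
    calc ‖A a‖ * ‖b‖ ≤ ‖A‖ * ‖a‖ * 1 := by
          apply mul_le_mul (A.le_opNorm a) hb (norm_nonneg _) (by positivity)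
      _ = _ := mul_one _
  have hs : 1 - c ^ 2 = ‖v‖ ^ 2 := (norm_sub_sq' hn1 hg1).symm
  have t1 : |(c ^ 2 - 1) * ⟪A g, g⟫| ≤ ‖A‖ * ‖v‖ := by
    have h1 : |⟪A g, g⟫| ≤ ‖A‖ := by
      have := b g g hg1.le
      rwa [hg1, mul_one] at this
    have h2 : |c ^ 2 - 1| ≤ ‖v‖ := by
      have : c ^ 2 - 1 = -‖v‖ ^ 2 := by linarith
      rw [this, abs_neg, abs_of_nonneg (sq_nonneg _)]
      nlinarith [norm_nonneg v]
    rw [abs_mul]
    calc |c ^ 2 - 1| * |⟪A g, g⟫| ≤ ‖v‖ * ‖A‖ := mul_le_mul h2 h1 (abs_nonneg _) (norm_nonneg _)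
      _ = _ := mul_comm _ _
  have t2 : |c * ⟪A g, v⟫| ≤ ‖A‖ * ‖v‖ := by
    rw [abs_mul]
    calc |c| * |⟪A g, v⟫| ≤ 1 * (‖A‖ * ‖v‖) :=
          mul_le_mul hc1 (b g v hg1.le) (abs_nonneg _) zero_le_one
      _ = _ := one_mul _
  have t3 : |c * ⟪A v, g⟫| ≤ ‖A‖ * ‖v‖ := by
    rw [abs_mul]
    calc |c| * |⟪A v, g⟫| ≤ 1 * (‖A‖ * ‖v‖) :=
          mul_le_mul hc1 (b' v g hg1.le) (abs_nonneg _) zero_le_one
      _ = _ := one_mul _
  have t4 : |⟪A v, v⟫| ≤ ‖A‖ * ‖v‖ := b' v v hv1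
  rw [e1, ← hv2]
  have s1 := abs_add_le ((c ^ 2 - 1) * ⟪A g, g⟫ + c * ⟪A g, v⟫ + c * ⟪A v, g⟫) (⟪A v, v⟫)
  have s2 := abs_add_le ((c ^ 2 - 1) * ⟪A g, g⟫ + c * ⟪A g, v⟫) (c * ⟪A v, g⟫)
  have s3 := abs_add_le ((c ^ 2 - 1) * ⟪A g, g⟫) (c * ⟪A g, v⟫)
  linarith

end vectors

/-- the cut-off profile at scale `a` -/
noncomputable def bmp (a : ℝ) (ha : 0 < a) : ContDiffBump (0 : ℝ) :=
  { rIn := a, rOut := 2 * a, rIn_pos := ha, rIn_lt_rOut := by linarith }

/-- the truncation -/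
noncomputable def Theta (a : ℝ) (ha : 0 < a) (s : ℝ) : ℝ := ∫ t in (0 : ℝ)..s, bmp a ha t

section theta

variable {a : ℝ} (ha : 0 < a)

lemma hasDerivAt_Theta (s : ℝ) : HasDerivAt (Theta a ha) (bmp a ha s) s := by
  have hc : Continuous (bmp a ha) := (bmp a ha).continuous
  exact intervalIntegral.integral_hasDerivAt_right (hc.intervalIntegrable _ _)
    (hc.stronglyMeasurableAtFilter _ _) hc.continuousAt

lemma contDiff_Theta : ContDiff ℝ 2 (Theta a ha) := by
  have h : ContDiff ℝ (1 + 1) (Theta a ha) := by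
    rw [contDiff_succ_iff_deriv]
    refine ⟨fun s => (hasDerivAt_Theta ha s).differentiableAt, by simp, ?_⟩
    have : deriv (Theta a ha) = bmp a ha := funext fun s => (hasDerivAt_Theta ha s).deriv
    rw [this]
    exact (bmp a ha).contDiff
  exact h.of_le (by norm_num)

lemma bmp_one {s : ℝ} (hs : |s| ≤ a) : bmp a ha s = 1 :=
  (bmp a ha).one_of_mem_closedBall (by
    rw [mem_closedBall, Real.dist_eq, sub_zero]; exact hs)

lemma bmp_zero {s : ℝ} (hs : 2 * a ≤ |s|) : bmp a ha s = 0 :=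
  (bmp a ha).zero_of_le_dist (by
    rw [Real.dist_eq, sub_zero]; exact hs)

lemma bmp_neg (s : ℝ) : bmp a ha (-s) = bmp a ha s := by
  have := (bmp a ha).sub s
  simpa using this

lemma Theta_neg (s : ℝ) : Theta a ha (-s) = -Theta a ha s := by
  unfold Theta
  have h1 := intervalIntegral.integral_comp_neg (a := 0) (b := s) (fun t => bmp a ha t)
  simp only [bmp_neg, neg_zero] at h1
  rw [h1, intervalIntegral.integral_symm]

lemma Theta_eq {s : ℝ} (hs : |s| ≤ a) : Theta a ha s = s := by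
  have key : ∀ s : ℝ, 0 ≤ s → s ≤ a → Theta a ha s = s := by
    intro s h0 h1
    unfold Theta
    have : ∫ t in (0 : ℝ)..s, bmp a ha t = ∫ t in (0 : ℝ)..s, (1 : ℝ) := by
      apply intervalIntegral.integral_congr
      intro t ht
      rw [uIcc_of_le h0] at ht
      exact bmp_one ha (by rw [abs_of_nonneg ht.1]; linarith [ht.2])
    rw [this]; simp
  rcases le_total 0 s with h0 | h0
  · exact key s h0 (by rwa [abs_of_nonneg h0] at hs)
  · have h1 := key (-s) (by linarith) (by rwa [abs_of_nonpos h0] at hs)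
    rw [Theta_neg] at h1
    linarith

lemma Theta_mono : Monotone (Theta a ha) := by
  apply monotone_of_deriv_nonneg (fun s => (hasDerivAt_Theta ha s).differentiableAt)
  intro s
  rw [(hasDerivAt_Theta ha s).deriv]
  exact (bmp a ha).nonneg

lemma Theta_ge {s : ℝ} (hs : a ≤ |s|) : a ≤ |Theta a ha s| := by
  have key : ∀ s : ℝ, a ≤ s → a ≤ Theta a ha s := by
    intro s h
    calc a = Theta a ha a := (Theta_eq ha (by rw [abs_of_pos ha])).symm
      _ ≤ _ := Theta_mono ha h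
  rcases le_total 0 s with h0 | h0
  · rw [abs_of_nonneg h0] at hs
    exact (key s hs).trans (le_abs_self _)
  · rw [abs_of_nonpos h0] at hs
    have := key (-s) hs
    rw [Theta_neg] at this
    exact this.trans (neg_le_abs _)

lemma Theta_le (s : ℝ) : |Theta a ha s| ≤ 2 * a := by
  have key : ∀ s : ℝ, 0 ≤ s → Theta a ha s ≤ 2 * a := by
    intro s h0
    have h2 : ∀ s : ℝ, 0 ≤ s → s ≤ 2 * a → Theta a ha s ≤ 2 * a := by
      intro s h0 h1
      have h3 : Theta a ha s ≤ ∫ t in (0 : ℝ)..s, (1 : ℝ) := by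
        unfold Theta
        apply intervalIntegral.integral_mono_on h0
          ((bmp a ha).continuous.intervalIntegrable _ _) (by simp)
        intro t _
        exact (bmp a ha).le_one
      rw [intervalIntegral.integral_const] at h3
      simp at h3
      linarith
    rcases le_total s (2 * a) with h1 | h1
    · exact h2 s h0 h1
    · have h4 : Theta a ha s = Theta a ha (2 * a) := by
        have h5 : Theta a ha s = Theta a ha (2 * a) + ∫ t in (2 * a)..s, bmp a ha t := by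
          unfold Theta
          rw [intervalIntegral.integral_add_adjacent_intervals] <;>
          exact (bmp a ha).continuous.intervalIntegrable _ _
        have h6 : ∫ t in (2 * a)..s, bmp a ha t = ∫ t in (2 * a)..s, (0 : ℝ) := by
          apply intervalIntegral.integral_congr
          intro t ht
          rw [uIcc_of_le h1] at ht
          exact bmp_zero ha (ht.1.trans (le_abs_self _))
        rw [h5, h6]; simp
      rw [h4]
      exact h2 _ (by linarith) le_rfl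
  rcases le_total 0 s with h0 | h0
  · have h1 : 0 ≤ Theta a ha s := by
      have := Theta_mono ha h0
      rwa [Theta_eq ha (by simp [ha.le])] at this
    rw [abs_of_nonneg h1]
    exact key s h0
  · have h1 : Theta a ha s ≤ 0 := by
      have := Theta_mono ha h0
      rwa [Theta_eq ha (s := 0) (by simp [ha.le])] at this
    rw [abs_of_nonpos h1, ← Theta_neg]
    exact key (-s) (by linarith)

lemma exists_deriv_bmp_le : ∃ K : ℝ, 0 ≤ K ∧ ∀ s, |deriv (bmp a ha) s| ≤ K := by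
  have h1 : ContDiff ℝ 1 (bmp a ha) := (bmp a ha).contDiff
  obtain ⟨K, hK⟩ := ((bmp a ha).hasCompactSupport.deriv).exists_bound_of_continuous
    (h1.continuous_deriv (by norm_num))
  exact ⟨K, (norm_nonneg _).trans (hK 0), fun s => hK s⟩

lemma deriv_bmp_zero {s : ℝ} (hs : 2 * a ≤ |s|) : deriv (bmp a ha) s = 0 := by
  have h1 : IsLocalMin (bmp a ha) s :=
    Eventually.of_forall fun z => by rw [bmp_zero ha hs]; exact (bmp a ha).nonneg
  exact h1.deriv_eq_zero

end theta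

/-- gradient of a composition with a real function -/
lemma gradient_comp {w : E → ℝ} {θ : ℝ → ℝ} {θ' : ℝ} {x : E} (hw : DifferentiableAt ℝ w x)
    (hθ : HasDerivAt θ θ' (w x)) :
    gradient (fun y => θ (w y)) x = θ' • gradient w x := by
  apply ext_inner_right ℝ
  intro v
  rw [inner_gradient, real_inner_smul_left, inner_gradient]
  have h1 := hθ.comp_hasFDerivAt x hw.hasFDerivAt
  have h2 : fderiv ℝ (fun y => θ (w y)) x = θ' • fderiv ℝ w x := h1.fderiv
  rw [h2]; rfl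

section main

variable {S : Set E} {w : E → ℝ} {δ C : ℝ}

lemma IsTubeShrinker.mono (h : IsTubeShrinker S w δ C) {C' : ℝ} (hC : C ≤ C') :
    IsTubeShrinker S w δ C' :=
  ⟨h.pos, h.smooth, h.mem_iff, h.norm_grad, fun x hx => (h.hess_le x hx).trans hC, h.shrinker⟩

lemma abs_hessSq_le (f : E → ℝ) (x : E) :
    |hessSq f x| ≤ Module.finrank ℝ E * ‖fderiv ℝ (gradient f) x‖ ^ 2 := by
  unfold hessSq
  refine (abs_trace_le _).trans ?_
  apply mul_le_mul_of_nonneg_left _ (Nat.cast_nonneg _)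
  refine (ContinuousLinearMap.opNorm_comp_le _ _).trans ?_
  rw [sq]

/-- bound of the support function in the tube -/
lemma IsTubeShrinker.inner_le (h : IsTubeShrinker S w δ C) (hC : 0 ≤ C) {x : E}
    (hx : |w x| < δ) : |⟪x, gradient w x⟫| / 2 ≤ Module.finrank ℝ E * C
      + δ * (Module.finrank ℝ E * C ^ 2 + 1 / 2) + 2 * Module.finrank ℝ E * C ^ 3 * δ ^ 2 := by
  have h1 := h.expand hC hx
  have h2 : |lap w x| ≤ Module.finrank ℝ E * C := by
    unfold lap
    exact (abs_trace_le _).trans (mul_le_mul_of_nonneg_left (h.hess_le x hx) (Nat.cast_nonneg _))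
  have h3 : |hessSq w x| ≤ Module.finrank ℝ E * C ^ 2 := by
    refine (abs_hessSq_le w x).trans (mul_le_mul_of_nonneg_left ?_ (Nat.cast_nonneg _))
    exact pow_le_pow_left₀ (norm_nonneg _) (h.hess_le x hx) 2
  have h4 : |w x * (hessSq w x + 1 / 2)| ≤ δ * (Module.finrank ℝ E * C ^ 2 + 1 / 2) := by
    rw [abs_mul]
    apply mul_le_mul hx.le _ (abs_nonneg _) h.pos.le
    refine (abs_add_le _ _).trans ?_
    have : |(1 / 2 : ℝ)| = 1 / 2 := by norm_num
    rw [this]; linarith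
  have h5 : 2 * Module.finrank ℝ E * C ^ 3 * (w x) ^ 2
      ≤ 2 * Module.finrank ℝ E * C ^ 3 * δ ^ 2 := by
    apply mul_le_mul_of_nonneg_left _ (by positivity)
    rw [← sq_abs]
    exact pow_le_pow_left₀ (abs_nonneg _) hx.le 2
  have h6 : ⟪x, gradient w x⟫ / 2 = lap w x + w x * (hessSq w x + 1 / 2)
      - (lap w x - ⟪x, gradient w x⟫ / 2 + w x * (hessSq w x + 1 / 2)) := by ring
  have h7 : |⟪x, gradient w x⟫| / 2 = |⟪x, gradient w x⟫ / 2| := by
    rw [abs_div]; norm_num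
  rw [h7, h6]
  refine (abs_sub _ _).trans ?_
  have := abs_add_le (lap w x) (w x * (hessSq w x + 1 / 2))
  linarith

/-- basic properties of the truncation -/
structure TruncBasic (S : Set E) (w W : E → ℝ) (δ K a K₁ K₂ : ℝ) : Prop where
  tube : IsTubeShrinker S w δ K
  K0 : 0 ≤ K
  a0 : 0 < a
  aδ : 2 * a < δ
  a1 : a ≤ 1
  aK : K * a ≤ 1 / 4
  K₁0 : 0 ≤ K₁
  K₂0 : 0 ≤ K₂
  smooth : ContDiff ℝ 2 W
  near : ∀ x, |w x| < a → W =ᶠ[𝓝 x] w
  eqW : ∀ x, |w x| < a → W x = w x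
  eqG : ∀ x, |w x| < a → gradient W x = gradient w x
  eqH : ∀ x, |w x| < a → fderiv ℝ (gradient W) x = fderiv ℝ (gradient w) x
  big : ∀ x, a ≤ |w x| → a ≤ |W x|
  Wle : ∀ x, |W x| ≤ 2 * a
  gle : ∀ x, ‖gradient W x‖ ≤ 1
  Hle : ∀ x, ‖fderiv ℝ (gradient W) x‖ ≤ K₁
  inn : ∀ x, |⟪x, gradient W x⟫| ≤ K₂

theorem IsTubeShrinker.exists_basic (h0 : IsTubeShrinker S w δ C) :
    ∃ (W : E → ℝ) (K a K₁ K₂ : ℝ), TruncBasic S w W δ K a K₁ K₂ := by
  -- normalise the constants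
  have h := h0.mono (le_max_left C 0)
  have hC : 0 ≤ max C 0 := le_max_right _ _
  generalize max C 0 = K at h hC
  clear h0
  set N : ℝ := (Module.finrank ℝ E : ℝ) with hN
  have hN0 : 0 ≤ N := Nat.cast_nonneg _
  set a : ℝ := min (δ / 4) (1 / (4 * (K + 1))) with ha_def
  have hK1 : 0 < K + 1 := by linarith
  have ha : 0 < a := lt_min (by linarith [h.pos]) (by positivity)
  have ha4 : a ≤ δ / 4 := min_le_left _ _
  have haK : K * a ≤ 1 / 4 := by
    have h1 : a ≤ 1 / (4 * (K + 1)) := min_le_right _ _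
    calc K * a ≤ (K + 1) * (1 / (4 * (K + 1))) :=
          mul_le_mul (by linarith) h1 ha.le (by linarith)
      _ = 1 / 4 := by field_simp
  have ha1 : a ≤ 1 := by
    have h7 : a ≤ 1 / (4 * (K + 1)) := min_le_right _ _
    refine h7.trans ?_
    rw [div_le_one (by positivity)]; linarith
  have haδ : 2 * a < δ := by linarith [h.pos]
  obtain ⟨K', hK'0, hK'⟩ := exists_deriv_bmp_le ha
  set W : E → ℝ := fun x => Theta a ha (w x) with hW
  have hw2 : ContDiff ℝ 2 w := h.smooth.of_le (by norm_num)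
  have hWs : ContDiff ℝ 2 W := (contDiff_Theta ha).comp hw2
  have hwd : ∀ x, DifferentiableAt ℝ w x := fun x => hw2.differentiable (by norm_num) x
  have hgW : gradient W = fun x => (bmp a ha (w x)) • gradient w x := by
    ext1 x
    exact gradient_comp (hwd x) (hasDerivAt_Theta ha _)
  have hg1 : ContDiff ℝ 1 (gradient w) := contDiff_gradient hw2 (by norm_num)
  have hHW : ∀ x, fderiv ℝ (gradient W) x = (bmp a ha (w x)) • fderiv ℝ (gradient w) x
      + (deriv (bmp a ha) (w x) • fderiv ℝ w x).smulRight (gradient w x) := by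
    intro x
    rw [hgW]
    have h1 : HasFDerivAt (gradient w) (fderiv ℝ (gradient w) x) x :=
      (hg1.differentiable (by norm_num) x).hasFDerivAt
    have hb : HasDerivAt (bmp a ha) (deriv (bmp a ha) (w x)) (w x) := by
      have : ContDiff ℝ 1 (bmp a ha) := (bmp a ha).contDiff
      exact (this.differentiable (by norm_num) _).hasDerivAt
    have h2 : HasFDerivAt (fun x => bmp a ha (w x)) (deriv (bmp a ha) (w x) • fderiv ℝ w x) x :=
      hb.comp_hasFDerivAt x (hwd x).hasFDerivAt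
    exact (h2.smul h1).fderiv
  -- near `S`
  have hnear : ∀ x, |w x| < a → W =ᶠ[𝓝 x] w := by
    intro x hx
    have : {y | |w y| < a} ∈ 𝓝 x :=
      (isOpen_lt hw2.continuous.abs continuous_const).mem_nhds hx
    filter_upwards [this] with y hy
    exact Theta_eq ha (le_of_lt hy)
  have hgn : ∀ x, |w x| < a → gradient W x = gradient w x := by
    intro x hx
    rw [hgW]
    simp only
    rw [bmp_one ha hx.le, one_smul]
  have hHn : ∀ x, |w x| < a → fderiv ℝ (gradient W) x = fderiv ℝ (gradient w) x := by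
    intro x hx
    have : gradient W =ᶠ[𝓝 x] gradient w := by
      have h1 : {y | |w y| < a} ∈ 𝓝 x :=
        (isOpen_lt hw2.continuous.abs continuous_const).mem_nhds hx
      filter_upwards [h1] with y hy using hgn y hy
    exact this.fderiv_eq
  have hWn : ∀ x, |w x| < a → W x = w x := fun x hx => (hnear x hx).self_of_nhds
  have hfar : ∀ x, 2 * a ≤ |w x| → gradient W x = 0 ∧ fderiv ℝ (gradient W) x = 0 := by
    intro x hx
    constructor
    · rw [hgW]; simp only; rw [bmp_zero ha hx, zero_smul]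
    · rw [hHW, bmp_zero ha hx, deriv_bmp_zero ha hx, zero_smul, zero_smul]
      ext v; simp
  -- bounds
  have hK₁0 : 0 ≤ K + K' := by positivity
  have hHle : ∀ x, ‖fderiv ℝ (gradient W) x‖ ≤ K + K' := by
    intro x
    rcases lt_or_ge (|w x|) (2 * a) with hx | hx
    · have hx' : |w x| < δ := hx.trans haδ
      rw [hHW]
      refine (norm_add_le _ _).trans ?_
      apply add_le_add
      · rw [norm_smul, Real.norm_eq_abs, abs_of_nonneg (bmp a ha).nonneg]
        calc _ ≤ 1 * K := mul_le_mul (bmp a ha).le_one (h.hess_le x hx') (norm_nonneg _)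
              zero_le_one
          _ = K := one_mul _
      · rw [ContinuousLinearMap.norm_smulRight_apply, norm_smul, h.norm_grad x hx', mul_one,
          ← norm_gradient, h.norm_grad x hx', mul_one, Real.norm_eq_abs]
        exact hK' _
    · rw [(hfar x hx).2, norm_zero]; exact hK₁0
  have hgle : ∀ x, ‖gradient W x‖ ≤ 1 := by
    intro x
    rcases lt_or_ge (|w x|) (2 * a) with hx | hx
    · rw [hgW]; simp only
      rw [norm_smul, h.norm_grad x (hx.trans haδ), mul_one, Real.norm_eq_abs,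
        abs_of_nonneg (bmp a ha).nonneg]
      exact (bmp a ha).le_one
    · rw [(hfar x hx).1, norm_zero]; norm_num
  have hδ := h.pos
  have hK₂0 : 0 ≤ 2 * (N * K + δ * (N * K ^ 2 + 1 / 2) + 2 * N * K ^ 3 * δ ^ 2) := by positivity
  have hinn : ∀ x, |⟪x, gradient W x⟫|
      ≤ 2 * (N * K + δ * (N * K ^ 2 + 1 / 2) + 2 * N * K ^ 3 * δ ^ 2) := by
    intro x
    rcases lt_or_ge (|w x|) (2 * a) with hx | hx
    · rw [hgW]; simp only
      rw [real_inner_smul_right, abs_mul, abs_of_nonneg (bmp a ha).nonneg]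
      have h1 := h.inner_le hC (hx.trans haδ)
      calc _ ≤ 1 * |⟪x, gradient w x⟫| :=
            mul_le_mul_of_nonneg_right (bmp a ha).le_one (abs_nonneg _)
        _ ≤ _ := by rw [one_mul]; linarith
    · rw [(hfar x hx).1, inner_zero_right, abs_zero]; exact hK₂0
  exact ⟨W, K, a, _, _, h, hC, ha, haδ, ha1, haK, hK₁0, hK₂0, hWs, hnear, hWn, hgn, hHn,
    fun x hx => Theta_ge ha hx, fun x => Theta_le ha _, hgle, hHle, hinn⟩

namespace TruncBasic

variable {W : E → ℝ} {K a K₁ K₂ : ℝ} {m : ℕ}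

lemma div_le (b : TruncBasic S w W δ K a K₁ K₂) (hE : Module.finrank ℝ E = m + 1)
    (T : Submodule ℝ E) (hT : Module.finrank ℝ T = m) (x : E) :
    |divAlong T (gradient W) x - ⟪x, gradient W x⟫ / 2|
      ≤ (Module.finrank ℝ E + 1) * K₁ + K₂ := by
  have hdiv : |divAlong T (gradient W) x| ≤ (Module.finrank ℝ E + 1) * K₁ := by
    obtain ⟨n, hn1, hnT, -, hn⟩ := exists_normal hE hT
    rw [divAlong_normal hn]
    refine (abs_sub _ _).trans ?_
    have h1 := abs_trace_le (fderiv ℝ (gradient W) x)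
    have h2 : |⟪fderiv ℝ (gradient W) x n, n⟫| ≤ ‖fderiv ℝ (gradient W) x‖ := by
      refine (abs_real_inner_le_norm _ _).trans ?_
      rw [hn1, mul_one]
      have := (fderiv ℝ (gradient W) x).le_opNorm n
      rwa [hn1, mul_one] at this
    have h3 := b.Hle x
    have h4 : (Module.finrank ℝ E : ℝ) * ‖fderiv ℝ (gradient W) x‖ ≤ Module.finrank ℝ E * K₁ :=
      mul_le_mul_of_nonneg_left h3 (Nat.cast_nonneg _)
    linarith
  refine (abs_sub _ _).trans ?_
  have h2 := b.inn x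
  have h3 : |⟪x, gradient W x⟫ / 2| = |⟪x, gradient W x⟫| / 2 := by
    rw [abs_div]; norm_num
  rw [h3]
  linarith [abs_nonneg ⟪x, gradient W x⟫]

lemma hess_tilt (b : TruncBasic S w W δ K a K₁ K₂) (hE : Module.finrank ℝ E = m + 1)
    (T : Submodule ℝ E) (hT : Module.finrank ℝ T = m) (x : E) (hx : |w x| < a) :
    |divAlong T (gradient W) x - lap w x| ≤ K * ‖proj T (gradient W x)‖ ^ 2 := by
  have hx' : |w x| < δ := by linarith [b.aδ, b.a0]
  have hw2 : ContDiff ℝ 2 w := b.tube.smooth.of_le (by norm_num)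
  obtain ⟨n, hn1, hnT, -, hn⟩ := exists_normal hE hT
  rw [divAlong_normal hn, b.eqH x hx, b.eqG x hx]
  have e1 : LinearMap.trace ℝ E (fderiv ℝ (gradient w) x).toLinearMap = lap w x := rfl
  rw [e1]
  set g := gradient w x with hg
  set B := fderiv ℝ (gradient w) x with hB
  have hg1 : ‖g‖ = 1 := b.tube.norm_grad x hx'
  have hBg : B g = 0 := b.tube.hess_grad hx'
  set v := n - ⟪n, g⟫ • g with hv
  have hBv : B n = B v := by rw [hv, map_sub, map_smul, hBg, smul_zero, sub_zero]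
  have e2 : ⟪B n, n⟫ = ⟪v, B v⟫ := by
    rw [hBv, hess_symm hw2 x v n]
    change ⟪v, B n⟫ = _
    rw [hBv]
  have e3 : ‖proj T g‖ ^ 2 = ‖v‖ ^ 2 := by
    rw [norm_proj_sq hn1 hn, hv, norm_sub_sq' hn1 hg1, hg1]; norm_num
  have e4 : lap w x - ⟪B n, n⟫ - lap w x = -⟪v, B v⟫ := by rw [e2]; ring
  rw [e4, abs_neg, e3]
  refine (abs_real_inner_le_norm _ _).trans ?_
  have h1 : ‖B v‖ ≤ K * ‖v‖ :=
    (B.le_opNorm v).trans (mul_le_mul_of_nonneg_right (b.tube.hess_le x hx') (norm_nonneg _))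
  calc ‖v‖ * ‖B v‖ ≤ ‖v‖ * (K * ‖v‖) := mul_le_mul_of_nonneg_left h1 (norm_nonneg _)
    _ = _ := by ring

lemma expand_near (b : TruncBasic S w W δ K a K₁ K₂) (hE : Module.finrank ℝ E = m + 1)
    (T : Submodule ℝ E) (hT : Module.finrank ℝ T = m) (x : E) (hx : |w x| < a) :
    |divAlong T (gradient W) x - ⟪x, gradient W x⟫ / 2 + (hessSq W x + 1 / 2) * W x|
      ≤ 2 * Module.finrank ℝ E * K ^ 3 * (W x) ^ 2 + K * ‖proj T (gradient W x)‖ ^ 2 := by
  have hx' : |w x| < δ := by linarith [b.aδ, b.a0]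
  have h1 := b.tube.expand b.K0 hx'
  have h2 := b.hess_tilt hE T hT x hx
  have h3 : hessSq W x = hessSq w x := by unfold hessSq; rw [b.eqH x hx]
  have e1 : divAlong T (gradient W) x - ⟪x, gradient W x⟫ / 2 + (hessSq W x + 1 / 2) * W x
      = (divAlong T (gradient W) x - lap w x)
        + (lap w x - ⟪x, gradient w x⟫ / 2 + w x * (hessSq w x + 1 / 2)) := by
    rw [h3, b.eqW x hx, b.eqG x hx]; ring
  rw [e1]
  refine (abs_add_le _ _).trans ?_
  rw [b.eqW x hx]
  linarith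

lemma hessSq_le (b : TruncBasic S w W δ K a K₁ K₂) (x : E) :
    |hessSq W x| ≤ Module.finrank ℝ E * K₁ ^ 2 := by
  refine (abs_hessSq_le W x).trans (mul_le_mul_of_nonneg_left ?_ (Nat.cast_nonneg _))
  exact pow_le_pow_left₀ (norm_nonneg _) (b.Hle x) 2

lemma expand_far (b : TruncBasic S w W δ K a K₁ K₂) (hE : Module.finrank ℝ E = m + 1)
    (T : Submodule ℝ E) (hT : Module.finrank ℝ T = m) (x : E) :
    |divAlong T (gradient W) x - ⟪x, gradient W x⟫ / 2 + (hessSq W x + 1 / 2) * W x|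
      ≤ (Module.finrank ℝ E + 1) * K₁ + K₂
        + (Module.finrank ℝ E * K₁ ^ 2 + 1 / 2) * (2 * a) := by
  refine (abs_add_le _ _).trans ?_
  have h1 := b.div_le hE T hT x
  have h2 : |(hessSq W x + 1 / 2) * W x|
      ≤ (Module.finrank ℝ E * K₁ ^ 2 + 1 / 2) * (2 * a) := by
    rw [abs_mul]
    apply mul_le_mul _ (b.Wle x) (abs_nonneg _) (by positivity)
    refine (abs_add_le _ _).trans ?_
    have h3 := b.hessSq_le x
    have h6 : |(1 / 2 : ℝ)| = 1 / 2 := by norm_num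
    rw [h6]; linarith
  linarith

lemma expand (b : TruncBasic S w W δ K a K₁ K₂) (hE : Module.finrank ℝ E = m + 1) :
    ∃ K' : ℝ, 0 ≤ K' ∧ ∀ T : Submodule ℝ E, Module.finrank ℝ T = m → ∀ x,
    |divAlong T (gradient W) x - ⟪x, gradient W x⟫ / 2 + (hessSq W x + 1 / 2) * W x|
      ≤ K' * (W x ^ 2 + ‖proj T (gradient W x)‖ ^ 2) := by
  have ha := b.a0
  have hK0 := b.K0
  have hK₁0 := b.K₁0
  have hK₂0 := b.K₂0
  set N : ℝ := (Module.finrank ℝ E : ℝ) with hN
  have hN0 : 0 ≤ N := Nat.cast_nonneg _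
  set K₃ := (N + 1) * K₁ + K₂ + (N * K₁ ^ 2 + 1 / 2) * (2 * a) with hK₃
  have hK₃0 : 0 ≤ K₃ := by positivity
  have p1 : 0 ≤ K₃ / a ^ 2 := by positivity
  have p4 : 0 ≤ 2 * N * K ^ 3 := by positivity
  refine ⟨2 * N * K ^ 3 + K + K₃ / a ^ 2, by positivity, fun T hT x => ?_⟩
  have s1 : 0 ≤ W x ^ 2 := sq_nonneg _
  have s2 : 0 ≤ ‖proj T (gradient W x)‖ ^ 2 := sq_nonneg _
  rcases lt_or_ge (|w x|) a with hx | hx
  · refine (b.expand_near hE T hT x hx).trans ?_
    have q1 : 2 * N * K ^ 3 * (W x) ^ 2 ≤ (2 * N * K ^ 3 + K + K₃ / a ^ 2) * (W x) ^ 2 :=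
      mul_le_mul_of_nonneg_right (by linarith) s1
    have q2 : K * ‖proj T (gradient W x)‖ ^ 2
        ≤ (2 * N * K ^ 3 + K + K₃ / a ^ 2) * ‖proj T (gradient W x)‖ ^ 2 :=
      mul_le_mul_of_nonneg_right (by linarith) s2
    linarith
  · refine (b.expand_far hE T hT x).trans ?_
    have h3 : a ^ 2 ≤ W x ^ 2 := by
      rw [← sq_abs (W x)]; exact pow_le_pow_left₀ ha.le (b.big x hx) 2
    calc K₃ = K₃ / a ^ 2 * a ^ 2 := by field_simp
      _ ≤ _ := by
        apply mul_le_mul (by linarith) _ (sq_nonneg _) (by linarith)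
        linarith

lemma absorb (b : TruncBasic S w W δ K a K₁ K₂) (hE : Module.finrank ℝ E = m + 1) :
    ∃ K' : ℝ, 0 ≤ K' ∧ ∀ T : Submodule ℝ E, Module.finrank ℝ T = m → ∀ x,
    |W x| * |divAlong T (gradient W) x - ⟪x, gradient W x⟫ / 2|
      ≤ K' * W x ^ 2 + 1 / 4 * ‖proj T (gradient W x)‖ ^ 2 := by
  have ha := b.a0
  have hK0 := b.K0
  have hK₁0 := b.K₁0
  have hK₂0 := b.K₂0
  set N : ℝ := (Module.finrank ℝ E : ℝ) with hN
  have hN0 : 0 ≤ N := Nat.cast_nonneg _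
  set K₃ := (N + 1) * K₁ + K₂ with hK₃
  have hK₃0 : 0 ≤ K₃ := by positivity
  set K₅ := N * K₁ ^ 2 + 1 / 2 + 2 * N * K ^ 3 with hK₅
  have hK₅0 : 0 ≤ K₅ := by positivity
  have p1 : 0 ≤ K₃ / a := by positivity
  refine ⟨K₅ + K₃ / a, by positivity, fun T hT x => ?_⟩
  have s1 : 0 ≤ W x ^ 2 := sq_nonneg _
  set P := ‖proj T (gradient W x)‖ ^ 2 with hP
  have hP0 : 0 ≤ P := sq_nonneg _
  rcases lt_or_ge (|w x|) a with hx | hx
  · have hWx : |W x| < a := by rw [b.eqW x hx]; exact hx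
    have h1 := b.expand_near hE T hT x hx
    have h3 := b.hessSq_le x
    have h4 : |(hessSq W x + 1 / 2) * W x| ≤ (N * K₁ ^ 2 + 1 / 2) * |W x| := by
      rw [abs_mul]
      apply mul_le_mul_of_nonneg_right _ (abs_nonneg _)
      refine (abs_add_le _ _).trans ?_
      have : |(1 / 2 : ℝ)| = 1 / 2 := by norm_num
      rw [this]; linarith
    have h5 : |divAlong T (gradient W) x - ⟪x, gradient W x⟫ / 2|
        ≤ K * P + 2 * N * K ^ 3 * (W x) ^ 2 + (N * K₁ ^ 2 + 1 / 2) * |W x| := by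
      have e1 : divAlong T (gradient W) x - ⟪x, gradient W x⟫ / 2
          = (divAlong T (gradient W) x - ⟪x, gradient W x⟫ / 2 + (hessSq W x + 1 / 2) * W x)
            - (hessSq W x + 1 / 2) * W x := by ring
      rw [e1]
      refine (abs_sub _ _).trans ?_
      linarith
    have h6 : |W x| ≤ 1 := by linarith [b.a1]
    have h7 : K * |W x| ≤ 1 / 4 := (mul_le_mul_of_nonneg_left hWx.le hK0).trans b.aK
    have h8 : |W x| * |W x| = W x ^ 2 := by rw [← sq, sq_abs]
    calc |W x| * |divAlong T (gradient W) x - ⟪x, gradient W x⟫ / 2|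
        ≤ |W x| * (K * P + 2 * N * K ^ 3 * (W x) ^ 2 + (N * K₁ ^ 2 + 1 / 2) * |W x|) :=
          mul_le_mul_of_nonneg_left h5 (abs_nonneg _)
      _ = (K * |W x|) * P + |W x| * (2 * N * K ^ 3 * (W x) ^ 2)
          + (|W x| * |W x|) * (N * K₁ ^ 2 + 1 / 2) := by ring
      _ ≤ 1 / 4 * P + 1 * (2 * N * K ^ 3 * (W x) ^ 2) + W x ^ 2 * (N * K₁ ^ 2 + 1 / 2) := by
          rw [h8]
          have := mul_le_mul_of_nonneg_right h7 hP0
          have := mul_le_mul_of_nonneg_right h6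
            (show 0 ≤ 2 * N * K ^ 3 * (W x) ^ 2 by positivity)
          linarith
      _ = K₅ * W x ^ 2 + 1 / 4 * P := by ring
      _ ≤ (K₅ + K₃ / a) * W x ^ 2 + 1 / 4 * P := by
          have : K₅ * W x ^ 2 ≤ (K₅ + K₃ / a) * W x ^ 2 :=
            mul_le_mul_of_nonneg_right (by linarith) s1
          linarith
  · have h1 := b.div_le hE T hT x
    have h2 := b.big x hx
    calc |W x| * |divAlong T (gradient W) x - ⟪x, gradient W x⟫ / 2|
        ≤ |W x| * K₃ := mul_le_mul_of_nonneg_left h1 (abs_nonneg _)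
      _ = K₃ / a * (|W x| * a) := by field_simp
      _ ≤ K₃ / a * (|W x| * |W x|) := by gcongr
      _ = K₃ / a * W x ^ 2 := by rw [← sq, sq_abs]
      _ ≤ (K₅ + K₃ / a) * W x ^ 2 := mul_le_mul_of_nonneg_right (by linarith) s1
      _ ≤ _ := by linarith

lemma normal (b : TruncBasic S w W δ K a K₁ K₂) (hE : Module.finrank ℝ E = m + 1) :
    ∀ T : Submodule ℝ E, Module.finrank ℝ T = m → ∀ x Y φ : E, φ ∈ Tᗮ →
    |⟪Y, φ⟫ - ⟪gradient W x, Y⟫ * ⟪gradient W x, φ⟫|
      ≤ (1 + 2 / a) * ‖Y‖ * ‖φ‖ * (‖proj T (gradient W x)‖ + |W x|) := by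
  intro T hT x Y φ hφ
  have ha := b.a0
  obtain ⟨n, hn1, hnT, hnφ, hn⟩ := exists_normal hE hT
  have p0 : 0 ≤ 2 / a := by positivity
  rcases lt_or_ge (|w x|) a with hx | hx
  · have hx' : |w x| < δ := by linarith [b.aδ]
    have hg1 : ‖gradient W x‖ = 1 := by rw [b.eqG x hx]; exact b.tube.norm_grad x hx'
    generalize gradient W x = g at hg1 ⊢
    set c := ⟪n, φ⟫ with hc
    have hφ' : φ = c • n := hnφ φ hφ
    have hcφ : |c| = ‖φ‖ := by rw [hφ', norm_smul, hn1, mul_one, Real.norm_eq_abs]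
    have e1 : ⟪Y, φ⟫ - ⟪g, Y⟫ * ⟪g, φ⟫ = c * ⟪Y, n - ⟪n, g⟫ • g⟫ := by
      rw [hφ']
      simp only [real_inner_smul_right, inner_sub_right]
      rw [real_inner_comm Y g, real_inner_comm n g]; ring
    have e2 : ‖proj T g‖ = ‖n - ⟪n, g⟫ • g‖ := by
      have e3 : ‖proj T g‖ ^ 2 = ‖n - ⟪n, g⟫ • g‖ ^ 2 := by
        rw [norm_proj_sq hn1 hn, norm_sub_sq' hn1 hg1, hg1]; norm_num
      exact (pow_left_inj₀ (norm_nonneg _) (norm_nonneg _) two_ne_zero).1 e3
    rw [e1, abs_mul, hcφ]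
    have h2 := abs_real_inner_le_norm Y (n - ⟪n, g⟫ • g)
    rw [← e2] at h2
    calc ‖φ‖ * |⟪Y, n - ⟪n, g⟫ • g⟫| ≤ ‖φ‖ * (‖Y‖ * ‖proj T g‖) :=
          mul_le_mul_of_nonneg_left h2 (norm_nonneg _)
      _ = 1 * (‖Y‖ * ‖φ‖ * ‖proj T g‖) := by ring
      _ ≤ (1 + 2 / a) * (‖Y‖ * ‖φ‖ * (‖proj T g‖ + |W x|)) := by
          apply mul_le_mul (by linarith) _ (by positivity) (by linarith)
          apply mul_le_mul_of_nonneg_left _ (by positivity)
          linarith [abs_nonneg (W x)]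
      _ = _ := by ring
  · have h2 := b.big x hx
    have h3 : |⟪Y, φ⟫ - ⟪gradient W x, Y⟫ * ⟪gradient W x, φ⟫| ≤ 2 * (‖Y‖ * ‖φ‖) := by
      refine (abs_sub _ _).trans ?_
      have q1 := abs_real_inner_le_norm Y φ
      have q2 : |⟪gradient W x, Y⟫| ≤ ‖Y‖ := by
        refine (abs_real_inner_le_norm _ _).trans ?_
        exact mul_le_of_le_one_left (norm_nonneg _) (b.gle x)
      have q3 : |⟪gradient W x, φ⟫| ≤ ‖φ‖ := by
        refine (abs_real_inner_le_norm _ _).trans ?_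
        exact mul_le_of_le_one_left (norm_nonneg _) (b.gle x)
      have q4 : |⟪gradient W x, Y⟫ * ⟪gradient W x, φ⟫| ≤ ‖Y‖ * ‖φ‖ := by
        rw [abs_mul]; exact mul_le_mul q2 q3 (abs_nonneg _) (norm_nonneg _)
      linarith
    calc _ ≤ 2 * (‖Y‖ * ‖φ‖) := h3
      _ = 2 / a * (‖Y‖ * ‖φ‖ * a) := by field_simp
      _ ≤ (1 + 2 / a) * (‖Y‖ * ‖φ‖ * (‖proj T (gradient W x)‖ + |W x|)) := by
          apply mul_le_mul (by linarith) _ (by positivity) (by linarith)
          apply mul_le_mul_of_nonneg_left _ (by positivity)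
          linarith [norm_nonneg (proj T (gradient W x))]
      _ = _ := by ring

lemma tilt (b : TruncBasic S w W δ K a K₁ K₂) (hE : Module.finrank ℝ E = m + 1) :
    ∀ T : Submodule ℝ E, Module.finrank ℝ T = m → ∀ (x : E) (X : E → E),
    |divAlong T X x - (LinearMap.trace ℝ E (fderiv ℝ X x).toLinearMap
        - ⟪fderiv ℝ X x (gradient W x), gradient W x⟫)|
      ≤ (4 + 2 / a) * ‖fderiv ℝ X x‖ * (‖proj T (gradient W x)‖ + |W x|) := by
  intro T hT x X
  have ha := b.a0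
  have p0 : 0 ≤ 2 / a := by positivity
  obtain ⟨n, hn1, hnT, hnφ, hn⟩ := exists_normal hE hT
  rw [divAlong_normal hn]
  set A := fderiv ℝ X x with hA
  have e0 : LinearMap.trace ℝ E A.toLinearMap - ⟪A n, n⟫
      - (LinearMap.trace ℝ E A.toLinearMap - ⟪A (gradient W x), gradient W x⟫)
      = -(⟪A n, n⟫ - ⟪A (gradient W x), gradient W x⟫) := by ring
  rw [e0, abs_neg]
  rcases lt_or_ge (|w x|) a with hx | hx
  · have hx' : |w x| < δ := by linarith [b.aδ]
    have hg1 : ‖gradient W x‖ = 1 := by rw [b.eqG x hx]; exact b.tube.norm_grad x hx'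
    generalize gradient W x = g at hg1 ⊢
    have h1 := abs_quad_sub_le A hn1 hg1
    have e2 : √(1 - ⟪n, g⟫ ^ 2) = ‖proj T g‖ := by
      have e3 : ‖proj T g‖ ^ 2 = 1 - ⟪n, g⟫ ^ 2 := by
        rw [norm_proj_sq hn1 hn, hg1]; norm_num
      rw [← e3, Real.sqrt_sq (norm_nonneg _)]
    rw [e2] at h1
    calc _ ≤ 4 * ‖A‖ * ‖proj T g‖ := h1
      _ = 4 * (‖A‖ * ‖proj T g‖) := by ring
      _ ≤ (4 + 2 / a) * (‖A‖ * (‖proj T g‖ + |W x|)) := by
          apply mul_le_mul (by linarith) _ (by positivity) (by linarith)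
          apply mul_le_mul_of_nonneg_left _ (by positivity)
          linarith [abs_nonneg (W x)]
      _ = _ := by ring
  · have h2 := b.big x hx
    have bd : ∀ v : E, ‖v‖ ≤ 1 → |⟪A v, v⟫| ≤ ‖A‖ := by
      intro v hv
      refine (abs_real_inner_le_norm _ _).trans ?_
      calc ‖A v‖ * ‖v‖ ≤ (‖A‖ * ‖v‖) * 1 :=
            mul_le_mul (A.le_opNorm v) hv (norm_nonneg _) (by positivity)
        _ ≤ ‖A‖ := by
            rw [mul_one]; exact mul_le_of_le_one_right (norm_nonneg _) hv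
    have h3 : |⟪A n, n⟫ - ⟪A (gradient W x), gradient W x⟫| ≤ 2 * ‖A‖ := by
      refine (abs_sub _ _).trans ?_
      have := bd n hn1.le
      have := bd _ (b.gle x)
      linarith
    calc _ ≤ 2 * ‖A‖ := h3
      _ = 2 / a * (‖A‖ * a) := by field_simp
      _ ≤ (4 + 2 / a) * (‖A‖ * (‖proj T (gradient W x)‖ + |W x|)) := by
          apply mul_le_mul (by linarith) _ (by positivity) (by linarith)
          apply mul_le_mul_of_nonneg_left _ (by positivity)
          linarith [norm_nonneg (proj T (gradient W x))]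
      _ = _ := by ring

end TruncBasic

/-- **The truncated signed distance function.** -/
theorem IsTubeShrinker.exists_trunc {m : ℕ} (hE : Module.finrank ℝ E = m + 1)
    (h0 : IsTubeShrinker S w δ C) : ∃ (W : E → ℝ) (C' a : ℝ), IsTrunc m W C' ∧
      (∀ x, W x = 0 ↔ x ∈ S) ∧ 0 < a ∧ a < δ ∧ (∀ x, |w x| < a → W =ᶠ[𝓝 x] w) ∧
      ∀ x, a ≤ |w x| → a ≤ |W x| := by
  obtain ⟨W, K, a, K₁, K₂, b⟩ := h0.exists_basic
  obtain ⟨k₁, hk₁, h1⟩ := b.expand hE
  obtain ⟨k₂, hk₂, h2⟩ := b.absorb hE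
  have h3 := b.normal hE
  have h4 := b.tilt hE
  have ha := b.a0
  have p0 : 0 ≤ 2 / a := by positivity
  have p1 := b.K₁0
  refine ⟨W, 4 + 2 / a + k₁ + k₂ + K₁ + 2 * a, a, ⟨by linarith, b.smooth, fun x => ?_, b.gle,
    fun x => ?_, ?_, ?_, ?_, ?_⟩, ?_, ha, by linarith [b.aδ], b.near, b.big⟩
  · exact (b.Wle x).trans (by linarith)
  · exact (b.Hle x).trans (by linarith)
  · intro T hT x
    refine (h1 T hT x).trans (mul_le_mul_of_nonneg_right (by linarith) (by positivity))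
  · intro T hT x
    refine (h2 T hT x).trans ?_
    have : k₂ * W x ^ 2 ≤ (4 + 2 / a + k₁ + k₂ + K₁ + 2 * a) * W x ^ 2 :=
      mul_le_mul_of_nonneg_right (by linarith) (sq_nonneg _)
    linarith
  · intro T hT x Y φ hφ
    refine (h3 T hT x Y φ hφ).trans ?_
    exact mul_le_mul_of_nonneg_right (mul_le_mul_of_nonneg_right (mul_le_mul_of_nonneg_right
      (by linarith) (norm_nonneg _)) (norm_nonneg _)) (by positivity)
  · intro T hT x X
    refine (h4 T hT x X).trans ?_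
    exact mul_le_mul_of_nonneg_right (mul_le_mul_of_nonneg_right
      (by linarith) (norm_nonneg _)) (by positivity)
  · intro x
    rw [b.tube.mem_iff]
    constructor
    · intro hx
      by_contra hne
      rcases lt_or_ge (|w x|) a with h1 | h1
      · rw [b.eqW x h1] at hx; exact hne hx
      · have := b.big x h1
        rw [hx, abs_zero] at this
        linarith
    · intro hx
      rw [b.eqW x (by rw [hx, abs_zero]; exact ha), hx]

end main

end Vale.Agent.P218.H63
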