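import Vale.Agent.P218.Defs

/-! Self-shrinking hypersurfaces with a uniform tubular neighbourhood, Jacobi fields. -/

open MeasureTheory Set Filter Topology
open scoped ENNReal NNReal

namespace Vale.Agent.P218.H63

variable {E : Type*} [NormedAddCommGroup E] [InnerProductSpace ℝ E] [FiniteDimensional ℝ E]

/-- the Laplacian of `f`: the trace of the Hessian -/
noncomputable def lap (f : E → ℝ) (x : E) : ℝ :=
  LinearMap.trace ℝ E (fderiv ℝ (gradient f) x).toLinearMap

/-- the square of the Hilbert–Schmidt norm of the Hessian of `f` -/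
noncomputable def hessSq (f : E → ℝ) (x : E) : ℝ :=
  LinearMap.trace ℝ E ((fderiv ℝ (gradient f) x).comp (fderiv ℝ (gradient f) x)).toLinearMap

/-- `S = {w = 0}` is a self-shrinking hypersurface with a uniform tubular neighbourhood
`{|w| < δ}`, in which `w` is a signed distance function with Hessian bounded by `C`: there
`|∇w| = 1`, and on `S` the equation `Δw = ⟨x, ∇w⟩ / 2`, that is `H + x^⊥/2 = 0`, holds. -/
structure IsTubeShrinker (S : Set E) (w : E → ℝ) (δ C : ℝ) : Prop where
  pos : 0 < δ
  smooth : ContDiff ℝ 3 w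
  mem_iff : ∀ x, x ∈ S ↔ w x = 0
  norm_grad : ∀ x, |w x| < δ → ‖gradient w x‖ = 1
  hess_le : ∀ x, |w x| < δ → ‖fderiv ℝ (gradient w) x‖ ≤ C
  shrinker : ∀ x ∈ S, lap w x = inner ℝ x (gradient w x) / 2

/-- the stability operator of `S = {w = 0}` applied to a function `η` defined on `E`:
`L η = Δη - D²η(ν,ν) - ⟨x, ∇η⟩/2 + (|D²w|² + 1/2) η`, `ν = ∇w`; on a self-shrinker this is
`Δ_S η - ⟨x, ∇_S η⟩/2 + (|A|² + 1/2) η`. -/
noncomputable def stab (w η : E → ℝ) (x : E) : ℝ :=
  lap η x - inner ℝ (fderiv ℝ (gradient η) x (gradient w x)) (gradient w x)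
    - inner ℝ x (gradient η x) / 2 + (hessSq w x + 1 / 2) * η x

variable [MeasurableSpace E] [BorelSpace E]

/-- the Gaussian area measure `e^{-|x|²/4} H^m` on `S` -/
noncomputable def gaussArea (m : ℕ) (S : Set E) : Measure E :=
  ((μH[m] : Measure E).restrict S).withDensity fun x => ENNReal.ofReal (Real.exp (-‖x‖ ^ 2 / 4))

/-- `u` is a Jacobi field of the self-shrinker `S = {w = 0}` which is square integrable for the
Gaussian area: `L u = 0` weakly, tested with smooth functions of compact support -/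
structure IsJacobiField (m : ℕ) (S : Set E) (w u : E → ℝ) : Prop where
  sq_int : MemLp u 2 (gaussArea m S)
  eq_zero : ∀ η : E → ℝ, ContDiff ℝ (⊤ : ℕ∞) η → HasCompactSupport η →
    ∫ x, u x * stab w η x ∂(gaussArea m S) = 0

/-- every square integrable Jacobi field of `S = {w = 0}` is the normal part `⟨A x, ν⟩` of an
infinitesimal rotation `A` -/
def RotationallyNondegenerate (m : ℕ) (S : Set E) (w : E → ℝ) : Prop :=
  ∀ u : E → ℝ, IsJacobiField m S w u → ∃ A : E →L[ℝ] E, (∀ x, inner ℝ (A x) x = 0) ∧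
    u =ᵐ[gaussArea m S] fun x => inner ℝ (A x) (gradient w x)

end Vale.Agent.P218.H63
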