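import Vale.Agent.P218.H313.Jac

/-! Second order expansion at a shrinker: the exact identity for `∫ ⟨∇(W v), φ⟩ ρ` and the pointwise
expansion in the tube. -/

open MeasureTheory Set Filter Topology Metric
open scoped ENNReal NNReal RealInnerProductSpace

namespace Vale.Agent.P218.H313

open Vale.Agent.P214 (IntegralVarifold proj divAlong IsTestField)

set_option linter.unusedSectionVars false
set_option linter.unusedVariables false

variable {E : Type*} [NormedAddCommGroup E] [InnerProductSpace ℝ E] [FiniteDimensional ℝ E]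

/-- A tube function with the second order expansion of the shrinker equation off `S`. -/
structure Tube3 (W : E → ℝ) (c K : ℝ) : Prop extends TubeD W c K where
  ric2 : ∀ x, |W x| < c → |tr (fderiv ℝ (grad W) x) - 1 / 2 * ⟪x, grad W x⟫
    + (tr ((fderiv ℝ (grad W) x).comp (fderiv ℝ (grad W) x)) + 1 / 2) * W x
    + W x ^ 2 * tr ((fderiv ℝ (grad W) x).comp
      ((fderiv ℝ (grad W) x).comp (fderiv ℝ (grad W) x)))| ≤ K * |W x| ^ 3

/-- the derivative of `jac W v` in the direction `∇W`, on `S`, for `v` constant along normals -/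
noncomputable def thx (W v : E → ℝ) (x : E) : ℝ :=
  -2 * tr ((fderiv ℝ (grad W) x).comp (fderiv ℝ (grad v) x))
    - 2 * v x * tr ((fderiv ℝ (grad W) x).comp
      ((fderiv ℝ (grad W) x).comp (fderiv ℝ (grad W) x)))

/-- A Jacobi field of polynomial growth, extended constantly along the normals. -/
structure JF (W v : E → ℝ) (c K : ℝ) (q : ℕ) : Prop where
  cd : ContDiff ℝ 2 v
  b0 : ∀ x, |v x| ≤ K * wt q x
  b1 : ∀ x, ‖grad v x‖ ≤ K * wt q x
  b2 : ∀ x, ‖fderiv ℝ (grad v) x‖ ≤ K * wt q x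
  nrm : ∀ x, |W x| < c → ⟪grad v x, grad W x⟫ = 0
  j0 : ∀ x, |jac W v x| ≤ K * wt q x * |W x|
  j1 : ∀ R ε : ℝ, 0 < ε → ∃ δ > 0, ∀ x, ‖x‖ ≤ R → |W x| < δ →
    |jac W v x - W x * thx W v x| ≤ ε * |W x|

/-- the second order part of the integrand -/
noncomputable def mm2 (W v : E → ℝ) (T : E → Submodule ℝ E) (x : E) : ℝ :=
  W x * jac W v x
    + W x ^ 2 * (v x * tr ((fderiv ℝ (grad W) x).comp
      ((fderiv ℝ (grad W) x).comp (fderiv ℝ (grad W) x))))
    + v x * ⟪fderiv ℝ (grad W) x (proj (T x) (grad W x)), proj (T x) (grad W x)⟫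
    - 2 * W x * ⟪fderiv ℝ (grad W) x (grad v x), proj (T x) (grad W x)⟫

section pointwise

variable {W v : E → ℝ} {c K : ℝ} {q m : ℕ}

/-- the Hessian of a function constant along normals, in the direction of the normal -/
lemma JF.hess_grad (hW : TubeD W c K) (hv : JF W v c K q) {x : E} (hx : |W x| < c) :
    fderiv ℝ (grad v) x (grad W x) = -(fderiv ℝ (grad W) x (grad v x)) := by
  have h1 : ContDiff ℝ 1 (grad W) := contDiff_grad_one hW.smooth
  have h1v : ContDiff ℝ 1 (grad v) := contDiff_grad_one hv.cd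
  have hd : HasFDerivAt (grad W) (fderiv ℝ (grad W) x) x :=
    (h1.differentiable (by norm_num) x).hasFDerivAt
  have hdv : HasFDerivAt (grad v) (fderiv ℝ (grad v) x) x :=
    (h1v.differentiable (by norm_num) x).hasFDerivAt
  have h2 := hdv.inner ℝ hd
  have h3 : (fun y => ⟪grad v y, grad W y⟫) =ᶠ[𝓝 x] fun _ => (0 : ℝ) := by
    filter_upwards [hW.isOpen.mem_nhds hx] with y hy using hv.nrm y hy
  have h4 : HasFDerivAt (fun y => ⟪grad v y, grad W y⟫) (0 : E →L[ℝ] ℝ) x :=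
    (hasFDerivAt_const (0 : ℝ) x).congr_of_eventuallyEq h3
  have h5 := h2.unique h4
  apply ext_inner_left ℝ
  intro w
  have h6 := congrArg (fun L : E →L[ℝ] ℝ => L w) h5
  simp at h6
  rw [inner_neg_right]
  have e1 : ⟪fderiv ℝ (grad v) x w, grad W x⟫ = ⟪w, fderiv ℝ (grad v) x (grad W x)⟫ :=
    hess_symm hv.cd x w (grad W x)
  have e2 : ⟪grad v x, fderiv ℝ (grad W) x w⟫ = ⟪w, fderiv ℝ (grad W) x (grad v x)⟫ := by
    rw [real_inner_comm, hess_symm hW.smooth]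
  rw [← e1, ← e2]
  linarith

/-- the quadratic form of a symmetric operator at the normal of a hyperplane -/
lemma quad_n {T : Submodule ℝ E} {n g : E} (hn : ∀ v, proj T v = v - ⟪n, v⟫ • n)
    (B : E →L[ℝ] E) (hB : ∀ a b, ⟪B a, b⟫ = ⟪a, B b⟫) :
    ⟪n, g⟫ ^ 2 * ⟪B n, n⟫ = ⟪B g, g⟫ - 2 * ⟪B g, proj T g⟫ + ⟪B (proj T g), proj T g⟫ := by
  set p := proj T g with hp
  have h1 : ⟪n, g⟫ • n = g - p := by rw [hp, hn g]; abel
  have h2 : ⟪n, g⟫ ^ 2 * ⟪B n, n⟫ = ⟪B (⟪n, g⟫ • n), ⟪n, g⟫ • n⟫ := by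
    rw [map_smul, real_inner_smul_left, real_inner_smul_right]; ring
  rw [h2, h1, map_sub, inner_sub_left, inner_sub_right, inner_sub_right]
  have h3 : ⟪B p, g⟫ = ⟪B g, p⟫ := by rw [hB, real_inner_comm]
  rw [h3]; ring

lemma tr_proj_comp_normal {T : Submodule ℝ E} {n : E} (hn : ∀ v, proj T v = v - ⟪n, v⟫ • n)
    (A : E →L[ℝ] E) : tr ((proj T).comp A) = tr A - ⟪A n, n⟫ := by
  have h1 : (proj T).comp A = A - ((innerSL ℝ n).comp A).smulRight n := by
    ext v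
    simp [hn]
  rw [h1, tr_sub]
  congr 1
  have h2 := tr_comp_smulRight (ContinuousLinearMap.id ℝ E) ((innerSL ℝ n).comp A) n
  rw [ContinuousLinearMap.id_comp] at h2
  rw [h2]
  simp [real_inner_comm]

lemma abs_tr_comp3_le {A : E →L[ℝ] E} (hA : ‖A‖ ≤ K) (hK : 0 ≤ K) :
    |tr (A.comp (A.comp A))| ≤ Module.finrank ℝ E * K ^ 3 := by
  refine (abs_tr_le _).trans ?_
  gcongr
  calc ‖A.comp (A.comp A)‖ ≤ ‖A‖ * (‖A‖ * ‖A‖) :=
        (ContinuousLinearMap.opNorm_comp_le _ _).trans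
          (mul_le_mul_of_nonneg_left (ContinuousLinearMap.opNorm_comp_le _ _) (norm_nonneg _))
    _ ≤ K * (K * K) := by gcongr
    _ = K ^ 3 := by ring

/-- the integrand of first and second order -/
noncomputable def mm1 (W v : E → ℝ) (T : E → Submodule ℝ E) (x : E) : ℝ :=
  -(v x * (tr ((proj (T x)).comp (fderiv ℝ (grad W) x)) - 1 / 2 * ⟪x, grad W x⟫))
    + W x * (tr ((proj (T x)).comp (fderiv ℝ (grad v) x)) - 1 / 2 * ⟪x, grad v x⟫)

/-- the third order factor -/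
noncomputable def rr3 (W : E → ℝ) (T : E → Submodule ℝ E) (x : E) : ℝ :=
  (|W x| + ‖proj (T x) (grad W x)‖) * (W x ^ 2 + ‖proj (T x) (grad W x)‖ ^ 2)

lemma m_near (hW : Tube3 W c K) (hv : JF W v c K q) (hE : Module.finrank ℝ E = m + 1)
    {T : E → Submodule ℝ E} {x : E} (hT : Module.finrank ℝ (T x) = m) (hx : |W x| < c)
    (hp : ‖proj (T x) (grad W x)‖ ≤ 1 / 2) :
    |mm1 W v T x - mm2 W v T x| ≤ (2 * K ^ 2 + 2 * K) * wt q x * rr3 W T x := by
  have hK := hW.toTubeD.K_nonneg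
  obtain ⟨n, hn1, hnT, -, hn⟩ := H63.exists_normal hE hT
  have hric := hW.ric2 x hx
  have hAg := hW.toTubeD.hess_grad hx
  have hBg := hv.hess_grad hW.toTubeD hx
  have hg1 : ‖grad W x‖ = 1 := hW.eik x hx
  have hAs : ∀ a b, ⟪fderiv ℝ (grad W) x a, b⟫ = ⟪a, fderiv ℝ (grad W) x b⟫ :=
    fun a b => hess_symm hW.smooth x a b
  have hBs : ∀ a b, ⟪fderiv ℝ (grad v) x a, b⟫ = ⟪a, fderiv ℝ (grad v) x b⟫ :=
    fun a b => hess_symm hv.cd x a b
  have hAn := hW.b2 x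
  have hBn := hv.b2 x
  have hv0 := hv.b0 x
  unfold mm1 mm2 rr3 jac
  rw [tr_proj_comp_normal hn, tr_proj_comp_normal hn]
  have qA := quad_n (g := grad W x) hn (fderiv ℝ (grad W) x) hAs
  have qB := quad_n (g := grad W x) hn (fderiv ℝ (grad v) x) hBs
  have hs : ⟪n, grad W x⟫ ^ 2 = 1 - ‖proj (T x) (grad W x)‖ ^ 2 := by
    rw [H63.norm_proj_sq hn1 hn, hg1]; ring
  have hBgg : ⟪fderiv ℝ (grad v) x (grad W x), grad W x⟫ = 0 := by
    rw [hBg, inner_neg_left, hAs, hAg, inner_zero_right, neg_zero]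
  rw [hAg, inner_zero_left, inner_zero_left] at qA
  rw [hBgg, hBg, inner_neg_left] at qB
  rw [hBgg]
  set A := fderiv ℝ (grad W) x with hA
  set B := fderiv ℝ (grad v) x with hB
  set p := proj (T x) (grad W x) with hpdef
  set P := ‖p‖ with hP
  have hP0 : 0 ≤ P := norm_nonneg _
  set a := ⟪A n, n⟫ with ha
  set b := ⟪B n, n⟫ with hb
  set G := wt q x with hG
  have hG1 : 1 ≤ G := one_le_wt q x
  have hAp : |⟪A p, p⟫| ≤ K * P ^ 2 := by
    refine (abs_real_inner_le_norm _ _).trans ?_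
    have h1 : ‖A p‖ ≤ K * P := (A.le_opNorm p).trans (mul_le_mul_of_nonneg_right hAn hP0)
    calc ‖A p‖ * ‖p‖ ≤ (K * P) * P := mul_le_mul_of_nonneg_right h1 hP0
      _ = _ := by ring
  have hBp : |⟪B p, p⟫| ≤ K * G * P ^ 2 := by
    refine (abs_real_inner_le_norm _ _).trans ?_
    have h1 : ‖B p‖ ≤ K * G * P := (B.le_opNorm p).trans (mul_le_mul_of_nonneg_right hBn hP0)
    calc ‖B p‖ * ‖p‖ ≤ (K * G * P) * P := mul_le_mul_of_nonneg_right h1 hP0
      _ = _ := by ring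
  have hbb : |b| ≤ K * G := by
    refine (abs_real_inner_le_norm _ _).trans ?_
    rw [hn1, mul_one]
    refine (B.le_opNorm n).trans ?_
    rw [hn1, mul_one]; exact hBn
  have hP2 : P ^ 2 ≤ 1 / 4 := by nlinarith
  have ha1 : |a| ≤ 2 * K * P ^ 2 := by
    have h1 : (1 - P ^ 2) * |a| = |⟪A p, p⟫| := by
      rw [← abs_of_nonneg (by linarith : 0 ≤ 1 - P ^ 2), ← abs_mul]
      congr 1
      rw [← hs, qA]; ring
    have h2 : 1 / 2 * |a| ≤ (1 - P ^ 2) * |a| :=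
      mul_le_mul_of_nonneg_right (by linarith) (abs_nonneg _)
    linarith
  have ha2 : |a - ⟪A p, p⟫| ≤ 2 * K * P ^ 4 := by
    have h1 : a - ⟪A p, p⟫ = P ^ 2 * a := by
      have : (1 - P ^ 2) * a = ⟪A p, p⟫ := by rw [← hs, qA]; ring
      linarith
    rw [h1, abs_mul, abs_of_nonneg (sq_nonneg P)]
    calc P ^ 2 * |a| ≤ P ^ 2 * (2 * K * P ^ 2) := mul_le_mul_of_nonneg_left ha1 (sq_nonneg _)
      _ = _ := by ring
  have hb2 : |b - 2 * ⟪A (grad v x), p⟫| ≤ 2 * K * G * P ^ 2 := by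
    have h1 : b - 2 * ⟪A (grad v x), p⟫ = P ^ 2 * b + ⟪B p, p⟫ := by
      have : (1 - P ^ 2) * b = 0 - 2 * -⟪A (grad v x), p⟫ + ⟪B p, p⟫ := by rw [← hs, qB]
      linarith
    rw [h1]
    refine (abs_add_le _ _).trans ?_
    rw [abs_mul, abs_of_nonneg (sq_nonneg P)]
    have : P ^ 2 * |b| ≤ P ^ 2 * (K * G) := mul_le_mul_of_nonneg_left hbb (sq_nonneg _)
    linarith
  have e : -(v x * (tr A - a - 1 / 2 * ⟪x, grad W x⟫)) + W x * (tr B - b - 1 / 2 * ⟪x, grad v x⟫)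
      - (W x * (tr B - 0 - 1 / 2 * ⟪x, grad v x⟫ + (tr (A.comp A) + 1 / 2) * v x)
        + W x ^ 2 * (v x * tr (A.comp (A.comp A))) + v x * ⟪A p, p⟫
        - 2 * W x * ⟪A (grad v x), p⟫)
      = -(v x * (tr A - 1 / 2 * ⟪x, grad W x⟫ + (tr (A.comp A) + 1 / 2) * W x
          + W x ^ 2 * tr (A.comp (A.comp A)))) + v x * (a - ⟪A p, p⟫)
        - W x * (b - 2 * ⟪A (grad v x), p⟫) := by ring
  rw [e]
  set w := |W x| with hw
  have hw0 : 0 ≤ w := abs_nonneg _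
  have hw2 : W x ^ 2 = w ^ 2 := (sq_abs _).symm
  have t1 : |v x * (tr A - 1 / 2 * ⟪x, grad W x⟫ + (tr (A.comp A) + 1 / 2) * W x
          + W x ^ 2 * tr (A.comp (A.comp A)))| ≤ (K * G) * (K * w ^ 3) := by
    rw [abs_mul]; exact mul_le_mul hv0 hric (abs_nonneg _) (by positivity)
  have t2 : |v x * (a - ⟪A p, p⟫)| ≤ (K * G) * (2 * K * P ^ 4) := by
    rw [abs_mul]; exact mul_le_mul hv0 ha2 (abs_nonneg _) (by positivity)
  have t3 : |W x * (b - 2 * ⟪A (grad v x), p⟫)| ≤ w * (2 * K * G * P ^ 2) := by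
    rw [abs_mul]; exact mul_le_mul_of_nonneg_left hb2 hw0
  have t4 : |-(v x * (tr A - 1 / 2 * ⟪x, grad W x⟫ + (tr (A.comp A) + 1 / 2) * W x
          + W x ^ 2 * tr (A.comp (A.comp A)))) + v x * (a - ⟪A p, p⟫)
        - W x * (b - 2 * ⟪A (grad v x), p⟫)|
      ≤ (K * G) * (K * w ^ 3) + (K * G) * (2 * K * P ^ 4) + w * (2 * K * G * P ^ 2) := by
    refine (abs_sub _ _).trans ?_
    refine add_le_add ((abs_add_le _ _).trans ?_) t3
    rw [abs_neg]
    exact add_le_add t1 t2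
  refine t4.trans ?_
  rw [hw2]
  have s1 : P ^ 4 ≤ P ^ 3 := by
    calc P ^ 4 = P * P ^ 3 := by ring
      _ ≤ 1 * P ^ 3 := mul_le_mul_of_nonneg_right (by linarith) (by positivity)
      _ = P ^ 3 := one_mul _
  have s2 : (K * G) * (2 * K * P ^ 4) ≤ (K * G) * (2 * K * P ^ 3) := by
    gcongr
  have s3 : (2 * K ^ 2 + 2 * K) * G * ((w + P) * (w ^ 2 + P ^ 2))
      = ((K * G) * (K * w ^ 3) + (K * G) * (2 * K * P ^ 3) + w * (2 * K * G * P ^ 2))
        + (K ^ 2 * G * w ^ 3 + 2 * K * G * w ^ 3 + 2 * K * G * P ^ 3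
          + 2 * K ^ 2 * G * w * P ^ 2 + (2 * K ^ 2 + 2 * K) * G * P * w ^ 2) := by ring
  rw [s3]
  have s4 : 0 ≤ K ^ 2 * G * w ^ 3 + 2 * K * G * w ^ 3 + 2 * K * G * P ^ 3
          + 2 * K ^ 2 * G * w * P ^ 2 + (2 * K ^ 2 + 2 * K) * G * P * w ^ 2 := by positivity
  linarith

lemma wtx_mul (a b : ℕ) (x : E) : wt a x * wt b x = wt (a + b) x := by
  unfold wt; rw [pow_add]

lemma wtx_mono {a b : ℕ} (h : a ≤ b) (x : E) : wt a x ≤ wt b x := by
  unfold wt
  exact pow_le_pow_right₀ (by nlinarith [sq_nonneg ‖x‖]) h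

lemma norm_le_wt (x : E) : ‖x‖ ≤ wt 1 x := by
  unfold wt
  nlinarith [sq_nonneg (‖x‖ - 1)]

lemma m_far (hW : Tube3 W c K) (hv : JF W v c K q) {T : E → Submodule ℝ E} {x : E} :
    |mm1 W v T x - mm2 W v T x| ≤ (2 * Module.finrank ℝ E * K ^ 2 + 2 * K ^ 2 + K ^ 3 + 3 * K ^ 4
      + Module.finrank ℝ E * K ^ 6) * wt (q + 1) x := by
  have hK := hW.toTubeD.K_nonneg
  set N : ℝ := (Module.finrank ℝ E : ℝ) with hN
  have hN0 : 0 ≤ N := Nat.cast_nonneg _
  have hAn := hW.b2 x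
  have hBn := hv.b2 x
  have hv0 := hv.b0 x
  have hv1 := hv.b1 x
  have hw := hW.b0 x
  have hgn := hW.b1 x
  have hbx := hW.bx x
  have hj := hv.j0 x
  have hG1 : 1 ≤ wt q x := one_le_wt q x
  have hG2 : wt q x ≤ wt (q + 1) x := wtx_mono (Nat.le_succ q) x
  have hG3 : ‖x‖ * wt q x ≤ wt (q + 1) x := by
    have : wt (q + 1) x = wt 1 x * wt q x := by rw [wtx_mul, add_comm]
    rw [this]
    exact mul_le_mul_of_nonneg_right (norm_le_wt x) (wt_pos q x).le
  have t3 := abs_tr_comp3_le (E := E) hAn hK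
  have t1 := abs_tr_proj_comp_le (T x) (fderiv ℝ (grad W) x)
  have t2 := abs_tr_proj_comp_le (T x) (fderiv ℝ (grad v) x)
  have hpn : ‖proj (T x) (grad W x)‖ ≤ K := (norm_proj_apply_le _ _).trans hgn
  unfold mm1 mm2
  set A := fderiv ℝ (grad W) x with hA
  set B := fderiv ℝ (grad v) x with hB
  set p := proj (T x) (grad W x) with hpdef
  set G := wt q x with hG
  set G' := wt (q + 1) x with hG'
  have hG0 : 0 ≤ G := by linarith
  have hG'0 : 0 ≤ G' := by linarith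
  have u1 : |tr ((proj (T x)).comp A)| ≤ N * K :=
    t1.trans (mul_le_mul_of_nonneg_left hAn hN0)
  have u2 : |tr ((proj (T x)).comp B)| ≤ N * (K * G) :=
    t2.trans (mul_le_mul_of_nonneg_left hBn hN0)
  have u3 : |1 / 2 * ⟪x, grad W x⟫| ≤ K := by
    rw [abs_mul, abs_of_pos (by norm_num : (0 : ℝ) < 1 / 2)]
    linarith [abs_nonneg ⟪x, grad W x⟫]
  have u4 : |1 / 2 * ⟪x, grad v x⟫| ≤ K * G' := by
    rw [abs_mul, abs_of_pos (by norm_num : (0 : ℝ) < 1 / 2)]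
    have h1 : |⟪x, grad v x⟫| ≤ ‖x‖ * (K * G) :=
      (abs_real_inner_le_norm _ _).trans (mul_le_mul_of_nonneg_left hv1 (norm_nonneg _))
    have h2 : ‖x‖ * (K * G) ≤ K * G' := by
      calc ‖x‖ * (K * G) = K * (‖x‖ * G) := by ring
        _ ≤ K * G' := mul_le_mul_of_nonneg_left hG3 hK
    linarith [abs_nonneg ⟪x, grad v x⟫]
  have u5 : |⟪A p, p⟫| ≤ K * K * K := by
    refine (abs_real_inner_le_norm _ _).trans ?_
    have h1 : ‖A p‖ ≤ K * K := (A.le_opNorm p).trans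
      (mul_le_mul hAn hpn (norm_nonneg _) hK)
    exact mul_le_mul h1 hpn (norm_nonneg _) (by positivity)
  have u6 : |⟪A (grad v x), p⟫| ≤ K * (K * G) * K := by
    refine (abs_real_inner_le_norm _ _).trans ?_
    have h1 : ‖A (grad v x)‖ ≤ K * (K * G) := (A.le_opNorm _).trans
      (mul_le_mul hAn hv1 (norm_nonneg _) hK)
    exact mul_le_mul h1 hpn (norm_nonneg _) (by positivity)
  have hw2 : W x ^ 2 ≤ K ^ 2 := by rw [← sq_abs]; gcongr
  have a1 : |v x * (tr ((proj (T x)).comp A) - 1 / 2 * ⟪x, grad W x⟫)| ≤ (K * G) * (N * K + K) := by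
    rw [abs_mul]
    refine mul_le_mul hv0 ((abs_sub _ _).trans (add_le_add u1 u3)) (abs_nonneg _) (by positivity)
  have a2 : |W x * (tr ((proj (T x)).comp B) - 1 / 2 * ⟪x, grad v x⟫)|
      ≤ K * (N * (K * G) + K * G') := by
    rw [abs_mul]
    refine mul_le_mul hw ((abs_sub _ _).trans (add_le_add u2 u4)) (abs_nonneg _) hK
  have a3 : |W x * jac W v x| ≤ K * (K * G * K) := by
    rw [abs_mul]
    refine mul_le_mul hw (hj.trans (mul_le_mul_of_nonneg_left hw (by positivity))) (abs_nonneg _) hK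
  have a4 : |W x ^ 2 * (v x * tr (A.comp (A.comp A)))| ≤ K ^ 2 * ((K * G) * (N * K ^ 3)) := by
    rw [abs_mul, abs_mul, abs_of_nonneg (sq_nonneg (W x))]
    refine mul_le_mul hw2 (mul_le_mul hv0 t3 (abs_nonneg _) (by positivity)) (by positivity)
      (by positivity)
  have a5 : |v x * ⟪A p, p⟫| ≤ (K * G) * (K * K * K) := by
    rw [abs_mul]
    exact mul_le_mul hv0 u5 (abs_nonneg _) (by positivity)
  have a6 : |2 * W x * ⟪A (grad v x), p⟫| ≤ 2 * K * (K * (K * G) * K) := by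
    rw [abs_mul, abs_mul, abs_two]
    exact mul_le_mul (by linarith) u6 (abs_nonneg _) (by positivity)
  have tot : (K * G) * (N * K + K) + K * (N * (K * G) + K * G') + K * (K * G * K)
      + K ^ 2 * ((K * G) * (N * K ^ 3)) + (K * G) * (K * K * K) + 2 * K * (K * (K * G) * K)
      ≤ (2 * N * K ^ 2 + 2 * K ^ 2 + K ^ 3 + 3 * K ^ 4 + N * K ^ 6) * G' := by
    have c1 : 0 ≤ 2 * N * K ^ 2 + K ^ 2 + K ^ 3 + 3 * K ^ 4 + N * K ^ 6 := by positivity
    have c2 := mul_le_mul_of_nonneg_left hG2 c1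
    have c3 : (K * G) * (N * K + K) + K * (N * (K * G) + K * G') + K * (K * G * K)
      + K ^ 2 * ((K * G) * (N * K ^ 3)) + (K * G) * (K * K * K) + 2 * K * (K * (K * G) * K)
      = (2 * N * K ^ 2 + K ^ 2 + K ^ 3 + 3 * K ^ 4 + N * K ^ 6) * G + K ^ 2 * G' := by ring
    rw [c3]
    calc _ ≤ (2 * N * K ^ 2 + K ^ 2 + K ^ 3 + 3 * K ^ 4 + N * K ^ 6) * G' + K ^ 2 * G' :=
          add_le_add_left c2 _
      _ = _ := by ring
  refine le_trans ?_ tot
  generalize hx1 : v x * (tr ((proj (T x)).comp A) - 1 / 2 * ⟪x, grad W x⟫) = y1 at a1 ⊢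
  generalize hx2 : W x * (tr ((proj (T x)).comp B) - 1 / 2 * ⟪x, grad v x⟫) = y2 at a2 ⊢
  generalize hx3 : W x * jac W v x = y3 at a3 ⊢
  generalize hx4 : W x ^ 2 * (v x * tr (A.comp (A.comp A))) = y4 at a4 ⊢
  generalize hx5 : v x * ⟪A p, p⟫ = y5 at a5 ⊢
  generalize hx6 : 2 * W x * ⟪A (grad v x), p⟫ = y6 at a6 ⊢
  have b1 := abs_le.1 a1
  have b2 := abs_le.1 a2
  have b3 := abs_le.1 a3
  have b4 := abs_le.1 a4
  have b5 := abs_le.1 a5
  have b6 := abs_le.1 a6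
  rw [abs_le]
  constructor <;> linarith [b1.1, b1.2, b2.1, b2.2, b3.1, b3.2, b4.1, b4.2, b5.1, b5.2, b6.1, b6.2]

/-- **the pointwise expansion** -/
theorem exists_m_sub (hE : Module.finrank ℝ E = m + 1) (hc : 0 < c) (hK : 0 ≤ K) (q : ℕ) :
    ∃ C : ℝ, 0 ≤ C ∧ ∀ W v : E → ℝ, Tube3 W c K → JF W v c K q → ∀ (T : E → Submodule ℝ E) (x : E),
      Module.finrank ℝ (T x) = m →
      |mm1 W v T x - mm2 W v T x| ≤ C * wt (q + 1) x * rr3 W T x := by
  set C₁ : ℝ := 2 * K ^ 2 + 2 * K with hC₁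
  set C₂ : ℝ := 2 * Module.finrank ℝ E * K ^ 2 + 2 * K ^ 2 + K ^ 3 + 3 * K ^ 4
      + Module.finrank ℝ E * K ^ 6 with hC₂
  have hC₁0 : 0 ≤ C₁ := by positivity
  have hC₂0 : 0 ≤ C₂ := by positivity
  set e := min c (1 / 2) with he
  have he0 : 0 < e := lt_min hc (by norm_num)
  refine ⟨C₁ + C₂ / e ^ 3, by positivity, fun W v hW hv T x hT => ?_⟩
  have hr : 0 ≤ rr3 W T x := by unfold rr3; positivity
  have hw := wt_pos (q + 1) x
  by_cases h : |W x| < c ∧ ‖proj (T x) (grad W x)‖ ≤ 1 / 2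
  · refine (m_near hW hv hE hT h.1 h.2).trans ?_
    have h1 : C₁ * wt q x * rr3 W T x ≤ C₁ * wt (q + 1) x * rr3 W T x :=
      mul_le_mul_of_nonneg_right (mul_le_mul_of_nonneg_left (wtx_mono (Nat.le_succ q) x) hC₁0) hr
    have h2 : 0 ≤ C₂ / e ^ 3 * wt (q + 1) x * rr3 W T x := by positivity
    have h3 : (C₁ + C₂ / e ^ 3) * wt (q + 1) x * rr3 W T x
        = C₁ * wt (q + 1) x * rr3 W T x + C₂ / e ^ 3 * wt (q + 1) x * rr3 W T x := by ring
    rw [h3]
    exact h1.trans (le_add_of_nonneg_right h2)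
  · refine (m_far hW hv).trans ?_
    have h1 : e ≤ |W x| ∨ e ≤ ‖proj (T x) (grad W x)‖ := by
      rw [not_and_or] at h
      rcases h with h | h
      · left; push Not at h; exact (min_le_left _ _).trans h
      · right; push Not at h; exact (min_le_right _ _).trans h.le
    have h2 : e ^ 3 ≤ rr3 W T x := by
      unfold rr3
      have q1 := abs_nonneg (W x)
      have q2 := norm_nonneg (proj (T x) (grad W x))
      have q3 : W x ^ 2 = |W x| ^ 2 := (sq_abs _).symm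
      rw [q3]
      generalize |W x| = a at q1 h1 ⊢
      generalize ‖proj (T x) (grad W x)‖ = b at q2 h1 ⊢
      have e3 : e ^ 3 = e * e ^ 2 := by ring
      rw [e3]
      rcases h1 with h1 | h1
      · have : e ^ 2 ≤ a ^ 2 := by gcongr
        exact mul_le_mul (by linarith) (by nlinarith) (by positivity) (by positivity)
      · have : e ^ 2 ≤ b ^ 2 := by gcongr
        exact mul_le_mul (by linarith) (by nlinarith) (by positivity) (by positivity)
    have h3 : C₂ * wt (q + 1) x ≤ C₂ / e ^ 3 * wt (q + 1) x * rr3 W T x := by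
      have h4 : C₂ * wt (q + 1) x = C₂ / e ^ 3 * wt (q + 1) x * e ^ 3 := by
        field_simp
      rw [h4]
      exact mul_le_mul_of_nonneg_left h2 (by positivity)
    have h5 : 0 ≤ C₁ * wt (q + 1) x * rr3 W T x := by positivity
    have h6 : (C₁ + C₂ / e ^ 3) * wt (q + 1) x * rr3 W T x
        = C₁ * wt (q + 1) x * rr3 W T x + C₂ / e ^ 3 * wt (q + 1) x * rr3 W T x := by ring
    rw [h6]
    exact h3.trans (le_add_of_nonneg_left h5)

end pointwise

end Vale.Agent.P218.H313
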