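import Vale.Agent.P218.H63.X1

/-! Second order expansion at a shrinker: the exact identity for `∫ ⟨∇(W v), φ⟩ ρ`, and crude
bounds on a slice. -/

open MeasureTheory Set Filter Topology Metric
open scoped ENNReal NNReal RealInnerProductSpace

namespace Vale.Agent.P218.H313

open Vale.Agent.P214 (IntegralVarifold proj divAlong IsTestField)

set_option linter.unusedSectionVars false
set_option linter.unusedVariables false

variable {E : Type*} [NormedAddCommGroup E] [InnerProductSpace ℝ E] [FiniteDimensional ℝ E]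
  [MeasurableSpace E] [BorelSpace E]
variable {m q : ℕ} {c K : ℝ} {μ : Measure E} {T : E → Submodule ℝ E} {H : E → E} {W v : E → ℝ}

lemma pb_wt (j : ℕ) : PB (wt j : E → ℝ) := (PG.wt j).b0

lemma PB.of_wt {F : Type*} [NormedAddCommGroup F] {f : E → F} {C : ℝ} {j : ℕ}
    (h : ∀ x, ‖f x‖ ≤ C * wt j x) : PB f :=
  ((pb_wt j).const_mul C).mono fun x => by
    rw [Real.norm_eq_abs]
    exact (h x).trans (le_abs_self _)

lemma JF.pg (hv : JF W v c K q) : PG v where
  cd := hv.cd.of_le (by norm_num)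
  b0 := PB.of_wt fun x => by rw [Real.norm_eq_abs]; exact hv.b0 x
  b1 := PB.of_wt fun x => by rw [← norm_grad]; exact hv.b1 x

lemma JF.pg_grad (hv : JF W v c K q) : PG (grad v) where
  cd := contDiff_grad_one hv.cd
  b0 := PB.of_wt hv.b1
  b1 := PB.of_wt hv.b2

/-- **the exact identity** for the rate of `∫ W v ρ` -/
theorem GSlice.int_Wv (hS : GSlice m μ T H) (hW : TubeD W c K) (hv : JF W v c K q) :
    ∫ x, ⟪grad (fun y => W y * v y) x, vel T H x⟫ * rho x ∂μ
      = ∫ x, mm1 W v T x * rho x ∂μ + 2 * ∫ x, W x * ⟪grad v x, vel T H x⟫ * rho x ∂μ := by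
  have hWm := hW.cont.aestronglyMeasurable (μ := μ)
  have hvm := hv.pg.cont.aestronglyMeasurable (μ := μ)
  have hgWm := hW.pg_grad.cont.aestronglyMeasurable (μ := μ)
  have hgvm := hv.pg_grad.cont.aestronglyMeasurable (μ := μ)
  have hid : AEStronglyMeasurable (fun x : E => x) μ := continuous_id.aestronglyMeasurable
  have p1 : PG (fun x => v x • grad W x) := hv.pg.smul hW.pg_grad
  have p2 : PG (fun x => W x • grad v x) := hW.pg.smul hv.pg_grad
  have w1 := hS.wfv p1.cd p1.b0 p1.b1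
  have w2 := hS.wfv p2.cd p2.b0 p2.b1
  -- integrability of the pieces
  have i1 : Integrable (fun x => divAlong (T x) (grad W) x * v x * rho x) μ := by
    have h1 := hS.div_meas hW.grad_cd
    refine hS.integrable_dom (h1.mul hvm)
      (((PB.const (Module.finrank ℝ E : ℝ)).mul hW.pg_grad.b1.norm).mul hv.pg.b0) fun x => ?_
    rw [abs_mul, abs_mul, abs_mul, abs_norm, Nat.abs_cast]
    exact mul_le_mul_of_nonneg_right (abs_divAlong_le _ _ _) (abs_nonneg _)
  have i2 : Integrable (fun x => divAlong (T x) (grad v) x * W x * rho x) μ := by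
    have h1 := hS.div_meas hv.pg_grad.cd
    refine hS.integrable_dom (h1.mul hWm)
      (((PB.const (Module.finrank ℝ E : ℝ)).mul hv.pg_grad.b1.norm).mul hW.pg.b0) fun x => ?_
    rw [abs_mul, abs_mul, abs_mul, abs_norm, Nat.abs_cast]
    exact mul_le_mul_of_nonneg_right (abs_divAlong_le _ _ _) (abs_nonneg _)
  have i3 : Integrable (fun x => ⟪x, grad W x⟫ * v x * rho x) μ :=
    hS.integrable_PB ((hid.inner hgWm).mul hvm) ((PB.id'.inner' hW.pg_grad.b0).mul hv.pg.b0)
  have i4 : Integrable (fun x => ⟪x, grad v x⟫ * W x * rho x) μ :=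
    hS.integrable_PB ((hid.inner hgvm).mul hWm) ((PB.id'.inner' hv.pg_grad.b0).mul hW.pg.b0)
  have i5 : Integrable (fun x => ⟪proj (T x) (grad W x), grad v x⟫ * rho x) μ := by
    refine hS.integrable_dom ((hS.proj_apply_meas hgWm).inner hgvm)
      (hW.pg_grad.b0.norm.mul hv.pg_grad.b0.norm) fun x => ?_
    refine (abs_real_inner_le_norm _ _).trans ?_
    rw [abs_of_nonneg (by positivity)]
    exact mul_le_mul_of_nonneg_right (norm_proj_apply_le _ _) (norm_nonneg _)
  have i6 : Integrable (fun x => ⟪v x • grad W x, vel T H x⟫ * rho x) μ :=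
    hS.integrable_inner_vel p1.cont.aestronglyMeasurable p1.b0
  have i7 : Integrable (fun x => ⟪W x • grad v x, vel T H x⟫ * rho x) μ :=
    hS.integrable_inner_vel p2.cont.aestronglyMeasurable p2.b0
  set I1 := ∫ x, divAlong (T x) (grad W) x * v x * rho x ∂μ with hI1
  set I2 := ∫ x, divAlong (T x) (grad v) x * W x * rho x ∂μ with hI2
  set I3 := ∫ x, ⟪x, grad W x⟫ * v x * rho x ∂μ with hI3
  set I4 := ∫ x, ⟪x, grad v x⟫ * W x * rho x ∂μ with hI4
  set I5 := ∫ x, ⟪proj (T x) (grad W x), grad v x⟫ * rho x ∂μ with hI5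
  set I6 := ∫ x, ⟪v x • grad W x, vel T H x⟫ * rho x ∂μ with hI6
  set I7 := ∫ x, ⟪W x • grad v x, vel T H x⟫ * rho x ∂μ with hI7
  have e1 : I1 - 1 / 2 * I3 + I5 = - I6 := by
    rw [← w1]
    have h1 := integral_comb i1 i3 i5 1 (-(1 / 2)) 1
    rw [one_mul, one_mul] at h1
    rw [show I1 - 1 / 2 * I3 + I5 = I1 + -(1 / 2) * I3 + I5 by ring, ← h1]
    congr 1; ext x
    have e0 : ⟪proj (T x) (grad v x), grad W x⟫ = ⟪proj (T x) (grad W x), grad v x⟫ := by
      rw [H552.inner_proj_left, real_inner_comm]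
    rw [divAlong_smul (T x) (hv.pg.diff x) (hW.pg_grad.diff x), real_inner_smul_right, e0]
    ring
  have e2 : I2 - 1 / 2 * I4 + I5 = - I7 := by
    rw [← w2]
    have h1 := integral_comb i2 i4 i5 1 (-(1 / 2)) 1
    rw [one_mul, one_mul] at h1
    rw [show I2 - 1 / 2 * I4 + I5 = I2 + -(1 / 2) * I4 + I5 by ring, ← h1]
    congr 1; ext x
    rw [divAlong_smul (T x) (hW.diff x) (hv.pg_grad.diff x), real_inner_smul_right]
    ring
  have e3 : ∫ x, ⟪grad (fun y => W y * v y) x, vel T H x⟫ * rho x ∂μ = I6 + I7 := by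
    rw [hI6, hI7, ← integral_add i6 i7]
    congr 1; ext x
    rw [grad_mul (hW.diff x) (hv.pg.diff x), inner_add_left]
    ring
  have e4 : ∫ x, mm1 W v T x * rho x ∂μ = -(I1 - 1 / 2 * I3) + (I2 - 1 / 2 * I4) := by
    have h1 := integral_comb2 i1 i3 (-1) (1 / 2)
    have h2 := integral_comb2 i2 i4 1 (-(1 / 2))
    have j1 : Integrable (fun x => -1 * (divAlong (T x) (grad W) x * v x * rho x)
        + 1 / 2 * (⟪x, grad W x⟫ * v x * rho x)) μ := (i1.const_mul _).add (i3.const_mul _)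
    have j2 : Integrable (fun x => 1 * (divAlong (T x) (grad v) x * W x * rho x)
        + -(1 / 2) * (⟪x, grad v x⟫ * W x * rho x)) μ := (i2.const_mul _).add (i4.const_mul _)
    have h3 := integral_add j1 j2
    rw [h1, h2] at h3
    rw [show -(I1 - 1 / 2 * I3) + (I2 - 1 / 2 * I4)
      = -1 * I1 + 1 / 2 * I3 + (1 * I2 + -(1 / 2) * I4) by ring, ← h3]
    congr 1; ext x
    unfold mm1
    rw [divAlong_eq, divAlong_eq]
    ring
  have e5 : ∫ x, W x * ⟪grad v x, vel T H x⟫ * rho x ∂μ = I7 := by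
    rw [hI7]
    congr 1; ext x
    rw [real_inner_smul_left]
  rw [e3, e4, e5]
  linarith

/-- the size of the second order part -/
lemma abs_m2_le (hW : TubeD W c K) (hv : JF W v c K q) (x : E) :
    |mm2 W v T x| ≤ (K + Module.finrank ℝ E * K ^ 4 + 2 * K ^ 2) * wt q x
      * (W x ^ 2 + ‖proj (T x) (grad W x)‖ ^ 2) := by
  have hK := hW.K_nonneg
  set N : ℝ := (Module.finrank ℝ E : ℝ) with hN
  have hN0 : 0 ≤ N := Nat.cast_nonneg _
  have hAn := hW.b2 x
  have hv0 := hv.b0 x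
  have hv1 := hv.b1 x
  have hj := hv.j0 x
  have hG0 : 0 ≤ wt q x := (wt_pos q x).le
  have t3 := abs_tr_comp3_le (E := E) hAn hK
  unfold mm2
  set A := fderiv ℝ (grad W) x with hA
  set p := proj (T x) (grad W x) with hpdef
  set G := wt q x with hG
  set P := ‖p‖ with hP
  have hP0 : 0 ≤ P := norm_nonneg _
  set w := |W x| with hw
  have hw0 : 0 ≤ w := abs_nonneg _
  have hw2 : W x ^ 2 = w ^ 2 := (sq_abs _).symm
  have a3 : |W x * jac W v x| ≤ K * G * w ^ 2 := by
    rw [abs_mul]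
    calc |W x| * |jac W v x| ≤ w * (K * G * w) := mul_le_mul_of_nonneg_left hj hw0
      _ = _ := by ring
  have a4 : |W x ^ 2 * (v x * tr (A.comp (A.comp A)))| ≤ w ^ 2 * ((K * G) * (N * K ^ 3)) := by
    rw [abs_mul, abs_mul, abs_of_nonneg (sq_nonneg (W x)), hw2]
    exact mul_le_mul_of_nonneg_left (mul_le_mul hv0 t3 (abs_nonneg _) (by positivity))
      (by positivity)
  have a5 : |v x * ⟪A p, p⟫| ≤ (K * G) * (K * P * P) := by
    rw [abs_mul]
    refine mul_le_mul hv0 ((abs_real_inner_le_norm _ _).trans ?_) (abs_nonneg _) (by positivity)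
    exact mul_le_mul_of_nonneg_right ((A.le_opNorm p).trans (mul_le_mul_of_nonneg_right hAn hP0)) hP0
  have a6 : |2 * W x * ⟪A (grad v x), p⟫| ≤ 2 * w * (K * (K * G) * P) := by
    rw [abs_mul, abs_mul, abs_two]
    refine mul_le_mul_of_nonneg_left ((abs_real_inner_le_norm _ _).trans ?_) (by positivity)
    exact mul_le_mul_of_nonneg_right ((A.le_opNorm _).trans
      (mul_le_mul hAn hv1 (norm_nonneg _) hK)) hP0
  rw [hw2]
  have tot : K * G * w ^ 2 + w ^ 2 * ((K * G) * (N * K ^ 3)) + (K * G) * (K * P * P)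
      + 2 * w * (K * (K * G) * P)
      ≤ (K + N * K ^ 4 + 2 * K ^ 2) * G * (w ^ 2 + P ^ 2) := by
    have c1 : (K + N * K ^ 4 + 2 * K ^ 2) * G * (w ^ 2 + P ^ 2)
        - (K * G * w ^ 2 + w ^ 2 * ((K * G) * (N * K ^ 3)) + (K * G) * (K * P * P)
          + 2 * w * (K * (K * G) * P))
        = (K + N * K ^ 4) * G * P ^ 2 + K ^ 2 * G * w ^ 2 + K ^ 2 * G * (w - P) ^ 2 := by ring
    have c2 : 0 ≤ (K + N * K ^ 4) * G * P ^ 2 + K ^ 2 * G * w ^ 2 + K ^ 2 * G * (w - P) ^ 2 := by
      positivity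
    linarith
  refine le_trans ?_ tot
  generalize W x * jac W v x = y3 at a3 ⊢
  rw [hw2] at a4
  generalize w ^ 2 * (v x * tr (A.comp (A.comp A))) = y4 at a4 ⊢
  generalize v x * ⟪A p, p⟫ = y5 at a5 ⊢
  generalize 2 * W x * ⟪A (grad v x), p⟫ = y6 at a6 ⊢
  have b3 := abs_le.1 a3
  have b4 := abs_le.1 a4
  have b5 := abs_le.1 a5
  have b6 := abs_le.1 a6
  rw [abs_le]
  constructor <;> linarith [b3.1, b3.2, b4.1, b4.2, b5.1, b5.2, b6.1, b6.2]

/-- the normal component of the gradient of a function constant along normals -/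
lemma abs_inner_grad_vel_le (hW : TubeD W c K) (hv : JF W v c K q)
    (hE : Module.finrank ℝ E = m + 1) {x : E} (hT : Module.finrank ℝ (T x) = m) {φ : E}
    (hφ : φ ∈ (T x)ᗮ) :
    |⟪grad v x, φ⟫| ≤ (K + K / c) * wt q x * (|W x| + ‖proj (T x) (grad W x)‖) * ‖φ‖ := by
  have hK := hW.K_nonneg
  have hc := hW.cpos
  have hG0 : 0 ≤ wt q x := (wt_pos q x).le
  have hv1 := hv.b1 x
  by_cases hx : |W x| < c
  · have h1 := hW.normal_est hE x (T x) hT hx hφ (grad v x)
    rw [hv.nrm x hx, zero_mul, sub_zero] at h1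
    refine h1.trans (mul_le_mul_of_nonneg_right ?_ (norm_nonneg _))
    have h2 : ‖grad v x‖ * ‖proj (T x) (grad W x)‖ ≤ K * wt q x * ‖proj (T x) (grad W x)‖ :=
      mul_le_mul_of_nonneg_right hv1 (norm_nonneg _)
    have h3 : 0 ≤ K / c * wt q x * (|W x| + ‖proj (T x) (grad W x)‖) := by positivity
    have h4 : 0 ≤ K * wt q x * |W x| := by positivity
    calc ‖grad v x‖ * ‖proj (T x) (grad W x)‖ ≤ K * wt q x * ‖proj (T x) (grad W x)‖ := h2
      _ ≤ K * wt q x * ‖proj (T x) (grad W x)‖ + K * wt q x * |W x|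
          + K / c * wt q x * (|W x| + ‖proj (T x) (grad W x)‖) := by linarith
      _ = _ := by ring
  · push Not at hx
    have h1 : |⟪grad v x, φ⟫| ≤ K * wt q x * ‖φ‖ :=
      (abs_real_inner_le_norm _ _).trans (mul_le_mul_of_nonneg_right hv1 (norm_nonneg _))
    refine h1.trans (mul_le_mul_of_nonneg_right ?_ (norm_nonneg _))
    have h2 : 1 ≤ |W x| / c := by rw [le_div_iff₀ hc]; linarith
    have h3 : K * wt q x * 1 ≤ K * wt q x * (|W x| / c) :=
      mul_le_mul_of_nonneg_left h2 (by positivity)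
    have h4 : 0 ≤ K * wt q x * (|W x| + ‖proj (T x) (grad W x)‖)
        + K / c * wt q x * ‖proj (T x) (grad W x)‖ := by positivity
    calc K * wt q x ≤ K * wt q x * (|W x| / c) := by linarith
      _ ≤ K * wt q x * (|W x| / c) + (K * wt q x * (|W x| + ‖proj (T x) (grad W x)‖)
        + K / c * wt q x * ‖proj (T x) (grad W x)‖) := by linarith
      _ = _ := by ring

/-- the second term of the exact identity -/
theorem exists_snd (hE : Module.finrank ℝ E = m + 1) (hc : 0 < c) (hK : 0 ≤ K) (q : ℕ) :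
    ∃ C : ℝ, 0 ≤ C ∧ ∀ W v : E → ℝ, TubeD W c K → JF W v c K q →
      ∀ (μ : Measure E) (T : E → Submodule ℝ E) (H : E → E), GSlice m μ T H → ∀ η : ℝ, 0 < η →
      |∫ x, W x * ⟪grad v x, vel T H x⟫ * rho x ∂μ|
        ≤ η * (DD μ W (2 * q) + TG μ T W (2 * q)) + C / η * dis μ T H := by
  refine ⟨(K + K / c) ^ 2 * K ^ 2, by positivity, fun W v hW hv μ T H hS η hη => ?_⟩
  set B := K + K / c with hB
  have hB0 : 0 ≤ B := by positivity
  have i1 := hS.int_DD hW (2 * q)
  have i2 := hS.int_TG hW (2 * q)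
  have i3 := hS.int_vel_sq
  have hI : Integrable (fun x => (η * (W x ^ 2 * wt (2 * q) x * rho x)
      + η * (wt (2 * q) x * ‖proj (T x) (grad W x)‖ ^ 2 * rho x))
      + B ^ 2 * K ^ 2 / η * (‖vel T H x‖ ^ 2 * rho x)) μ :=
    ((i1.const_mul _).add (i2.const_mul _)).add (i3.const_mul _)
  have e1 : ∫ x, ((η * (W x ^ 2 * wt (2 * q) x * rho x)
      + η * (wt (2 * q) x * ‖proj (T x) (grad W x)‖ ^ 2 * rho x))
      + B ^ 2 * K ^ 2 / η * (‖vel T H x‖ ^ 2 * rho x)) ∂μ
      = η * (DD μ W (2 * q) + TG μ T W (2 * q)) + B ^ 2 * K ^ 2 / η * dis μ T H := by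
    have := integral_comb i1 i2 i3 η η (B ^ 2 * K ^ 2 / η)
    rw [this]
    change η * DD μ W (2 * q) + η * TG μ T W (2 * q) + _ * dis μ T H = _
    ring
  rw [← e1]
  refine (abs_integral_le_integral_abs).trans ?_
  refine integral_mono_of_nonneg (Eventually.of_forall fun x => abs_nonneg _) hI ?_
  filter_upwards [hS.mc.dim, hS.toSlice.vel_normal] with x hx hn
  have h1 := abs_inner_grad_vel_le hW hv hE hx hn
  have hr := rho_pos x
  rw [abs_mul, abs_mul, abs_of_pos hr]
  have hWb := hW.b0 x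
  set w := |W x| with hw
  set P := ‖proj (T x) (grad W x)‖ with hP
  set F := ‖vel T H x‖ with hF
  set G := wt q x with hG
  have hG2 : wt (2 * q) x = G ^ 2 := by rw [hG, two_mul, ← wtx_mul]; ring
  have hw0 : 0 ≤ w := abs_nonneg _
  have hP0 : 0 ≤ P := norm_nonneg _
  have hF0 : 0 ≤ F := norm_nonneg _
  have hG0 : 0 ≤ G := (wt_pos q x).le
  have hw2 : W x ^ 2 = w ^ 2 := (sq_abs _).symm
  rw [hG2, hw2]
  have h2 : w * |⟪grad v x, vel T H x⟫| ≤ K * (B * G * (w + P) * F) :=
    mul_le_mul hWb h1 (abs_nonneg _) hK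
  have h3 : K * (B * G * (w + P) * F) ≤ η * (w ^ 2 * G ^ 2) + η * (G ^ 2 * P ^ 2)
      + B ^ 2 * K ^ 2 / η * F ^ 2 := by
    have h4 : 0 ≤ 1 / 2 * (η * G ^ 2 * (w - P) ^ 2) + 1 / 2 * (B * K * F / η - G * (w + P)) ^ 2 * η
        + 1 / 2 * (B ^ 2 * K ^ 2 / η * F ^ 2) := by positivity
    have h5 : η * (w ^ 2 * G ^ 2) + η * (G ^ 2 * P ^ 2) + B ^ 2 * K ^ 2 / η * F ^ 2
        - K * (B * G * (w + P) * F)
        = 1 / 2 * (η * G ^ 2 * (w - P) ^ 2) + 1 / 2 * (B * K * F / η - G * (w + P)) ^ 2 * η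
        + 1 / 2 * (B ^ 2 * K ^ 2 / η * F ^ 2) := by
      field_simp
      ring
    linarith
  calc w * |⟪grad v x, vel T H x⟫| * rho x
      ≤ (η * (w ^ 2 * G ^ 2) + η * (G ^ 2 * P ^ 2) + B ^ 2 * K ^ 2 / η * F ^ 2) * rho x :=
        mul_le_mul_of_nonneg_right (h2.trans h3) hr.le
    _ = _ := by ring

lemma mm1_meas (hS : GSlice m μ T H) (hW : TubeD W c K) (hv : JF W v c K q) :
    AEStronglyMeasurable (mm1 W v T) μ := by
  have hWm := hW.cont.aestronglyMeasurable (μ := μ)
  have hvm := hv.pg.cont.aestronglyMeasurable (μ := μ)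
  have hgWm := hW.pg_grad.cont.aestronglyMeasurable (μ := μ)
  have hgvm := hv.pg_grad.cont.aestronglyMeasurable (μ := μ)
  have hid : AEStronglyMeasurable (fun x : E => x) μ := continuous_id.aestronglyMeasurable
  have h1 := hS.div_meas hW.grad_cd
  have h2 := hS.div_meas hv.pg_grad.cd
  unfold mm1
  exact (hvm.mul (h1.sub ((hid.inner hgWm).const_mul _))).neg.add
    (hWm.mul (h2.sub ((hid.inner hgvm).const_mul _)))

lemma hess_meas {f : E → ℝ} (hf : ContDiff ℝ 2 f) : Continuous (fderiv ℝ (grad f)) :=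
  (contDiff_grad_one hf).continuous_fderiv (by norm_num)

lemma continuous_tr3 (hW : TubeD W c K) : Continuous (fun x => tr ((fderiv ℝ (grad W) x).comp
    ((fderiv ℝ (grad W) x).comp (fderiv ℝ (grad W) x)))) := by
  have h := hess_meas hW.smooth
  exact (trL E).continuous.comp (h.clm_comp (h.clm_comp h))

lemma mm2_meas (hS : GSlice m μ T H) (hW : TubeD W c K) (hv : JF W v c K q) :
    AEStronglyMeasurable (mm2 W v T) μ := by
  have hWm := hW.cont.aestronglyMeasurable (μ := μ)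
  have hvm := hv.pg.cont.aestronglyMeasurable (μ := μ)
  have hgWm := hW.pg_grad.cont.aestronglyMeasurable (μ := μ)
  have hgvm := hv.pg_grad.cont.aestronglyMeasurable (μ := μ)
  have hA := (hess_meas hW.smooth).aestronglyMeasurable (μ := μ)
  have hp := hS.proj_apply_meas hgWm
  have hj := (continuous_jac hW hv.cd).aestronglyMeasurable (μ := μ)
  have h3 := (continuous_tr3 hW).aestronglyMeasurable (μ := μ)
  unfold mm2
  exact (((hWm.mul hj).add ((hWm.pow 2).mul (hvm.mul h3))).add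
    (hvm.mul ((aesm_clm_apply hA hp).inner hp))).sub
    ((hWm.const_mul 2).mul ((aesm_clm_apply hA hgvm).inner hp))

lemma int_wt_sq (hS : GSlice m μ T H) (hW : TubeD W c K) (j : ℕ) :
    Integrable (fun x => wt j x * (W x ^ 2 + ‖proj (T x) (grad W x)‖ ^ 2) * rho x) μ := by
  refine ((hS.int_DD hW j).add (hS.int_TG hW j)).congr (Eventually.of_forall fun x => ?_)
  simp only [Pi.add_apply]
  ring

lemma integral_wt_sq (hS : GSlice m μ T H) (hW : TubeD W c K) (j : ℕ) :
    ∫ x, wt j x * (W x ^ 2 + ‖proj (T x) (grad W x)‖ ^ 2) * rho x ∂μ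
      = DD μ W j + TG μ T W j := by
  have h := integral_add (hS.int_DD hW j) (hS.int_TG hW j)
  have e : DD μ W j + TG μ T W j = ∫ x, W x ^ 2 * wt j x * rho x ∂μ
      + ∫ x, wt j x * ‖proj (T x) (grad W x)‖ ^ 2 * rho x ∂μ := rfl
  rw [e, ← h]
  congr 1; ext x
  ring

lemma r3_nonneg (x : E) : 0 ≤ rr3 W T x := by unfold rr3; positivity

lemma r3_le (hW : TubeD W c K) (x : E) :
    rr3 W T x ≤ 2 * K * (W x ^ 2 + ‖proj (T x) (grad W x)‖ ^ 2) := by
  unfold rr3
  refine mul_le_mul_of_nonneg_right ?_ (by positivity)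
  have h1 := hW.b0 x
  have h2 : ‖proj (T x) (grad W x)‖ ≤ K := (norm_proj_apply_le _ _).trans (hW.b1 x)
  linarith

lemma int_r3 (hS : GSlice m μ T H) (hW : TubeD W c K) (j : ℕ) :
    Integrable (fun x => wt j x * rr3 W T x * rho x) μ := by
  have hWm := hW.cont.aestronglyMeasurable (μ := μ)
  have hp := hS.proj_apply_meas (hW.pg_grad.cont.aestronglyMeasurable (μ := μ))
  have hm : AEStronglyMeasurable (fun x => wt j x * rr3 W T x * rho x) μ := by
    unfold rr3
    exact ((PG.wt j).cont.aestronglyMeasurable.mul ((hWm.norm.add hp.norm).mul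
      ((hWm.pow 2).add (hp.norm.pow 2)))).mul continuous_rho.aestronglyMeasurable
  refine ((int_wt_sq hS hW j).const_mul (2 * K)).mono' hm (Eventually.of_forall fun x => ?_)
  have h1 := wt_pos j x
  have h2 := rho_pos x
  have h3 := r3_nonneg (W := W) (T := T) x
  rw [Real.norm_of_nonneg (by positivity)]
  calc wt j x * rr3 W T x * rho x
      ≤ wt j x * (2 * K * (W x ^ 2 + ‖proj (T x) (grad W x)‖ ^ 2)) * rho x := by
        have := r3_le (T := T) hW x
        gcongr
    _ = _ := by ring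

lemma int_m2 (hS : GSlice m μ T H) (hW : TubeD W c K) (hv : JF W v c K q) :
    Integrable (fun x => mm2 W v T x * rho x) μ := by
  refine ((int_wt_sq hS hW q).const_mul (K + Module.finrank ℝ E * K ^ 4 + 2 * K ^ 2)).mono'
    ((mm2_meas hS hW hv).mul continuous_rho.aestronglyMeasurable)
    (Eventually.of_forall fun x => ?_)
  rw [norm_mul, Real.norm_of_nonneg (rho_pos x).le, Real.norm_eq_abs]
  have h := mul_le_mul_of_nonneg_right (abs_m2_le (T := T) hW hv x) (rho_pos x).le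
  refine h.trans (le_of_eq ?_)
  ring

/-- **the expansion on a slice**, before the limit -/
theorem exists_expand (hE : Module.finrank ℝ E = m + 1) (hc : 0 < c) (hK : 0 ≤ K) (q : ℕ) :
    ∃ C : ℝ, 0 ≤ C ∧ ∀ W v : E → ℝ, Tube3 W c K → JF W v c K q →
      ∀ (μ : Measure E) (T : E → Submodule ℝ E) (H : E → E), GSlice m μ T H → ∀ η : ℝ, 0 < η →
      |∫ x, ⟪grad (fun y => W y * v y) x, vel T H x⟫ * rho x ∂μ - ∫ x, mm2 W v T x * rho x ∂μ|
        ≤ C * ∫ x, wt (q + 1) x * rr3 W T x * rho x ∂μ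
          + η * (DD μ W (2 * q) + TG μ T W (2 * q)) + C / η * dis μ T H := by
  obtain ⟨C₁, hC₁, h1⟩ := exists_m_sub (E := E) hE hc hK q
  obtain ⟨C₂, hC₂, h2⟩ := exists_snd (E := E) hE hc hK q
  refine ⟨C₁ + 4 * C₂, by positivity, fun W v hW hv μ T H hS η hη => ?_⟩
  have hWD := hW.toTubeD
  have i1 := int_r3 hS hWD (q + 1)
  have i2 := int_m2 hS hWD hv
  have hae : ∀ᵐ x ∂μ, |(mm1 W v T x - mm2 W v T x) * rho x|
      ≤ C₁ * (wt (q + 1) x * rr3 W T x * rho x) := by
    filter_upwards [hS.mc.dim] with x hx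
    rw [abs_mul, abs_of_pos (rho_pos x)]
    have h := mul_le_mul_of_nonneg_right (h1 W v hW hv T x hx) (rho_pos x).le
    refine h.trans (le_of_eq ?_)
    ring
  have i3 : Integrable (fun x => (mm1 W v T x - mm2 W v T x) * rho x) μ :=
    (i1.const_mul C₁).mono' (((mm1_meas hS hWD hv).sub (mm2_meas hS hWD hv)).mul
      continuous_rho.aestronglyMeasurable) hae
  have i4 : Integrable (fun x => mm1 W v T x * rho x) μ := by
    refine (i3.add i2).congr (Eventually.of_forall fun x => ?_)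
    simp only [Pi.add_apply]
    ring
  have e1 : ∫ x, (mm1 W v T x - mm2 W v T x) * rho x ∂μ
      = ∫ x, mm1 W v T x * rho x ∂μ - ∫ x, mm2 W v T x * rho x ∂μ := by
    rw [← integral_sub i4 i2]
    congr 1; ext x; ring
  have e2 : |∫ x, mm1 W v T x * rho x ∂μ - ∫ x, mm2 W v T x * rho x ∂μ|
      ≤ C₁ * ∫ x, wt (q + 1) x * rr3 W T x * rho x ∂μ := by
    rw [← e1, ← integral_const_mul]
    refine (abs_integral_le_integral_abs).trans ?_
    exact integral_mono_of_nonneg (Eventually.of_forall fun x => abs_nonneg _)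
      (i1.const_mul _) hae
  have e3 := h2 W v hWD hv μ T H hS (η / 2) (by positivity)
  rw [hS.int_Wv hWD hv]
  have e4 : ∫ x, mm1 W v T x * rho x ∂μ + 2 * ∫ x, W x * ⟪grad v x, vel T H x⟫ * rho x ∂μ
      - ∫ x, mm2 W v T x * rho x ∂μ
      = (∫ x, mm1 W v T x * rho x ∂μ - ∫ x, mm2 W v T x * rho x ∂μ)
        + 2 * ∫ x, W x * ⟪grad v x, vel T H x⟫ * rho x ∂μ := by ring
  rw [e4]
  refine (abs_add_le _ _).trans ?_
  rw [abs_mul, abs_two]
  have hd := dis_nonneg (μ := μ) (T := T) (H := H)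
  have i0 : 0 ≤ ∫ x, wt (q + 1) x * rr3 W T x * rho x ∂μ :=
    integral_nonneg fun x => by
      have q1 := wt_pos (q + 1) x
      have q2 := r3_nonneg (W := W) (T := T) x
      have q3 := rho_pos x
      positivity
  have e5 : C₂ / (η / 2) * dis μ T H = 2 * (C₂ / η * dis μ T H) := by
    field_simp
  have e6 : (C₁ + 4 * C₂) / η * dis μ T H = C₁ / η * dis μ T H + 4 * (C₂ / η * dis μ T H) := by
    ring
  have e7 : 0 ≤ C₁ / η * dis μ T H := by positivity
  have e8 : 0 ≤ 4 * C₂ * ∫ x, wt (q + 1) x * rr3 W T x * rho x ∂μ := by positivity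
  rw [e6, add_mul]
  rw [e5] at e3
  linarith

/-- **crude bound** -/
theorem exists_crude (hE : Module.finrank ℝ E = m + 1) (hc : 0 < c) (hK : 0 ≤ K) (q : ℕ) :
    ∃ C : ℝ, 0 ≤ C ∧ ∀ W v : E → ℝ, Tube3 W c K → JF W v c K q →
      ∀ (μ : Measure E) (T : E → Submodule ℝ E) (H : E → E), GSlice m μ T H →
      |∫ x, ⟪grad (fun y => W y * v y) x, vel T H x⟫ * rho x ∂μ|
        ≤ C * (DD μ W (2 * q + 1) + TG μ T W (2 * q + 1) + dis μ T H) := by
  obtain ⟨C, hC, h⟩ := exists_expand (E := E) hE hc hK q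
  set B := K + Module.finrank ℝ E * K ^ 4 + 2 * K ^ 2 with hB
  have hB0 : 0 ≤ B := by positivity
  refine ⟨C * (2 * K) + 1 + C + B, by positivity, fun W v hW hv μ T H hS => ?_⟩
  have hWD := hW.toTubeD
  have h1 := h W v hW hv μ T H hS 1 one_pos
  have h2 : |∫ x, mm2 W v T x * rho x ∂μ| ≤ B * (DD μ W (2 * q + 1) + TG μ T W (2 * q + 1)) := by
    rw [← integral_wt_sq hS hWD, ← integral_const_mul]
    refine (abs_integral_le_integral_abs).trans ?_
    refine integral_mono_of_nonneg (Eventually.of_forall fun x => abs_nonneg _)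
      ((int_wt_sq hS hWD _).const_mul _) (Eventually.of_forall fun x => ?_)
    have h3 := abs_m2_le (T := T) hWD hv x
    have h4 : wt q x ≤ wt (2 * q + 1) x := wtx_mono (by omega) x
    have hr := rho_pos x
    dsimp only
    rw [abs_mul, abs_of_pos hr]
    calc |mm2 W v T x| * rho x
        ≤ (B * wt q x * (W x ^ 2 + ‖proj (T x) (grad W x)‖ ^ 2)) * rho x :=
          mul_le_mul_of_nonneg_right h3 hr.le
      _ ≤ (B * wt (2 * q + 1) x * (W x ^ 2 + ‖proj (T x) (grad W x)‖ ^ 2)) * rho x := by gcongr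
      _ = _ := by ring
  have h3 : ∫ x, wt (q + 1) x * rr3 W T x * rho x ∂μ
      ≤ 2 * K * (DD μ W (2 * q + 1) + TG μ T W (2 * q + 1)) := by
    rw [← integral_wt_sq hS hWD, ← integral_const_mul]
    refine integral_mono_of_nonneg (Eventually.of_forall fun x => ?_)
      ((int_wt_sq hS hWD _).const_mul _) (Eventually.of_forall fun x => ?_)
    · have q1 := wt_pos (q + 1) x
      have q2 := r3_nonneg (W := W) (T := T) x
      have q3 := rho_pos x
      simp only [Pi.zero_apply]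
      positivity
    · have h4 : wt (q + 1) x ≤ wt (2 * q + 1) x := wtx_mono (by omega) x
      have hr := rho_pos x
      have q2 := r3_le (T := T) hWD x
      have q4 := (wt_pos (q + 1) x).le
      have q5 := (wt_pos (2 * q + 1) x).le
      have q6 := r3_nonneg (W := W) (T := T) x
      dsimp only
      calc wt (q + 1) x * rr3 W T x * rho x ≤ wt (2 * q + 1) x
            * (2 * K * (W x ^ 2 + ‖proj (T x) (grad W x)‖ ^ 2)) * rho x := by gcongr
        _ = _ := by ring
  have h5 : DD μ W (2 * q) + TG μ T W (2 * q) ≤ DD μ W (2 * q + 1) + TG μ T W (2 * q + 1) := by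
    rw [← integral_wt_sq hS hWD, ← integral_wt_sq hS hWD]
    refine integral_mono (int_wt_sq hS hWD _) (int_wt_sq hS hWD _) fun x => ?_
    have h4 : wt (2 * q) x ≤ wt (2 * q + 1) x := wtx_mono (by omega) x
    have hr := rho_pos x
    dsimp only
    gcongr
  have h6 := mul_le_mul_of_nonneg_left h3 hC
  have hd := dis_nonneg (μ := μ) (T := T) (H := H)
  have hDT : 0 ≤ DD μ W (2 * q + 1) + TG μ T W (2 * q + 1) :=
    add_nonneg (DD_nonneg _) (TG_nonneg _)
  set X := ∫ x, ⟪grad (fun y => W y * v y) x, vel T H x⟫ * rho x ∂μ with hX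
  set Y := ∫ x, mm2 W v T x * rho x ∂μ with hY
  have h7 : |X| ≤ |X - Y| + |Y| := by
    have := abs_add_le (X - Y) Y
    rwa [sub_add_cancel] at this
  rw [one_mul, div_one] at h1
  set D := DD μ W (2 * q + 1) + TG μ T W (2 * q + 1) with hD
  have h8 : (C * (2 * K) + 1 + C + B) * (D + dis μ T H)
      = C * (2 * K * D) + D + C * dis μ T H + B * D + (C * D
        + (C * (2 * K) + 1 + B) * dis μ T H) := by ring
  have h9 : 0 ≤ C * D + (C * (2 * K) + 1 + B) * dis μ T H := by positivity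
  rw [show DD μ W (2 * q + 1) + TG μ T W (2 * q + 1) + dis μ T H = D + dis μ T H from rfl, h8]
  linarith

end Vale.Agent.P218.H313
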