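import Vale.Agent.P218.H63.X2
import Vale.Agent.P218.H313.Blow

/-! Second order expansion at a shrinker: the limit along a blow-up sequence. -/

open MeasureTheory Set Filter Topology Metric
open scoped ENNReal NNReal RealInnerProductSpace

namespace Vale.Agent.P218.H313

open Vale.Agent.P214 (IntegralVarifold proj divAlong IsTestField)

set_option linter.unusedSectionVars false
set_option linter.unusedVariables false

variable {E : Type*} [NormedAddCommGroup E] [InnerProductSpace ℝ E] [FiniteDimensional ℝ E]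
  [MeasurableSpace E] [BorelSpace E]
variable {m q : ℕ} {c K : ℝ}

/-- the tangential gradient of the normalised height -/
noncomputable def tyx (μ : Measure E) (T : E → Submodule ℝ E) (W : E → ℝ) (x : E) : E :=
  (√(DD μ W 0))⁻¹ • proj (T x) (grad W x)

/-- the distance of the normalised height to its limit, in first order -/
noncomputable def dax (μ : Measure E) (T : E → Submodule ℝ E) (W u : E → ℝ) (x : E) : ℝ :=
  |nh μ W x - u x| + ‖tyx μ T W x - grad u x‖

/-- the size of the normalised height and of its limit, in first order -/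
noncomputable def dbx (μ : Measure E) (T : E → Submodule ℝ E) (W u : E → ℝ) (x : E) : ℝ :=
  |nh μ W x| + |u x| + ‖tyx μ T W x‖ + ‖grad u x‖

section slice

variable {μ : Measure E} {T : E → Submodule ℝ E} {H : E → E} {W u : E → ℝ}

lemma wtx_le_pow (j : ℕ) (x : E) : wt j x ≤ (1 + ‖x‖) ^ (2 * j) := by
  unfold wt
  rw [pow_mul]
  exact pow_le_pow_left₀ (by positivity) (by nlinarith [norm_nonneg x]) _

lemma ty_meas (hS : GSlice m μ T H) (hW : TubeD W c K) : AEStronglyMeasurable (tyx μ T W) μ :=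
  (hS.proj_apply_meas hW.pg_grad.cont.aestronglyMeasurable).const_smul _

lemma ty_pb (hW : TubeD W c K) : PB (tyx μ T W) := by
  refine PB.of_bound (C := (√(DD μ W 0))⁻¹ * K) fun x => ?_
  unfold tyx
  rw [norm_smul, Real.norm_of_nonneg (by positivity)]
  exact mul_le_mul_of_nonneg_left ((norm_proj_apply_le _ _).trans (hW.b1 x)) (by positivity)

lemma da_meas (hS : GSlice m μ T H) (hW : TubeD W c K) (hu : JF W u c K q) :
    AEStronglyMeasurable (dax μ T W u) μ :=
  ((nh_cont hW).sub hu.pg.cont).abs.aestronglyMeasurable.add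
    ((ty_meas hS hW).sub hu.pg_grad.cont.aestronglyMeasurable).norm

lemma db_meas (hS : GSlice m μ T H) (hW : TubeD W c K) (hu : JF W u c K q) :
    AEStronglyMeasurable (dbx μ T W u) μ :=
  (((nh_cont hW).abs.add hu.pg.cont.abs).aestronglyMeasurable.add
    (ty_meas hS hW).norm).add hu.pg_grad.cont.norm.aestronglyMeasurable

lemma pbx_abs {f : E → ℝ} (hf : PB f) : PB (fun x => |f x|) := hf.norm

lemma da_pb (hW : TubeD W c K) (hu : JF W u c K q) : PB (dax μ T W u) :=
  ((nh_pb hW).sub hu.pg.b0).norm.add ((ty_pb hW).sub hu.pg_grad.b0).norm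

lemma db_pb (hW : TubeD W c K) (hu : JF W u c K q) : PB (dbx μ T W u) :=
  ((((nh_pb hW).norm.add hu.pg.b0.norm)).add (ty_pb hW).norm).add hu.pg_grad.b0.norm

lemma da_nonneg (x : E) : 0 ≤ dax μ T W u x := by unfold dax; positivity
lemma db_nonneg (x : E) : 0 ≤ dbx μ T W u x := by unfold dbx; positivity

lemma da_int (hS : GSlice m μ T H) (hW : TubeD W c K) (hu : JF W u c K q) (L : ℕ) :
    Integrable (fun x => dax μ T W u x ^ 2 * (wt L x * rho x)) μ := by
  refine (hS.integrable_PB (((da_meas hS hW hu).pow 2).mul (PG.wt L).cont.aestronglyMeasurable)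
    (((da_pb hW hu).pow 2).mul (pb_wt L))).congr (Eventually.of_forall fun x => ?_)
  simp only [Pi.mul_apply, Pi.pow_apply]
  ring

lemma db_int (hS : GSlice m μ T H) (hW : TubeD W c K) (hu : JF W u c K q) (L : ℕ) :
    Integrable (fun x => dbx μ T W u x ^ 2 * (wt L x * rho x)) μ := by
  refine (hS.integrable_PB (((db_meas hS hW hu).pow 2).mul (PG.wt L).cont.aestronglyMeasurable)
    (((db_pb hW hu).pow 2).mul (pb_wt L))).congr (Eventually.of_forall fun x => ?_)
  simp only [Pi.mul_apply, Pi.pow_apply]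
  ring

lemma dab_int (hS : GSlice m μ T H) (hW : TubeD W c K) (hu : JF W u c K q) (L : ℕ) :
    Integrable (fun x => dax μ T W u x * dbx μ T W u x * (wt L x * rho x)) μ := by
  refine (hS.integrable_PB (((da_meas hS hW hu).mul (db_meas hS hW hu)).mul
    (PG.wt L).cont.aestronglyMeasurable)
    (((da_pb hW hu).mul (db_pb hW hu)).mul (pb_wt L))).congr (Eventually.of_forall fun x => ?_)
  simp only [Pi.mul_apply]
  ring

/-- a tangential vector is close to its projection -/
lemma norm_grad_sub_proj_le (hW : TubeD W c K) (hu : JF W u c K q)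
    (hE : Module.finrank ℝ E = m + 1) {x : E} (hT : Module.finrank ℝ (T x) = m) :
    ‖grad u x - proj (T x) (grad u x)‖
      ≤ (K + K / c) * wt q x * (|W x| + ‖proj (T x) (grad W x)‖) := by
  set φ := grad u x - proj (T x) (grad u x) with hφ
  have hmem : φ ∈ (T x)ᗮ := H552.sub_proj_mem _ _
  have h1 := abs_inner_grad_vel_le hW hu hE hT hmem
  have h2 : ⟪grad u x, φ⟫ = ‖φ‖ ^ 2 := by
    have h3 : grad u x = φ + proj (T x) (grad u x) := by rw [hφ]; abel
    have h4 : ⟪proj (T x) (grad u x), φ⟫ = 0 :=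
      (Submodule.mem_orthogonal (T x) φ).1 hmem _ (H552.proj_mem _ _)
    conv_lhs => rw [h3]
    rw [inner_add_left, h4, add_zero, real_inner_self_eq_norm_sq]
  rw [h2, abs_of_nonneg (sq_nonneg _)] at h1
  have hK := hW.K_nonneg
  have hc := hW.cpos
  have hw := wt_pos q x
  rcases eq_or_lt_of_le (norm_nonneg φ) with h0 | h0
  · rw [← h0]; positivity
  · have h5 : ‖φ‖ * ‖φ‖ ≤ ((K + K / c) * wt q x * (|W x| + ‖proj (T x) (grad W x)‖)) * ‖φ‖ := by
      rw [← sq]; exact h1
    exact le_of_mul_le_mul_right h5 h0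

lemma ty_sub_eq (hW : TubeD W c K) (x : E) :
    tyx μ T W x - grad u x = proj (T x) (grad (nh μ W) x - grad u x)
      - (grad u x - proj (T x) (grad u x)) := by
  have hgrad : grad (nh μ W) x = (√(DD μ W 0))⁻¹ • grad W x := grad_const_mul _ (hW.diff x)
  unfold tyx
  rw [map_sub, hgrad, map_smul]
  abel

/-- the squared distance, pointwise -/
lemma da_sq_le (hW : TubeD W c K) (hu : JF W u c K q) (hE : Module.finrank ℝ E = m + 1)
    {x : E} (hT : Module.finrank ℝ (T x) = m) :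
    dax μ T W u x ^ 2 ≤ 2 * (nh μ W x - u x) ^ 2
      + 4 * ‖proj (T x) (grad (nh μ W) x - grad u x)‖ ^ 2
      + 8 * (K + K / c) ^ 2 * (wt (2 * q) x * (W x ^ 2 + ‖proj (T x) (grad W x)‖ ^ 2)) := by
  have h1 := norm_grad_sub_proj_le hW hu hE hT
  have h2 : ‖tyx μ T W x - grad u x‖ ≤ ‖proj (T x) (grad (nh μ W) x - grad u x)‖
      + ‖grad u x - proj (T x) (grad u x)‖ := by
    rw [ty_sub_eq hW x]; exact norm_sub_le _ _
  unfold dax
  have hG2 : wt (2 * q) x = wt q x ^ 2 := by rw [two_mul, ← wtx_mul]; ring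
  rw [hG2]
  have hK := hW.K_nonneg
  have hc := hW.cpos
  have hw := (wt_pos q x).le
  set a := |nh μ W x - u x| with ha
  have ha2 : (nh μ W x - u x) ^ 2 = a ^ 2 := (sq_abs _).symm
  rw [ha2]
  set b := ‖tyx μ T W x - grad u x‖
  set d := ‖proj (T x) (grad (nh μ W) x - grad u x)‖
  set e := ‖grad u x - proj (T x) (grad u x)‖
  set P := ‖proj (T x) (grad W x)‖
  set B := K + K / c with hB
  have hB0 : 0 ≤ B := by positivity
  set G := wt q x
  set w := |W x| with hwdef
  have hw2 : W x ^ 2 = w ^ 2 := (sq_abs _).symm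
  rw [hw2]
  have q1 : 0 ≤ b := norm_nonneg _
  have q2 : 0 ≤ d := norm_nonneg _
  have q3 : 0 ≤ e := norm_nonneg _
  have q4 : 0 ≤ P := norm_nonneg _
  have q5 : 0 ≤ w := abs_nonneg _
  have h3 : b ^ 2 ≤ (d + e) ^ 2 := by gcongr
  have h4 : e ^ 2 ≤ (B * G * (w + P)) ^ 2 := by gcongr
  have h5 : (B * G * (w + P)) ^ 2 ≤ 2 * (B ^ 2 * (G ^ 2 * (w ^ 2 + P ^ 2))) := by
    have : 2 * (B ^ 2 * (G ^ 2 * (w ^ 2 + P ^ 2))) - (B * G * (w + P)) ^ 2
        = (B * G * (w - P)) ^ 2 := by ring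
    nlinarith [sq_nonneg (B * G * (w - P))]
  nlinarith [sq_nonneg (a - b), sq_nonneg (d - e)]

end slice

/-- a blow-up sequence at the shrinker `{W = 0}`, with strong convergence of the normalised heights
and of their tangential gradients to `u` -/
structure BL {ι : Type*} (U : Ultrafilter ι) (m : ℕ) (N : ι → Measure E)
    (T : ι → E → Submodule ℝ E) (H : ι → E → E) (κ : Measure E) (W u : E → ℝ) (c K : ℝ) (q J : ℕ)
    (M : ℝ) : Prop where
  dim : Module.finrank ℝ E = m + 1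
  conv : Conv U m N T H κ
  tube : Tube3 W c K
  zero : ∀ᵐ x ∂κ, W x = 0
  ju : JF W u c K q
  pos : ∀ᶠ i in (U : Filter ι), 0 < DD (N i) W 0
  dd : Tendsto (fun i => DD (N i) W 0) U (𝓝 0)
  dis : Tendsto (fun i => dis (N i) (T i) (H i) / DD (N i) W 0) U (𝓝 0)
  mom : ∀ᶠ i in (U : Filter ι), DD (N i) W J + TG (N i) (T i) W J ≤ M * DD (N i) W 0
  s1 : Tendsto (fun i => ∫ x, (nh (N i) W x - u x) ^ 2 * wt J x * rho x ∂(N i)) U (𝓝 0)
  s2 : Tendsto (fun i => ∫ x, ‖proj (T i x) (grad (nh (N i) W) x - grad u x)‖ ^ 2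
      * wt J x * rho x ∂(N i)) U (𝓝 0)

lemma DDx_mono {μ : Measure E} {T : E → Submodule ℝ E} {H : E → E} {W : E → ℝ}
    (hS : GSlice m μ T H) (hW : TubeD W c K) {a b : ℕ} (h : a ≤ b) : DD μ W a ≤ DD μ W b := by
  refine integral_mono (hS.int_DD hW a) (hS.int_DD hW b) fun x => ?_
  have h1 : wt a x ≤ wt b x := wtx_mono h x
  have h2 := rho_pos x
  change W x ^ 2 * wt a x * rho x ≤ W x ^ 2 * wt b x * rho x
  gcongr

lemma TGx_mono {μ : Measure E} {T : E → Submodule ℝ E} {H : E → E} {W : E → ℝ}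
    (hS : GSlice m μ T H) (hW : TubeD W c K) {a b : ℕ} (h : a ≤ b) : TG μ T W a ≤ TG μ T W b := by
  refine integral_mono (hS.int_TG hW a) (hS.int_TG hW b) fun x => ?_
  have h1 : wt a x ≤ wt b x := wtx_mono h x
  have h2 := rho_pos x
  dsimp only
  gcongr

namespace BL

variable {ι : Type*} {U : Ultrafilter ι} {N : ι → Measure E} {T : ι → E → Submodule ℝ E}
  {H : ι → E → E} {κ : Measure E} {W u : E → ℝ} {J : ℕ} {M : ℝ}

lemma td (h : BL U m N T H κ W u c K q J M) : TubeD W c K := h.tube.toTubeD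

lemma sqD (h : BL U m N T H κ W u c K q J M) : Tendsto (fun i => √(DD (N i) W 0)) U (𝓝 0) := by
  have := h.dd.sqrt; rwa [Real.sqrt_zero] at this

/-- moments of the second order quantities, after normalisation -/
lemma momL (h : BL U m N T H κ W u c K q J M) {L : ℕ} (hL : L ≤ J) :
    ∀ᶠ i in (U : Filter ι), DD (N i) W L + TG (N i) (T i) W L ≤ M * DD (N i) W 0 := by
  filter_upwards [h.mom, h.conv.sl] with i hi hs
  exact (add_le_add (DDx_mono hs h.td hL) (TGx_mono hs h.td hL)).trans hi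

/-- `∫ a² → 0` -/
lemma da_lim (h : BL U m N T H κ W u c K q J M) {L : ℕ} (hL : L + 2 * q ≤ J) :
    Tendsto (fun i => ∫ x, dax (N i) (T i) W u x ^ 2 * (wt L x * rho x) ∂(N i)) U (𝓝 0) := by
  have hW := h.td
  set B := K + K / c with hB
  have e1 : Tendsto (fun i => 2 * ∫ x, (nh (N i) W x - u x) ^ 2 * wt J x * rho x ∂(N i)
      + 4 * ∫ x, ‖proj (T i x) (grad (nh (N i) W) x - grad u x)‖ ^ 2 * wt J x * rho x ∂(N i)
      + 8 * B ^ 2 * (M * DD (N i) W 0)) U (𝓝 0) := by
    have := ((h.s1.const_mul 2).add (h.s2.const_mul 4)).add ((h.dd.const_mul M).const_mul (8 * B ^ 2))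
    simpa using this
  refine squeeze_zero' (Eventually.of_forall fun i => integral_nonneg fun x =>
    mul_nonneg (sq_nonneg _) (mul_nonneg (wt_pos L x).le (rho_pos x).le)) ?_ e1
  filter_upwards [h.conv.sl, h.momL hL] with i hs hm
  have hnc := nh_cont (μ := N i) hW
  have i1 : Integrable (fun x => (nh (N i) W x - u x) ^ 2 * wt J x * rho x) (N i) :=
    hs.integrable_PB (((hnc.sub h.ju.pg.cont).pow 2).mul (PG.wt J).cont).aestronglyMeasurable
      ((((nh_pb hW).sub h.ju.pg.b0).pow 2).mul (pb_wt J))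
  have hgn : PG (grad (nh (N i) W)) := by
    have : grad (nh (N i) W) = fun x => (√(DD (N i) W 0))⁻¹ • grad W x := by
      ext1 x; exact grad_const_mul _ (hW.diff x)
    rw [this]
    exact (PG.const _).smul hW.pg_grad
  have hgd : PG (fun x => grad (nh (N i) W) x - grad u x) := hgn.sub h.ju.pg_grad
  have i2 : Integrable (fun x => ‖proj (T i x) (grad (nh (N i) W) x - grad u x)‖ ^ 2
      * wt J x * rho x) (N i) := by
    refine hs.integrable_dom
      (((hs.proj_apply_meas hgd.cont.aestronglyMeasurable).norm.pow 2).mul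
        (PG.wt J).cont.aestronglyMeasurable)
      ((hgd.b0.norm.pow 2).mul (pb_wt J)) fun x => ?_
    rw [abs_mul, abs_mul]
    refine mul_le_mul_of_nonneg_right ?_ (abs_nonneg _)
    rw [abs_of_nonneg (by positivity), abs_of_nonneg (by positivity)]
    have := norm_proj_apply_le (T i x) (grad (nh (N i) W) x - grad u x)
    gcongr
  have i3 := int_wt_sq hs hW (L + 2 * q)
  have e2 := integral_comb i1 i2 i3 2 4 (8 * B ^ 2)
  rw [integral_wt_sq hs hW] at e2
  have e3 : ∫ x, dax (N i) (T i) W u x ^ 2 * (wt L x * rho x) ∂(N i)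
      ≤ ∫ x, (2 * ((nh (N i) W x - u x) ^ 2 * wt J x * rho x)
        + 4 * (‖proj (T i x) (grad (nh (N i) W) x - grad u x)‖ ^ 2 * wt J x * rho x)
        + 8 * B ^ 2 * (wt (L + 2 * q) x * (W x ^ 2 + ‖proj (T i x) (grad W x)‖ ^ 2) * rho x))
          ∂(N i) := by
    refine integral_mono_of_nonneg (Eventually.of_forall fun x => mul_nonneg (sq_nonneg _)
      (mul_nonneg (wt_pos L x).le (rho_pos x).le))
      (((i1.const_mul _).add (i2.const_mul _)).add (i3.const_mul _)) ?_
    filter_upwards [hs.mc.dim] with x hx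
    have h1 := da_sq_le (μ := N i) hW h.ju h.dim hx
    have hr := rho_pos x
    have hwL := wt_pos L x
    have hwJ : wt L x ≤ wt J x := wtx_mono (by omega) x
    have hw2 : wt (L + 2 * q) x = wt L x * wt (2 * q) x := (wtx_mul _ _ _).symm
    rw [hw2]
    have h2 : 0 ≤ wt L x * rho x := by positivity
    calc dax (N i) (T i) W u x ^ 2 * (wt L x * rho x)
        ≤ (2 * (nh (N i) W x - u x) ^ 2
          + 4 * ‖proj (T i x) (grad (nh (N i) W) x - grad u x)‖ ^ 2
          + 8 * B ^ 2 * (wt (2 * q) x * (W x ^ 2 + ‖proj (T i x) (grad W x)‖ ^ 2)))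
            * (wt L x * rho x) := mul_le_mul_of_nonneg_right h1 h2
      _ = 2 * ((nh (N i) W x - u x) ^ 2 * wt L x * rho x)
          + 4 * (‖proj (T i x) (grad (nh (N i) W) x - grad u x)‖ ^ 2 * wt L x * rho x)
          + 8 * B ^ 2 * (wt L x * wt (2 * q) x * (W x ^ 2 + ‖proj (T i x) (grad W x)‖ ^ 2)
            * rho x) := by ring
      _ ≤ _ := by gcongr
  refine e3.trans (le_of_eq e2 |>.trans ?_)
  have h4 : 8 * B ^ 2 * (DD (N i) W (L + 2 * q) + TG (N i) (T i) W (L + 2 * q))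
      ≤ 8 * B ^ 2 * (M * DD (N i) W 0) := by
    exact mul_le_mul_of_nonneg_left hm (by positivity)
  linarith

/-- the normalised quantities in terms of `DD`, `TG` -/
lemma _root_.Vale.Agent.P218.H313.int_nh_ty {μ : Measure E} {T : E → Submodule ℝ E} {H : E → E}
    {W : E → ℝ} (hS : GSlice m μ T H) (hW : TubeD W c K) (hp : 0 < DD μ W 0) (L : ℕ) :
    Integrable (fun x => (nh μ W x ^ 2 + ‖tyx μ T W x‖ ^ 2) * (wt L x * rho x)) μ ∧
    ∫ x, (nh μ W x ^ 2 + ‖tyx μ T W x‖ ^ 2) * (wt L x * rho x) ∂μ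
      = (DD μ W L + TG μ T W L) / DD μ W 0 := by
  have e : (fun x => (nh μ W x ^ 2 + ‖tyx μ T W x‖ ^ 2) * (wt L x * rho x))
      = fun x => (DD μ W 0)⁻¹ * (wt L x * (W x ^ 2 + ‖proj (T x) (grad W x)‖ ^ 2) * rho x) := by
    ext x
    have h1 : (√(DD μ W 0))⁻¹ ^ 2 = (DD μ W 0)⁻¹ := by rw [inv_pow, Real.sq_sqrt hp.le]
    unfold nh tyx
    rw [norm_smul, Real.norm_of_nonneg (by positivity), mul_pow, mul_pow, h1]
    ring
  rw [e]
  refine ⟨(int_wt_sq hS hW L).const_mul _, ?_⟩
  rw [integral_const_mul, integral_wt_sq hS hW]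
  field_simp

/-- `∫ b²` is bounded -/
lemma db_bd (h : BL U m N T H κ W u c K q J M) {L : ℕ} (hL : L ≤ J) :
    ∃ B : ℝ, 0 ≤ B ∧ ∀ᶠ i in (U : Filter ι),
      ∫ x, dbx (N i) (T i) W u x ^ 2 * (wt L x * rho x) ∂(N i) ≤ B := by
  have hW := h.td
  have hK := hW.K_nonneg
  obtain ⟨C, hC⟩ := h.conv.mom (2 * (L + 2 * q))
  refine ⟨4 * (|M| + 2 * K ^ 2 * |C|), by positivity, ?_⟩
  filter_upwards [h.conv.sl, h.momL hL, h.pos, hC] with i hs hm hp hc
  obtain ⟨i1, e1⟩ := int_nh_ty hs hW hp L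
  have i2 : Integrable (fun x => (1 + ‖x‖) ^ (2 * (L + 2 * q)) * rho x) (N i) := hs.mom _
  have e2 : ∫ x, (4 * ((nh (N i) W x ^ 2 + ‖tyx (N i) (T i) W x‖ ^ 2) * (wt L x * rho x))
      + 8 * K ^ 2 * ((1 + ‖x‖) ^ (2 * (L + 2 * q)) * rho x)) ∂(N i)
      ≤ 4 * (|M| + 2 * K ^ 2 * |C|) := by
    rw [integral_comb2 i1 i2, e1]
    have h1 : (DD (N i) W L + TG (N i) (T i) W L) / DD (N i) W 0 ≤ |M| := by
      rw [div_le_iff₀ hp]
      exact hm.trans (mul_le_mul_of_nonneg_right (le_abs_self _) hp.le)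
    have h2 : 8 * K ^ 2 * ∫ x, (1 + ‖x‖) ^ (2 * (L + 2 * q)) * rho x ∂(N i) ≤ 8 * K ^ 2 * |C| :=
      mul_le_mul_of_nonneg_left (hc.trans (le_abs_self _)) (by positivity)
    linarith
  refine le_trans ?_ e2
  refine integral_mono_of_nonneg (Eventually.of_forall fun x => mul_nonneg (sq_nonneg _)
      (mul_nonneg (wt_pos L x).le (rho_pos x).le)) ((i1.const_mul _).add (i2.const_mul _))
      (Eventually.of_forall fun x => ?_)
  have hr := rho_pos x
  have hwL := wt_pos L x
  have hwq := wt_pos q x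
  have g1 := h.ju.b0 x
  have g2 := h.ju.b1 x
  have hwp := wtx_le_pow (L + 2 * q) x
  have hw2 : wt (L + 2 * q) x = wt L x * wt q x ^ 2 := by
    rw [← wtx_mul, two_mul, ← wtx_mul]; ring
  unfold dbx
  have ha2 : nh (N i) W x ^ 2 = |nh (N i) W x| ^ 2 := (sq_abs _).symm
  dsimp only
  rw [ha2]
  set a := |nh (N i) W x| with ha
  set b := |u x| with hb
  set d := ‖tyx (N i) (T i) W x‖
  set e := ‖grad u x‖
  have q1 : 0 ≤ a := abs_nonneg _
  have q2 : 0 ≤ b := abs_nonneg _
  have q3 : 0 ≤ d := norm_nonneg _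
  have q4 : 0 ≤ e := norm_nonneg _
  have h1 : (a + b + d + e) ^ 2 ≤ 4 * (a ^ 2 + d ^ 2) + 4 * (b ^ 2 + e ^ 2) := by
    nlinarith [sq_nonneg (a - b), sq_nonneg (a - d), sq_nonneg (a - e), sq_nonneg (b - d),
      sq_nonneg (b - e), sq_nonneg (d - e)]
  have h2 : b ^ 2 ≤ (K * wt q x) ^ 2 := by gcongr
  have h3 : e ^ 2 ≤ (K * wt q x) ^ 2 := by gcongr
  have h4 : 0 ≤ wt L x * rho x := by positivity
  calc (a + b + d + e) ^ 2 * (wt L x * rho x)
      ≤ (4 * (a ^ 2 + d ^ 2) + 4 * ((K * wt q x) ^ 2 + (K * wt q x) ^ 2)) * (wt L x * rho x) :=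
        mul_le_mul_of_nonneg_right (by linarith) h4
    _ = 4 * ((a ^ 2 + d ^ 2) * (wt L x * rho x)) + 8 * K ^ 2 * (wt (L + 2 * q) x * rho x) := by
        rw [hw2]; ring
    _ ≤ _ := by gcongr

/-- products of the small and of the bounded quantity -/
lemma small (h : BL U m N T H κ W u c K q J M) {L : ℕ} (hL : L + 2 * q ≤ J) {C : ℝ}
    {F : ι → E → ℝ} (hF : ∀ᶠ i in (U : Filter ι), ∀ᵐ x ∂(N i),
      |F i x| ≤ C * (dax (N i) (T i) W u x * dbx (N i) (T i) W u x * wt L x)) :
    Tendsto (fun i => ∫ x, F i x * rho x ∂(N i)) U (𝓝 0) := by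
  have hW := h.td
  obtain ⟨B, hB, hb⟩ := h.db_bd (L := L) (by omega)
  have h1 := h.da_lim hL
  have h2 : Tendsto (fun i => |C| * (√(∫ x, dax (N i) (T i) W u x ^ 2 * (wt L x * rho x) ∂(N i))
      * √B)) U (𝓝 0) := by
    have := (h1.sqrt.mul_const (√B)).const_mul |C|
    simpa using this
  refine squeeze_zero_norm' ?_ h2
  filter_upwards [hF, hb, h.conv.sl] with i hi hbi hs
  have i1 := da_int hs hW h.ju L
  have i2 := db_int hs hW h.ju L
  have i3 := dab_int hs hW h.ju L
  have e1 : ‖∫ x, F i x * rho x ∂(N i)‖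
      ≤ ∫ x, |C| * (dax (N i) (T i) W u x * dbx (N i) (T i) W u x * (wt L x * rho x)) ∂(N i) := by
    refine norm_integral_le_of_norm_le (i3.const_mul _) ?_
    filter_upwards [hi] with x hx
    rw [norm_mul, Real.norm_of_nonneg (rho_pos x).le, Real.norm_eq_abs]
    have h3 : 0 ≤ dax (N i) (T i) W u x * dbx (N i) (T i) W u x * wt L x := by
      have := da_nonneg (μ := N i) (T := T i) (W := W) (u := u) x
      have := db_nonneg (μ := N i) (T := T i) (W := W) (u := u) x
      have := wt_pos L x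
      positivity
    calc |F i x| * rho x ≤ (C * (dax (N i) (T i) W u x * dbx (N i) (T i) W u x * wt L x)) * rho x :=
          mul_le_mul_of_nonneg_right hx (rho_pos x).le
      _ ≤ (|C| * (dax (N i) (T i) W u x * dbx (N i) (T i) W u x * wt L x)) * rho x := by
          gcongr
          · exact (rho_pos x).le
          · exact le_abs_self C
      _ = _ := by ring
  refine e1.trans ?_
  rw [integral_const_mul]
  refine mul_le_mul_of_nonneg_left ?_ (abs_nonneg C)
  refine (le_abs_self _).trans ((abs_integral_mul_le (fun x => mul_nonneg (wt_pos L x).le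
    (rho_pos x).le) i1 i2 i3).trans ?_)
  exact mul_le_mul_of_nonneg_left (Real.sqrt_le_sqrt hbi) (Real.sqrt_nonneg _)

/-- convergence of weighted squares -/
lemma lim_sq (h : BL U m N T H κ W u c K q J M) {f : E → ℝ} (hf : Continuous f) {C : ℝ} {L : ℕ}
    (hL : L + 2 * q ≤ J) (hfb : ∀ x, |f x| ≤ C * wt L x) :
    Tendsto (fun i => ∫ x, nh (N i) W x ^ 2 * f x * rho x ∂(N i)) U
      (𝓝 (∫ x, u x ^ 2 * f x * rho x ∂κ)) := by
  have hW := h.td
  have hfpb : PB f := PB.of_wt (C := C) (j := L) fun x => by rw [Real.norm_eq_abs]; exact hfb x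
  have h1 := h.small hL (C := C) (F := fun i x => (nh (N i) W x ^ 2 - u x ^ 2) * f x)
    (Eventually.of_forall fun i => Eventually.of_forall fun x => by
      have e1 : (nh (N i) W x ^ 2 - u x ^ 2) * f x
          = ((nh (N i) W x - u x) * (nh (N i) W x + u x)) * f x := by ring
      rw [e1, abs_mul, abs_mul]
      have h2 : |nh (N i) W x - u x| ≤ dax (N i) (T i) W u x := by
        unfold dax; linarith [norm_nonneg (tyx (N i) (T i) W x - grad u x)]
      have h3 : |nh (N i) W x + u x| ≤ dbx (N i) (T i) W u x := by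
        unfold dbx
        linarith [abs_add_le (nh (N i) W x) (u x), norm_nonneg (tyx (N i) (T i) W x),
          norm_nonneg (grad u x)]
      calc |nh (N i) W x - u x| * |nh (N i) W x + u x| * |f x|
          ≤ (dax (N i) (T i) W u x * dbx (N i) (T i) W u x) * (C * wt L x) :=
            mul_le_mul (mul_le_mul h2 h3 (abs_nonneg _) (da_nonneg x)) (hfb x) (abs_nonneg _)
              (mul_nonneg (da_nonneg x) (db_nonneg x))
        _ = _ := by ring)
  have h2 := h.conv.lim_PB (f := fun x => u x ^ 2 * f x) ((h.ju.pg.cont.pow 2).mul hf)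
    ((h.ju.pg.b0.pow 2).mul hfpb)
  have h3 := h1.add h2
  rw [zero_add] at h3
  refine h3.congr' ?_
  filter_upwards [h.conv.sl] with i hs
  rw [← integral_add]
  · congr 1; ext x; ring
  · exact hs.integrable_PB ((((nh_cont hW).pow 2).sub (h.ju.pg.cont.pow 2)).mul hf).aestronglyMeasurable
      ((((nh_pb hW).pow 2).sub (h.ju.pg.b0.pow 2)).mul hfpb)
  · exact hs.integrable_PB ((h.ju.pg.cont.pow 2).mul hf).aestronglyMeasurable
      ((h.ju.pg.b0.pow 2).mul hfpb)

end BL

end Vale.Agent.P218.H313
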