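import Vale.Agent.P218.H63.X3

/-! Second order expansion at a shrinker: the rate of `∫ W v ρ` along a blow-up sequence. -/

open MeasureTheory Set Filter Topology Metric
open scoped ENNReal NNReal RealInnerProductSpace

namespace Vale.Agent.P218.H313

open Vale.Agent.P214 (IntegralVarifold proj divAlong IsTestField)

set_option linter.unusedSectionVars false
set_option linter.unusedVariables false

variable {E : Type*} [NormedAddCommGroup E] [InnerProductSpace ℝ E] [FiniteDimensional ℝ E]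
  [MeasurableSpace E] [BorelSpace E]
variable {m q : ℕ} {c K : ℝ}

/-- the quadratic part, in terms of the limit -/
noncomputable def qd2 (W v u : E → ℝ) (x : E) : ℝ :=
  u x ^ 2 * (v x * tr ((fderiv ℝ (grad W) x).comp
      ((fderiv ℝ (grad W) x).comp (fderiv ℝ (grad W) x))))
    + v x * ⟪fderiv ℝ (grad W) x (grad u x), grad u x⟫
    - 2 * u x * ⟪fderiv ℝ (grad W) x (grad v x), grad u x⟫

/-- the quadratic form `Q(u,u;v)` -/
noncomputable def QF (κ : Measure E) (W v u : E → ℝ) : ℝ :=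
  ∫ x, (u x ^ 2 * thx W v x + qd2 W v u x) * rho x ∂κ

lemma continuous_th {W v : E → ℝ} (hW : TubeD W c K) (hv : JF W v c K q) :
    Continuous (thx W v) := by
  unfold thx
  have h1 := hess_meas hW.smooth
  have h2 := hess_meas hv.cd
  exact (continuous_const.mul ((trL E).continuous.comp (h1.clm_comp h2))).sub
    ((continuous_const.mul hv.pg.cont).mul (continuous_tr3 hW))

lemma abs_th_le {W v : E → ℝ} (hW : TubeD W c K) (hv : JF W v c K q) (x : E) :
    |thx W v x| ≤ (2 * Module.finrank ℝ E * K ^ 2 + 2 * Module.finrank ℝ E * K ^ 4) * wt q x := by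
  have hK := hW.K_nonneg
  have hAn := hW.b2 x
  have hBn := hv.b2 x
  have hv0 := hv.b0 x
  have hw := (wt_pos q x).le
  have t3 := abs_tr_comp3_le (E := E) hAn hK
  set N : ℝ := (Module.finrank ℝ E : ℝ) with hN
  have hN0 : 0 ≤ N := Nat.cast_nonneg _
  have t1 : |tr ((fderiv ℝ (grad W) x).comp (fderiv ℝ (grad v) x))| ≤ N * (K * (K * wt q x)) := by
    refine (abs_tr_le _).trans ?_
    refine mul_le_mul_of_nonneg_left ((ContinuousLinearMap.opNorm_comp_le _ _).trans ?_) hN0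
    exact mul_le_mul hAn hBn (norm_nonneg _) hK
  unfold thx
  refine (abs_sub _ _).trans ?_
  rw [abs_mul, abs_mul, abs_mul]
  have e1 : |(-2 : ℝ)| = 2 := by norm_num
  have e2 : |(2 : ℝ)| = 2 := by norm_num
  rw [e1, e2]
  have h1 : 2 * |v x| * |tr ((fderiv ℝ (grad W) x).comp
      ((fderiv ℝ (grad W) x).comp (fderiv ℝ (grad W) x)))| ≤ 2 * (K * wt q x) * (N * K ^ 3) := by
    gcongr
  calc _ ≤ 2 * (N * (K * (K * wt q x))) + 2 * (K * wt q x) * (N * K ^ 3) := by
        gcongr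
    _ = _ := by ring

lemma real_r3a {a b d e f g : ℝ} (q1 : 0 ≤ a) (q2 : 0 ≤ b) (q3 : 0 ≤ d) (q4 : 0 ≤ e)
    (q5 : 0 ≤ f) (q6 : 0 ≤ g) (a1 : a - b ≤ f) (a2 : d - e ≤ g) :
    a ^ 2 + d ^ 2 ≤ (b ^ 2 + e ^ 2) + 2 * ((f + g) * (a + b + d + e)) := by
  have c1 : a ^ 2 - b ^ 2 ≤ f * (a + b) := by nlinarith
  have c2 : d ^ 2 - e ^ 2 ≤ g * (d + e) := by nlinarith
  have c3 : f * (a + b) + g * (d + e) ≤ (f + g) * (a + b + d + e) := by
    have r1 := mul_nonneg q5 q3
    have r2 := mul_nonneg q5 q4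
    have rr3 := mul_nonneg q6 q1
    have r4 := mul_nonneg q6 q2
    nlinarith
  have c4 : 0 ≤ (f + g) * (a + b + d + e) := by positivity
  linarith

lemma real_r3b {a b d e X : ℝ} (q1 : 0 ≤ a) (q2 : 0 ≤ b) (q3 : 0 ≤ d) (q4 : 0 ≤ e)
    (hX : 0 ≤ X) (f7 : b ^ 2 + e ^ 2 ≤ 2 * X) :
    (a + d) * (b ^ 2 + e ^ 2) ≤ 2 * (a ^ 2 + d ^ 2) + 8 * X ^ 2 := by
  have h1 : (a + d) * (b ^ 2 + e ^ 2) ≤ (a + d) * (2 * X) :=
    mul_le_mul_of_nonneg_left f7 (by positivity)
  nlinarith [sq_nonneg (a - d), sq_nonneg (a + d - 2 * X), sq_nonneg X, sq_nonneg (a + d)]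

lemma real_r3 {w P s K G a b d e f g : ℝ} (hs : 0 ≤ s) (hK : 0 ≤ K) (hG : 0 ≤ G)
    (q1 : 0 ≤ a) (q2 : 0 ≤ b) (q3 : 0 ≤ d) (q4 : 0 ≤ e)
    (q5 : 0 ≤ f) (q6 : 0 ≤ g) (a1 : a - b ≤ f) (a2 : d - e ≤ g) (n3 : w = s * a) (n4 : P = s * d)
    (n5 : w ≤ K) (n6 : P ≤ K) (g1 : b ≤ K * G) (g2 : e ≤ K * G) :
    (w + P) * (w ^ 2 + P ^ 2) ≤ s ^ 2 * (4 * K * ((f + g) * (a + b + d + e)))
      + 2 * s ^ 3 * (a ^ 2 + d ^ 2) + 8 * K ^ 4 * s ^ 3 * G ^ 4 := by
  have d1 := real_r3a q1 q2 q3 q4 q5 q6 a1 a2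
  have hab0 : 0 ≤ (f + g) * (a + b + d + e) := by positivity
  generalize (f + g) * (a + b + d + e) = ab at d1 hab0 ⊢
  have w0 : 0 ≤ w := by rw [n3]; positivity
  have P0 : 0 ≤ P := by rw [n4]; positivity
  have f2 : w ^ 2 + P ^ 2 = s ^ 2 * (a ^ 2 + d ^ 2) := by rw [n3, n4]; ring
  have f1 : (w + P) * (w ^ 2 + P ^ 2)
      ≤ s ^ 2 * ((w + P) * (b ^ 2 + e ^ 2)) + s ^ 2 * (4 * K * ab) := by
    rw [f2]
    have f4 : w + P ≤ 2 * K := by linarith
    have h1 : (w + P) * (s ^ 2 * (a ^ 2 + d ^ 2))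
        ≤ (w + P) * (s ^ 2 * ((b ^ 2 + e ^ 2) + 2 * ab)) := by gcongr
    have h2 : (w + P) * (2 * ab) ≤ (2 * K) * (2 * ab) :=
      mul_le_mul_of_nonneg_right f4 (by positivity)
    have h3 := mul_le_mul_of_nonneg_left h2 (sq_nonneg s)
    calc _ ≤ _ := h1
      _ = s ^ 2 * ((w + P) * (b ^ 2 + e ^ 2)) + s ^ 2 * ((w + P) * (2 * ab)) := by ring
      _ ≤ s ^ 2 * ((w + P) * (b ^ 2 + e ^ 2)) + s ^ 2 * ((2 * K) * (2 * ab)) := by linarith
      _ = _ := by ring
  have f5 : (w + P) * (b ^ 2 + e ^ 2) ≤ s * (2 * (a ^ 2 + d ^ 2) + 8 * K ^ 4 * G ^ 4) := by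
    have f7 : b ^ 2 + e ^ 2 ≤ 2 * (K * G) ^ 2 := by
      have h1 : b ^ 2 ≤ (K * G) ^ 2 := by gcongr
      have h2 : e ^ 2 ≤ (K * G) ^ 2 := by gcongr
      linarith
    have h := real_r3b q1 q2 q3 q4 (sq_nonneg (K * G)) f7
    rw [n3, n4]
    calc (s * a + s * d) * (b ^ 2 + e ^ 2) = s * ((a + d) * (b ^ 2 + e ^ 2)) := by ring
      _ ≤ s * (2 * (a ^ 2 + d ^ 2) + 8 * ((K * G) ^ 2) ^ 2) := mul_le_mul_of_nonneg_left h hs
      _ = _ := by ring
  have h6 := mul_le_mul_of_nonneg_left f5 (sq_nonneg s)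
  calc _ ≤ s ^ 2 * (s * (2 * (a ^ 2 + d ^ 2) + 8 * K ^ 4 * G ^ 4)) + s ^ 2 * (4 * K * ab) := by
        linarith
    _ = _ := by ring

namespace BL

variable {ι : Type*} {U : Ultrafilter ι} {N : ι → Measure E} {T : ι → E → Submodule ℝ E}
  {H : ι → E → E} {κ : Measure E} {W u v : E → ℝ} {J : ℕ} {M : ℝ}

/-- cubic remainders -/
lemma lim_r3 (h : BL U m N T H κ W u c K q J M) {L : ℕ} (hL : L + 4 * q ≤ J) :
    Tendsto (fun i => (∫ x, wt L x * rr3 W (T i) x * rho x ∂(N i)) / DD (N i) W 0) U (𝓝 0) := by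
  have hW := h.td
  have hK := hW.K_nonneg
  have hM := h.mom
  obtain ⟨B, hB⟩ := h.conv.mom (2 * (L + 4 * q))
  -- the main small part
  have h1 := h.small (L := L) (by omega) (C := 4 * K)
    (F := fun i x => 4 * K * (dax (N i) (T i) W u x * dbx (N i) (T i) W u x * wt L x))
    (Eventually.of_forall fun i => Eventually.of_forall fun x => by
      rw [abs_of_nonneg]
      have := da_nonneg (μ := N i) (T := T i) (W := W) (u := u) x
      have := db_nonneg (μ := N i) (T := T i) (W := W) (u := u) x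
      have := wt_pos L x
      positivity)
  have h2 : Tendsto (fun i => (∫ x, 4 * K * (dax (N i) (T i) W u x * dbx (N i) (T i) W u x * wt L x)
      * rho x ∂(N i)) + √(DD (N i) W 0) * (2 * |M| + 8 * K ^ 4 * |B|)) U (𝓝 0) := by
    have := h1.add (h.sqD.mul_const (2 * |M| + 8 * K ^ 4 * |B|))
    simpa using this
  refine squeeze_zero' (Eventually.of_forall fun i => div_nonneg (integral_nonneg fun x =>
    mul_nonneg (mul_nonneg (wt_pos L x).le (r3_nonneg x)) (rho_pos x).le) (DD_nonneg 0)) ?_ h2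
  filter_upwards [h.conv.sl, h.momL (L := L) (by omega), h.pos, hB] with i hs hm hp hb
  obtain ⟨i1, e1⟩ := int_nh_ty hs hW hp L
  have i2 : Integrable (fun x => (1 + ‖x‖) ^ (2 * (L + 4 * q)) * rho x) (N i) := hs.mom _
  have i3 : Integrable (fun x => 4 * K * (dax (N i) (T i) W u x * dbx (N i) (T i) W u x * wt L x)
      * rho x) (N i) := by
    refine ((dab_int hs hW h.ju L).const_mul (4 * K)).congr (Eventually.of_forall fun x => ?_)
    ring
  have hs0 : 0 < √(DD (N i) W 0) := Real.sqrt_pos.2 hp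
  set s := √(DD (N i) W 0) with hsdef
  have hsq : s ^ 2 = DD (N i) W 0 := Real.sq_sqrt hp.le
  -- bound the integral
  have key : ∫ x, wt L x * rr3 W (T i) x * rho x ∂(N i)
      ≤ ∫ x, (s ^ 2 * (4 * K * (dax (N i) (T i) W u x * dbx (N i) (T i) W u x * wt L x) * rho x)
        + 2 * s ^ 3 * ((nh (N i) W x ^ 2 + ‖tyx (N i) (T i) W x‖ ^ 2) * (wt L x * rho x))
        + 8 * K ^ 4 * s ^ 3 * ((1 + ‖x‖) ^ (2 * (L + 4 * q)) * rho x)) ∂(N i) := by
    refine integral_mono_of_nonneg (Eventually.of_forall fun x =>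
      mul_nonneg (mul_nonneg (wt_pos L x).le (r3_nonneg x)) (rho_pos x).le)
      (((i3.const_mul _).add (i1.const_mul _)).add (i2.const_mul _))
      (Eventually.of_forall fun x => ?_)
    have hr := rho_pos x
    have hwL := wt_pos L x
    have hwq := wt_pos q x
    have g1 := h.ju.b0 x
    have g2 := h.ju.b1 x
    have hwp := wtx_le_pow (L + 4 * q) x
    have hw2 : wt (L + 4 * q) x = wt L x * wt q x ^ 4 := by
      rw [← wtx_mul, show 4 * q = q + q + (q + q) by ring, ← wtx_mul, ← wtx_mul]; ring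
    have n1 : |nh (N i) W x| = s⁻¹ * |W x| := by
      unfold nh; rw [abs_mul, abs_of_nonneg (by positivity)]
    have n2 : ‖tyx (N i) (T i) W x‖ = s⁻¹ * ‖proj (T i x) (grad W x)‖ := by
      unfold tyx; rw [norm_smul, Real.norm_of_nonneg (by positivity)]
    have n3 : |W x| = s * |nh (N i) W x| := by rw [n1]; field_simp
    have n4 : ‖proj (T i x) (grad W x)‖ = s * ‖tyx (N i) (T i) W x‖ := by rw [n2]; field_simp
    have n5 : |W x| ≤ K := hW.b0 x
    have n6 : ‖proj (T i x) (grad W x)‖ ≤ K := (norm_proj_apply_le _ _).trans (hW.b1 x)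
    have sW : W x ^ 2 = |W x| ^ 2 := (sq_abs _).symm
    have sN : nh (N i) W x ^ 2 = |nh (N i) W x| ^ 2 := (sq_abs _).symm
    have f8 := real_r3 hs0.le hK hwq.le (abs_nonneg (nh (N i) W x)) (abs_nonneg (u x))
      (norm_nonneg (tyx (N i) (T i) W x)) (norm_nonneg (grad u x))
      (abs_nonneg (nh (N i) W x - u x)) (norm_nonneg (tyx (N i) (T i) W x - grad u x))
      (abs_sub_abs_le_abs_sub _ _) (norm_sub_norm_le _ _) n3 n4 n5 n6 g1 g2
    change wt L x * ((|W x| + ‖proj (T i x) (grad W x)‖)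
      * (W x ^ 2 + ‖proj (T i x) (grad W x)‖ ^ 2)) * rho x
      ≤ s ^ 2 * (4 * K * (((|nh (N i) W x - u x| + ‖tyx (N i) (T i) W x - grad u x‖)
          * (|nh (N i) W x| + |u x| + ‖tyx (N i) (T i) W x‖ + ‖grad u x‖)) * wt L x) * rho x)
        + 2 * s ^ 3 * ((nh (N i) W x ^ 2 + ‖tyx (N i) (T i) W x‖ ^ 2) * (wt L x * rho x))
        + 8 * K ^ 4 * s ^ 3 * ((1 + ‖x‖) ^ (2 * (L + 4 * q)) * rho x)
    rw [sW, sN]
    set ab := (|nh (N i) W x - u x| + ‖tyx (N i) (T i) W x - grad u x‖)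
          * (|nh (N i) W x| + |u x| + ‖tyx (N i) (T i) W x‖ + ‖grad u x‖)
    set a := |nh (N i) W x|
    set d := ‖tyx (N i) (T i) W x‖
    set G := wt q x
    calc wt L x * ((|W x| + ‖proj (T i x) (grad W x)‖)
          * (|W x| ^ 2 + ‖proj (T i x) (grad W x)‖ ^ 2)) * rho x
        ≤ wt L x * (s ^ 2 * (4 * K * ab) + 2 * s ^ 3 * (a ^ 2 + d ^ 2)
          + 8 * K ^ 4 * s ^ 3 * G ^ 4) * rho x := by gcongr
      _ = s ^ 2 * (4 * K * (ab * wt L x) * rho x)
          + 2 * s ^ 3 * ((a ^ 2 + d ^ 2) * (wt L x * rho x))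
          + 8 * K ^ 4 * s ^ 3 * ((wt L x * G ^ 4) * rho x) := by ring
      _ ≤ _ := by rw [← hw2]; gcongr
  rw [integral_comb i3 i1 i2, e1] at key
  rw [div_le_iff₀ hp]
  refine key.trans ?_
  have g1 : (DD (N i) W L + TG (N i) (T i) W L) / DD (N i) W 0 ≤ |M| := by
    rw [div_le_iff₀ hp]
    exact hm.trans (mul_le_mul_of_nonneg_right (le_abs_self _) hp.le)
  have g2 : ∫ x, (1 + ‖x‖) ^ (2 * (L + 4 * q)) * rho x ∂(N i) ≤ |B| := hb.trans (le_abs_self _)
  rw [← hsq]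
  calc _ ≤ s ^ 2 * (∫ x, 4 * K * (dax (N i) (T i) W u x * dbx (N i) (T i) W u x * wt L x)
        * rho x ∂(N i)) + 2 * s ^ 3 * |M| + 8 * K ^ 4 * s ^ 3 * |B| := by
        gcongr
        rw [hsq]; exact g1
    _ = _ := by ring

/-- the remainder in the expansion of `jac W v` -/
lemma lim_jac (h : BL U m N T H κ W u c K q J M) (hv : JF W v c K q) (hJ : 2 * q + 1 ≤ J)
    (hJ' : q + 2 * q ≤ J) :
    Tendsto (fun i => (∫ x, W x * (jac W v x - W x * thx W v x) * rho x ∂(N i)) / DD (N i) W 0) U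
      (𝓝 0) := by
  have hW := h.td
  have hK := hW.K_nonneg
  set C₁ : ℝ := K + (2 * Module.finrank ℝ E * K ^ 2 + 2 * Module.finrank ℝ E * K ^ 4) with hC₁
  have hC₁0 : 0 ≤ C₁ := by positivity
  have hpt : ∀ x, |W x * (jac W v x - W x * thx W v x)| ≤ C₁ * wt q x * W x ^ 2 := by
    intro x
    have h1 := hv.j0 x
    have h2 := abs_th_le hW hv x
    have hw := (wt_pos q x).le
    rw [abs_mul]
    have h3 : |jac W v x - W x * thx W v x| ≤ C₁ * wt q x * |W x| := by
      refine (abs_sub _ _).trans ?_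
      rw [abs_mul]
      have h4 := mul_le_mul_of_nonneg_left h2 (abs_nonneg (W x))
      calc _ ≤ K * wt q x * |W x| + |W x| * ((2 * Module.finrank ℝ E * K ^ 2
            + 2 * Module.finrank ℝ E * K ^ 4) * wt q x) := add_le_add h1 h4
        _ = _ := by rw [hC₁]; ring
    calc |W x| * |jac W v x - W x * thx W v x| ≤ |W x| * (C₁ * wt q x * |W x|) :=
          mul_le_mul_of_nonneg_left h3 (abs_nonneg _)
      _ = C₁ * wt q x * |W x| ^ 2 := by ring
      _ = _ := by rw [sq_abs]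
  rw [Metric.tendsto_nhds]
  intro ε hε
  obtain ⟨R, hR⟩ := exists_nat_gt (4 * (C₁ * |M|) / ε)
  have hR1 : C₁ / (1 + (R : ℝ) ^ 2) * |M| ≤ ε / 4 := by
    rw [div_mul_eq_mul_div, div_le_iff₀ (by positivity)]
    rw [div_lt_iff₀ hε] at hR
    have hR0 : (0 : ℝ) ≤ R := Nat.cast_nonneg R
    nlinarith [sq_nonneg ((R : ℝ) - 1)]
  obtain ⟨δ, hδ, hj⟩ := hv.j1 R (ε / 4) (by positivity)
  have hf : Continuous (fun x : E => wt q x * W x ^ 2) := (PG.wt q).cont.mul (hW.cont.pow 2)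
  have hlim := h.lim_sq hf (C := K ^ 2) (L := q) hJ' (fun x => by
    have h1 := hW.b0 x
    have h2 := wt_pos q x
    rw [abs_of_nonneg (by positivity), ← sq_abs (W x)]
    calc wt q x * |W x| ^ 2 ≤ wt q x * K ^ 2 := by gcongr
      _ = _ := by ring)
  have hz : ∫ x, u x ^ 2 * (wt q x * W x ^ 2) * rho x ∂κ = 0 := by
    apply integral_eq_zero_of_ae
    filter_upwards [h.zero] with x hx
    simp [hx]
  rw [hz] at hlim
  have hlim2 : Tendsto (fun i => C₁ / δ ^ 2 * ∫ x, nh (N i) W x ^ 2 * (wt q x * W x ^ 2) * rho x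
      ∂(N i)) U (𝓝 0) := by
    have := hlim.const_mul (C₁ / δ ^ 2); simpa using this
  filter_upwards [h.conv.sl, h.pos, h.momL (L := q + 1) (by omega),
    hlim2.eventually_lt_const (show (0 : ℝ) < ε / 4 by positivity)] with i hs hp hm hl
  rw [dist_zero_right, Real.norm_eq_abs, abs_div, abs_of_pos hp, div_lt_iff₀ hp]
  have i1 := hs.int_DD hW 0
  have i2 := hs.int_DD hW (q + 1)
  have i3 : Integrable (fun x => nh (N i) W x ^ 2 * (wt q x * W x ^ 2) * rho x) (N i) :=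
    hs.integrable_PB (((nh_cont hW).pow 2).mul hf).aestronglyMeasurable
      (((nh_pb hW).pow 2).mul ((pb_wt q).mul (hW.pg.b0.pow 2)))
  have key : |∫ x, W x * (jac W v x - W x * thx W v x) * rho x ∂(N i)|
      ≤ ∫ x, (ε / 4 * (W x ^ 2 * wt 0 x * rho x)
        + C₁ / (1 + (R : ℝ) ^ 2) * (W x ^ 2 * wt (q + 1) x * rho x)
        + C₁ / δ ^ 2 * DD (N i) W 0 * (nh (N i) W x ^ 2 * (wt q x * W x ^ 2) * rho x)) ∂(N i) := by
    rw [← Real.norm_eq_abs]
    refine norm_integral_le_of_norm_le (((i1.const_mul _).add (i2.const_mul _)).add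
      (i3.const_mul _)) (Eventually.of_forall fun x => ?_)
    rw [norm_mul, Real.norm_of_nonneg (rho_pos x).le, Real.norm_eq_abs]
    have hr := rho_pos x
    have hwq := wt_pos q x
    have hwq1 := wt_pos (q + 1) x
    have hw0 : wt 0 x = 1 := by simp [wt]
    have hw1 : wt (q + 1) x = wt q x * (1 + ‖x‖ ^ 2) := by
      rw [← wtx_mul]; simp [wt]
    have hn : DD (N i) W 0 * nh (N i) W x ^ 2 = W x ^ 2 := by
      unfold nh
      rw [mul_pow, inv_pow, Real.sq_sqrt hp.le]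
      field_simp
    have e1 : C₁ / δ ^ 2 * DD (N i) W 0 * (nh (N i) W x ^ 2 * (wt q x * W x ^ 2) * rho x)
        = C₁ * wt q x * W x ^ 2 * (W x ^ 2 / δ ^ 2) * rho x := by
      calc _ = C₁ / δ ^ 2 * ((DD (N i) W 0 * nh (N i) W x ^ 2) * (wt q x * W x ^ 2) * rho x) := by
            ring
        _ = _ := by rw [hn]; ring
    have e2 : C₁ / (1 + (R : ℝ) ^ 2) * (W x ^ 2 * wt (q + 1) x * rho x)
        = C₁ * wt q x * W x ^ 2 * ((1 + ‖x‖ ^ 2) / (1 + (R : ℝ) ^ 2)) * rho x := by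
      rw [hw1]; ring
    rw [e1, e2, hw0, mul_one]
    have t0 : 0 ≤ C₁ * wt q x * W x ^ 2 := by positivity
    have t1 : 0 ≤ C₁ * wt q x * W x ^ 2 * (W x ^ 2 / δ ^ 2) * rho x := by positivity
    have t2 : 0 ≤ C₁ * wt q x * W x ^ 2 * ((1 + ‖x‖ ^ 2) / (1 + (R : ℝ) ^ 2)) * rho x := by
      positivity
    have t3 : 0 ≤ ε / 4 * (W x ^ 2 * rho x) := by positivity
    by_cases hx1 : ‖x‖ ≤ R
    · by_cases hx2 : |W x| < δ
      · have h5 := hj x hx1 hx2
        have h6 : |W x * (jac W v x - W x * thx W v x)| ≤ ε / 4 * W x ^ 2 := by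
          rw [abs_mul]
          calc _ ≤ |W x| * (ε / 4 * |W x|) := mul_le_mul_of_nonneg_left h5 (abs_nonneg _)
            _ = ε / 4 * |W x| ^ 2 := by ring
            _ = _ := by rw [sq_abs]
        have h7 := mul_le_mul_of_nonneg_right h6 hr.le
        linarith
      · push Not at hx2
        have h5 : 1 ≤ W x ^ 2 / δ ^ 2 := by
          rw [le_div_iff₀ (by positivity), one_mul, ← sq_abs (W x)]
          gcongr
        have h6 := mul_le_mul_of_nonneg_left h5 t0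
        rw [mul_one] at h6
        have h7 := mul_le_mul_of_nonneg_right ((hpt x).trans h6) hr.le
        linarith
    · push Not at hx1
      have h5 : 1 ≤ (1 + ‖x‖ ^ 2) / (1 + (R : ℝ) ^ 2) := by
        rw [le_div_iff₀ (by positivity), one_mul]
        gcongr
      have h6 := mul_le_mul_of_nonneg_left h5 t0
      rw [mul_one] at h6
      have h7 := mul_le_mul_of_nonneg_right ((hpt x).trans h6) hr.le
      linarith
  rw [integral_comb i1 i2 i3] at key
  refine key.trans_lt ?_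
  change ε / 4 * DD (N i) W 0 + C₁ / (1 + (R : ℝ) ^ 2) * DD (N i) W (q + 1) + _ < _
  have g1 : DD (N i) W (q + 1) ≤ |M| * DD (N i) W 0 := by
    have := TG_nonneg (μ := N i) (T := T i) (W := W) (q + 1)
    have h8 : M * DD (N i) W 0 ≤ |M| * DD (N i) W 0 :=
      mul_le_mul_of_nonneg_right (le_abs_self _) hp.le
    linarith
  have g2 : C₁ / (1 + (R : ℝ) ^ 2) * DD (N i) W (q + 1) ≤ ε / 4 * DD (N i) W 0 := by
    calc C₁ / (1 + (R : ℝ) ^ 2) * DD (N i) W (q + 1)
        ≤ C₁ / (1 + (R : ℝ) ^ 2) * (|M| * DD (N i) W 0) :=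
          mul_le_mul_of_nonneg_left g1 (by positivity)
      _ = (C₁ / (1 + (R : ℝ) ^ 2) * |M|) * DD (N i) W 0 := by ring
      _ ≤ _ := mul_le_mul_of_nonneg_right hR1 hp.le
  have g3 : C₁ / δ ^ 2 * DD (N i) W 0 * ∫ x, nh (N i) W x ^ 2 * (wt q x * W x ^ 2) * rho x ∂(N i)
      ≤ ε / 4 * DD (N i) W 0 := by
    calc _ = (C₁ / δ ^ 2 * ∫ x, nh (N i) W x ^ 2 * (wt q x * W x ^ 2) * rho x ∂(N i))
          * DD (N i) W 0 := by ring
      _ ≤ _ := mul_le_mul_of_nonneg_right hl.le hp.le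
  have g4 : 0 < ε / 4 * DD (N i) W 0 := by positivity
  linarith

/-- the pointwise comparison of the quadratic parts -/
lemma _root_.Vale.Agent.P218.H313.qd_diff_le {μ : Measure E} {T : E → Submodule ℝ E}
    (hW : TubeD W c K) (hv : JF W v c K q) (x : E) :
    |(nh μ W x ^ 2 * (thx W v x + v x * tr ((fderiv ℝ (grad W) x).comp
        ((fderiv ℝ (grad W) x).comp (fderiv ℝ (grad W) x))))
      + v x * ⟪fderiv ℝ (grad W) x (tyx μ T W x), tyx μ T W x⟫
      - 2 * nh μ W x * ⟪fderiv ℝ (grad W) x (grad v x), tyx μ T W x⟫)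
      - (u x ^ 2 * thx W v x + qd2 W v u x)|
      ≤ (2 * Module.finrank ℝ E * K ^ 2 + 3 * Module.finrank ℝ E * K ^ 4 + 5 * K ^ 2)
        * (dax μ T W u x * dbx μ T W u x * wt q x) := by
  have hK := hW.K_nonneg
  have hth := abs_th_le hW hv x
  have hAn := hW.b2 x
  have hv0 := hv.b0 x
  have hv1 := hv.b1 x
  have hw := (wt_pos q x).le
  have t3 := abs_tr_comp3_le (E := E) hAn hK
  unfold qd2 dax dbx
  set A := fderiv ℝ (grad W) x with hA
  set t := tr (A.comp (A.comp A)) with ht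
  set y := tyx μ T W x with hy
  set g := grad u x with hg
  set n := nh μ W x with hn
  set b := u x with hb
  set G := wt q x with hG
  set θ := thx W v x with hθ
  set z := grad v x with hz
  set N : ℝ := (Module.finrank ℝ E : ℝ) with hN
  have hN0 : 0 ≤ N := Nat.cast_nonneg _
  have e : (n ^ 2 * (θ + v x * t) + v x * ⟪A y, y⟫ - 2 * n * ⟪A z, y⟫)
      - (b ^ 2 * θ + (b ^ 2 * (v x * t) + v x * ⟪A g, g⟫ - 2 * b * ⟪A z, g⟫))
      = ((n - b) * (n + b)) * (θ + v x * t) + v x * (⟪A (y - g), y⟫ + ⟪A g, y - g⟫)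
        - 2 * ((n - b) * ⟪A z, y⟫ + b * ⟪A z, y - g⟫) := by
    rw [map_sub, inner_sub_left, inner_sub_right, inner_sub_right]
    ring
  rw [e]
  set f := |n - b| with hf
  set k := ‖y - g‖ with hk
  have q1 : 0 ≤ f := abs_nonneg _
  have q2 : 0 ≤ k := norm_nonneg _
  have q3 : 0 ≤ |n| := abs_nonneg _
  have q4 : 0 ≤ |b| := abs_nonneg _
  have q5 : 0 ≤ ‖y‖ := norm_nonneg _
  have q6 : 0 ≤ ‖g‖ := norm_nonneg _
  have s1 : |((n - b) * (n + b)) * (θ + v x * t)|
      ≤ (f * (|n| + |b|)) * ((2 * N * K ^ 2 + 3 * N * K ^ 4) * G) := by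
    rw [abs_mul, abs_mul]
    refine mul_le_mul (mul_le_mul_of_nonneg_left (abs_add_le _ _) q1) ?_ (abs_nonneg _)
      (by positivity)
    refine (abs_add_le _ _).trans ?_
    rw [abs_mul]
    have h1 : |v x| * |t| ≤ (K * G) * (N * K ^ 3) :=
      mul_le_mul hv0 t3 (abs_nonneg _) (by positivity)
    calc |θ| + |v x| * |t| ≤ (2 * N * K ^ 2 + 2 * N * K ^ 4) * G + (K * G) * (N * K ^ 3) :=
          add_le_add hth h1
      _ = _ := by ring
  have s2 : |v x * (⟪A (y - g), y⟫ + ⟪A g, y - g⟫)| ≤ (K * G) * (K * k * (‖y‖ + ‖g‖)) := by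
    rw [abs_mul]
    refine mul_le_mul hv0 ((abs_add_le _ _).trans ?_) (abs_nonneg _) (by positivity)
    have h1 : |⟪A (y - g), y⟫| ≤ (K * k) * ‖y‖ :=
      (abs_real_inner_le_norm _ _).trans (mul_le_mul_of_nonneg_right
        ((A.le_opNorm _).trans (mul_le_mul_of_nonneg_right hAn q2)) q5)
    have h2 : |⟪A g, y - g⟫| ≤ (K * ‖g‖) * k :=
      (abs_real_inner_le_norm _ _).trans (mul_le_mul_of_nonneg_right
        ((A.le_opNorm _).trans (mul_le_mul_of_nonneg_right hAn q6)) q2)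
    calc _ ≤ (K * k) * ‖y‖ + (K * ‖g‖) * k := add_le_add h1 h2
      _ = _ := by ring
  have s3 : |2 * ((n - b) * ⟪A z, y⟫ + b * ⟪A z, y - g⟫)|
      ≤ 2 * (f * ((K * (K * G)) * ‖y‖) + |b| * ((K * (K * G)) * k)) := by
    rw [abs_mul, abs_two]
    refine mul_le_mul_of_nonneg_left ((abs_add_le _ _).trans ?_) (by norm_num)
    rw [abs_mul, abs_mul]
    have h0 : ‖A z‖ ≤ K * (K * G) :=
      (A.le_opNorm _).trans (mul_le_mul hAn hv1 (norm_nonneg _) hK)
    have h1 : |⟪A z, y⟫| ≤ (K * (K * G)) * ‖y‖ :=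
      (abs_real_inner_le_norm _ _).trans (mul_le_mul_of_nonneg_right h0 q5)
    have h2 : |⟪A z, y - g⟫| ≤ (K * (K * G)) * k :=
      (abs_real_inner_le_norm _ _).trans (mul_le_mul_of_nonneg_right h0 q2)
    gcongr
  refine (abs_sub _ _).trans ((add_le_add ((abs_add_le _ _).trans (add_le_add s1 s2)) s3).trans ?_)
  have r1 : f * (|n| + |b|) ≤ (f + k) * (|n| + |b| + ‖y‖ + ‖g‖) := by
    refine mul_le_mul (by linarith) (by linarith) (by positivity) (by positivity)
  have r2 : k * (‖y‖ + ‖g‖) ≤ (f + k) * (|n| + |b| + ‖y‖ + ‖g‖) := by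
    refine mul_le_mul (by linarith) (by linarith) (by positivity) (by positivity)
  have rr3 : f * ‖y‖ ≤ (f + k) * (|n| + |b| + ‖y‖ + ‖g‖) := by
    refine mul_le_mul (by linarith) (by linarith) (by positivity) (by positivity)
  have r4 : |b| * k ≤ (f + k) * (|n| + |b| + ‖y‖ + ‖g‖) := by
    rw [mul_comm]
    refine mul_le_mul (by linarith) (by linarith) (by positivity) (by positivity)
  set X := (f + k) * (|n| + |b| + ‖y‖ + ‖g‖) with hX
  calc (f * (|n| + |b|)) * ((2 * N * K ^ 2 + 3 * N * K ^ 4) * G)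
        + (K * G) * (K * k * (‖y‖ + ‖g‖))
        + 2 * (f * ((K * (K * G)) * ‖y‖) + |b| * ((K * (K * G)) * k))
      = (f * (|n| + |b|)) * ((2 * N * K ^ 2 + 3 * N * K ^ 4) * G)
        + (K ^ 2 * G) * (k * (‖y‖ + ‖g‖)) + (2 * K ^ 2 * G) * (f * ‖y‖)
        + (2 * K ^ 2 * G) * (|b| * k) := by ring
    _ ≤ X * ((2 * N * K ^ 2 + 3 * N * K ^ 4) * G) + (K ^ 2 * G) * X + (2 * K ^ 2 * G) * X
        + (2 * K ^ 2 * G) * X := by gcongr
    _ = _ := by ring

/-- **the limit of the quadratic part** -/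
lemma lim_m2 (h : BL U m N T H κ W u c K q J M) (hv : JF W v c K q) (hJ : 3 * q + 1 ≤ J) :
    Tendsto (fun i => (∫ x, mm2 W v (T i) x * rho x ∂(N i)) / DD (N i) W 0) U
      (𝓝 (QF κ W v u)) := by
  have hW := h.td
  have hK := hW.K_nonneg
  have h1 := h.lim_jac hv (by omega) (by omega)
  have h2 := h.small (L := q) (by omega) (F := fun i x =>
      (nh (N i) W x ^ 2 * (thx W v x + v x * tr ((fderiv ℝ (grad W) x).comp
        ((fderiv ℝ (grad W) x).comp (fderiv ℝ (grad W) x))))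
      + v x * ⟪fderiv ℝ (grad W) x (tyx (N i) (T i) W x), tyx (N i) (T i) W x⟫
      - 2 * nh (N i) W x * ⟪fderiv ℝ (grad W) x (grad v x), tyx (N i) (T i) W x⟫)
      - (u x ^ 2 * thx W v x + qd2 W v u x))
    (Eventually.of_forall fun i => Eventually.of_forall fun x => qd_diff_le hW hv x)
  have hA := hess_meas hW.smooth
  have hApb : PB (fderiv ℝ (grad W)) := PB.of_bound (C := K) hW.b2
  have ht3pb : PB (fun x => tr ((fderiv ℝ (grad W) x).comp
        ((fderiv ℝ (grad W) x).comp (fderiv ℝ (grad W) x)))) :=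
    PB.of_bound (C := Module.finrank ℝ E * K ^ 3) fun x => by
      rw [Real.norm_eq_abs]; exact abs_tr_comp3_le (hW.b2 x) hK
  have hthpb : PB (thx W v) := PB.of_wt (j := q)
    (C := 2 * Module.finrank ℝ E * K ^ 2 + 2 * Module.finrank ℝ E * K ^ 4) fun x => by
      rw [Real.norm_eq_abs]; exact abs_th_le hW hv x
  have hg : Continuous (fun x => u x ^ 2 * thx W v x + qd2 W v u x) := by
    unfold qd2
    exact ((h.ju.pg.cont.pow 2).mul (continuous_th hW hv)).add
      ((((h.ju.pg.cont.pow 2).mul (hv.pg.cont.mul (continuous_tr3 hW))).add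
        (hv.pg.cont.mul ((hA.clm_apply h.ju.pg_grad.cont).inner h.ju.pg_grad.cont))).sub
        ((continuous_const.mul h.ju.pg.cont).mul
          ((hA.clm_apply hv.pg_grad.cont).inner h.ju.pg_grad.cont)))
  have hgpb : PB (fun x => u x ^ 2 * thx W v x + qd2 W v u x) := by
    unfold qd2
    exact ((h.ju.pg.b0.pow 2).mul hthpb).add
      ((((h.ju.pg.b0.pow 2).mul (hv.pg.b0.mul ht3pb)).add
        (hv.pg.b0.mul ((hApb.clm_apply h.ju.pg_grad.b0).inner' h.ju.pg_grad.b0))).sub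
        (((PB.const 2).mul h.ju.pg.b0).mul
          ((hApb.clm_apply hv.pg_grad.b0).inner' h.ju.pg_grad.b0)))
  have h3 := h.conv.lim_PB hg hgpb
  have h4 := (h1.add h2).add h3
  rw [zero_add, zero_add] at h4
  refine h4.congr' ?_
  filter_upwards [h.conv.sl, h.pos] with i hs hp
  have hs0 : 0 < √(DD (N i) W 0) := Real.sqrt_pos.2 hp
  have hWm := hW.cont.aestronglyMeasurable (μ := N i)
  have hvm := hv.pg.cont.aestronglyMeasurable (μ := N i)
  have hnm := (nh_cont (μ := N i) hW).aestronglyMeasurable (μ := N i)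
  have hgvm := hv.pg_grad.cont.aestronglyMeasurable (μ := N i)
  have hAm := hA.aestronglyMeasurable (μ := N i)
  have htm := ty_meas hs hW
  have hnpb := nh_pb (μ := N i) hW
  have htpb := ty_pb (μ := N i) (T := T i) hW
  have i1 : Integrable (fun x => W x * (jac W v x - W x * thx W v x) * rho x) (N i) := by
    refine hs.integrable_PB (hWm.mul (((continuous_jac hW hv.cd).aestronglyMeasurable).sub
      (hWm.mul (continuous_th hW hv).aestronglyMeasurable))) ?_
    have hjpb : PB (jac W v) :=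
      ((pb_wt q).const_mul K |>.mul hW.pg.b0.norm).mono fun x => by
        rw [Real.norm_eq_abs, Real.norm_of_nonneg (by
          have := wt_pos q x; positivity)]
        exact hv.j0 x
    exact hW.pg.b0.mul (hjpb.sub (hW.pg.b0.mul hthpb))
  have i2 : Integrable (fun x => ((nh (N i) W x ^ 2 * (thx W v x + v x *
        tr ((fderiv ℝ (grad W) x).comp ((fderiv ℝ (grad W) x).comp (fderiv ℝ (grad W) x))))
      + v x * ⟪fderiv ℝ (grad W) x (tyx (N i) (T i) W x), tyx (N i) (T i) W x⟫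
      - 2 * nh (N i) W x * ⟪fderiv ℝ (grad W) x (grad v x), tyx (N i) (T i) W x⟫)
      - (u x ^ 2 * thx W v x + qd2 W v u x)) * rho x) (N i) := by
    refine hs.integrable_PB ?_ ?_
    · exact (((hnm.pow 2).mul ((continuous_th hW hv).aestronglyMeasurable.add
        (hvm.mul (continuous_tr3 hW).aestronglyMeasurable))).add
        (hvm.mul ((aesm_clm_apply hAm htm).inner htm))).sub
        ((hnm.const_mul 2).mul ((aesm_clm_apply hAm hgvm).inner htm)) |>.sub hg.aestronglyMeasurable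
    · exact (((hnpb.pow 2).mul (hthpb.add (hv.pg.b0.mul ht3pb))).add
        (hv.pg.b0.mul ((hApb.clm_apply htpb).inner' htpb))).sub
        (((PB.const 2).mul hnpb).mul ((hApb.clm_apply hv.pg_grad.b0).inner' htpb)) |>.sub hgpb
  have i3 : Integrable (fun x => (u x ^ 2 * thx W v x + qd2 W v u x) * rho x) (N i) :=
    hs.integrable_PB hg.aestronglyMeasurable hgpb
  have i4 : Integrable (fun x => (DD (N i) W 0)⁻¹ * (W x * (jac W v x - W x * thx W v x) * rho x))
      (N i) := i1.const_mul _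
  rw [div_eq_inv_mul, ← integral_const_mul, ← integral_add i4 i2]
  have i5 : Integrable (fun x => (DD (N i) W 0)⁻¹ * (W x * (jac W v x - W x * thx W v x) * rho x)
      + ((nh (N i) W x ^ 2 * (thx W v x + v x *
        tr ((fderiv ℝ (grad W) x).comp ((fderiv ℝ (grad W) x).comp (fderiv ℝ (grad W) x))))
      + v x * ⟪fderiv ℝ (grad W) x (tyx (N i) (T i) W x), tyx (N i) (T i) W x⟫
      - 2 * nh (N i) W x * ⟪fderiv ℝ (grad W) x (grad v x), tyx (N i) (T i) W x⟫)
      - (u x ^ 2 * thx W v x + qd2 W v u x)) * rho x) (N i) := i4.add i2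
  rw [← integral_add i5 i3, div_eq_inv_mul, ← integral_const_mul]
  congr 1
  ext x
  have hDs : (DD (N i) W 0)⁻¹ = (√(DD (N i) W 0))⁻¹ * (√(DD (N i) W 0))⁻¹ := by
    rw [← mul_inv, Real.mul_self_sqrt hp.le]
  unfold mm2 nh tyx
  rw [hDs, map_smul, real_inner_smul_left, real_inner_smul_right, real_inner_smul_right]
  ring

/-- **THE RATE ALONG A BLOW-UP SEQUENCE, TO SECOND ORDER.** -/
theorem rate_lim (h : BL U m N T H κ W u c K q J M) (hv : JF W v c K q) (hJ : 5 * q + 1 ≤ J) :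
    Tendsto (fun i => (∫ x, ⟪grad (fun y => W y * v y) x, vel (T i) (H i) x⟫ * rho x ∂(N i))
      / DD (N i) W 0) U (𝓝 (QF κ W v u)) := by
  have hW := h.td
  obtain ⟨C, hC, hexp⟩ := exists_expand (E := E) h.dim hW.cpos hW.K_nonneg q
  have h1 := h.lim_m2 hv (by omega)
  have h2 := h.lim_r3 (L := q + 1) (by omega)
  have h3 : Tendsto (fun i => (∫ x, ⟪grad (fun y => W y * v y) x, vel (T i) (H i) x⟫ * rho x ∂(N i)
      - ∫ x, mm2 W v (T i) x * rho x ∂(N i)) / DD (N i) W 0) U (𝓝 0) := by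
    rw [Metric.tendsto_nhds]
    intro ε hε
    set η := ε / (4 * (|M| + 1)) with hη
    have hη0 : 0 < η := by positivity
    have l1 : Tendsto (fun i => C * ((∫ x, wt (q + 1) x * rr3 W (T i) x * rho x ∂(N i))
        / DD (N i) W 0) + C / η * (Vale.Agent.P218.H313.dis (N i) (T i) (H i) / DD (N i) W 0)) U
        (𝓝 0) := by
      have := (h2.const_mul C).add (h.dis.const_mul (C / η)); simpa using this
    filter_upwards [h.conv.sl, h.pos, h.momL (L := 2 * q) (by omega),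
      l1.eventually_lt_const (show (0 : ℝ) < ε / 2 by positivity)] with i hs hp hm hl
    rw [dist_zero_right, Real.norm_eq_abs, abs_div, abs_of_pos hp, div_lt_iff₀ hp]
    refine (hexp W v h.tube hv (N i) (T i) (H i) hs η hη0).trans_lt ?_
    have g1 : η * (DD (N i) W (2 * q) + TG (N i) (T i) W (2 * q)) ≤ ε / 4 * DD (N i) W 0 := by
      have g2 : M * DD (N i) W 0 ≤ (|M| + 1) * DD (N i) W 0 :=
        mul_le_mul_of_nonneg_right (by linarith [le_abs_self M]) hp.le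
      calc _ ≤ η * ((|M| + 1) * DD (N i) W 0) := mul_le_mul_of_nonneg_left (hm.trans g2) hη0.le
        _ = _ := by rw [hη]; field_simp
    have g3 := mul_lt_mul_of_pos_right hl hp
    have g4 : (C * ((∫ x, wt (q + 1) x * rr3 W (T i) x * rho x ∂(N i))
        / DD (N i) W 0) + C / η * (Vale.Agent.P218.H313.dis (N i) (T i) (H i) / DD (N i) W 0))
          * DD (N i) W 0
        = C * (∫ x, wt (q + 1) x * rr3 W (T i) x * rho x ∂(N i))
          + C / η * Vale.Agent.P218.H313.dis (N i) (T i) (H i) := by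
      field_simp
    rw [g4] at g3
    have g5 : 0 < ε / 4 * DD (N i) W 0 := by positivity
    linarith
  have h4 := h3.add h1
  rw [zero_add] at h4
  refine h4.congr fun i => ?_
  rw [← add_div]
  congr 1
  ring

end BL

end Vale.Agent.P218.H313
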