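import Vale.Agent.P218.H63.X2

/-! Second order geometry of the tube: the expansion of the mean curvature, the third derivatives of
a function constant along normals. -/

open MeasureTheory Set Filter Topology Metric
open scoped ENNReal NNReal RealInnerProductSpace

namespace Vale.Agent.P218.H313

open Vale.Agent.P214 (IntegralVarifold proj divAlong IsTestField)
open Vale.Agent.P218.H63 (IsTubeShrinker)

set_option linter.unusedSectionVars false
set_option linter.unusedVariables false

variable {E : Type*} [NormedAddCommGroup E] [InnerProductSpace ℝ E] [FiniteDimensional ℝ E]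
variable {m q : ℕ} {c K : ℝ} {W v : E → ℝ}

lemma TubeD.isTube (hW : TubeD W c K) (h3 : ContDiff ℝ 3 W) :
    IsTubeShrinker {x | W x = 0} W c K where
  pos := hW.cpos
  smooth := h3
  mem_iff := fun x => Iff.rfl
  norm_grad := fun x hx => hW.eik x hx
  hess_le := fun x hx => hW.b2 x
  shrinker := fun x hx => by
    have h0 : W x = 0 := hx
    have h1 := hW.ric x (by rw [h0, abs_zero]; exact hW.cpos)
    rw [h0] at h1
    have h2 : tr (fderiv ℝ (grad W) x) - 1 / 2 * ⟪x, grad W x⟫ = 0 := by
      have h4 := abs_nonpos_iff.1 (h1.trans (by simp))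
      simpa using h4
    change tr (fderiv ℝ (grad W) x) = ⟪x, grad W x⟫ / 2
    linarith

/-- the segment to the foot point -/
lemma TubeD.ray (hW : TubeD W c K) (h3 : ContDiff ℝ 3 W) {x : E} (hx : |W x| < c) {s : ℝ}
    (hs : s ∈ Icc (0 : ℝ) 1) :
    grad W (x - ((1 - s) * W x) • grad W x) = grad W x ∧
      W (x - ((1 - s) * W x) • grad W x) = s * W x := by
  have hT := hW.isTube h3
  rcases le_total 0 (W x) with h0 | h0
  · have h1 := hT.ray_pos h0 (by rwa [abs_of_nonneg h0] at hx) ((1 - s) * W x)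
      ⟨by nlinarith [hs.2], by nlinarith [hs.1]⟩
    refine ⟨h1.1, ?_⟩
    have h2 : W (x - ((1 - s) * W x) • gradient W x) = W x - (1 - s) * W x := h1.2
    change W (x - ((1 - s) * W x) • gradient W x) = _
    rw [h2]; ring
  · have h1 := hT.neg.ray_pos (x := x) (by simpa using h0)
      (by rw [abs_of_nonpos h0] at hx; exact hx) ((1 - s) * (-W x))
      ⟨by nlinarith [hs.2], by nlinarith [hs.1]⟩
    have e1 : gradient (fun x => -W x) x = -grad W x := H63.gradient_neg' W x
    have e2 : x - ((1 - s) * (-W x)) • gradient (fun x => -W x) x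
        = x - ((1 - s) * W x) • grad W x := by
      rw [e1, mul_neg, neg_smul, smul_neg, neg_neg]
    rw [e2, e1, H63.gradient_neg'] at h1
    refine ⟨neg_injective h1.1, ?_⟩
    have h2 := h1.2
    linarith

/-- the Riccati equation -/
lemma TubeD.riccati (hW : TubeD W c K) (h3 : ContDiff ℝ 3 W) {x : E} (hx : |W x| < c) :
    fderiv ℝ (fderiv ℝ (grad W)) x (grad W x)
      = -((fderiv ℝ (grad W) x).comp (fderiv ℝ (grad W) x)) :=
  (hW.isTube h3).riccati hx

lemma contDiff_hess {f : E → ℝ} (h3 : ContDiff ℝ 3 f) : ContDiff ℝ 1 (fderiv ℝ (grad f)) :=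
  (contDiff_grad (n := 2) h3).fderiv_right (by norm_num)

/-- **second order expansion of the mean curvature** -/
theorem TubeD.ric2 (hW : TubeD W c K) (h3 : ContDiff ℝ 3 W) {x : E} (hx : |W x| < c) :
    |tr (fderiv ℝ (grad W) x) - 1 / 2 * ⟪x, grad W x⟫
      + (tr ((fderiv ℝ (grad W) x).comp (fderiv ℝ (grad W) x)) + 1 / 2) * W x
      + W x ^ 2 * tr ((fderiv ℝ (grad W) x).comp
        ((fderiv ℝ (grad W) x).comp (fderiv ℝ (grad W) x)))|
      ≤ 3 * Module.finrank ℝ E * K ^ 4 * |W x| ^ 3 := by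
  have hK := hW.K_nonneg
  set e := grad W x with he
  set L := W x with hL
  have he1 : ‖e‖ = 1 := hW.eik x hx
  set y : ℝ → E := fun s => x - ((1 - s) * L) • e with hy
  have hyd : ∀ s, HasDerivAt y (L • e) s := by
    intro s
    have h1 : HasDerivAt (fun s : ℝ => (1 - s) * L) (-1 * L) s :=
      ((hasDerivAt_id s).const_sub 1).mul_const L
    have h2 := (h1.smul_const e).const_sub x
    refine h2.congr_deriv ?_
    rw [neg_one_mul, neg_smul, neg_neg]
  have hray : ∀ s ∈ Icc (0 : ℝ) 1, grad W (y s) = e ∧ W (y s) = s * L := fun s hs =>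
    hW.ray h3 hx hs
  have htube : ∀ s ∈ Icc (0 : ℝ) 1, |W (y s)| < c := by
    intro s hs
    rw [(hray s hs).2, abs_mul, abs_of_nonneg hs.1]
    calc s * |L| ≤ 1 * |L| := mul_le_mul_of_nonneg_right hs.2 (abs_nonneg _)
      _ < c := by rw [one_mul]; exact hx
  set B : E → E →L[ℝ] E := fderiv ℝ (grad W) with hB
  have hB1 : ContDiff ℝ 1 B := contDiff_hess h3
  have hBd : ∀ s ∈ Icc (0 : ℝ) 1,
      HasDerivAt (fun s => B (y s)) (-(L • (B (y s)).comp (B (y s)))) s := by
    intro s hs
    have h1 : HasFDerivAt B (fderiv ℝ B (y s)) (y s) :=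
      (hB1.differentiable (by norm_num) _).hasFDerivAt
    have h2 := h1.comp_hasDerivAt s (hyd s)
    have h4 := hW.riccati h3 (htube s hs)
    rw [(hray s hs).1] at h4
    refine h2.congr_deriv ?_
    rw [map_smul, h4, smul_neg]
  set F : ℝ → ℝ := fun s => tr (B (y s)) - 1 / 2 * ⟪y s, e⟫
    + (tr ((B (y s)).comp (B (y s))) + 1 / 2) * (s * L)
    + (s * L) ^ 2 * tr ((B (y s)).comp ((B (y s)).comp (B (y s)))) with hF
  have hF0 : F 0 = 0 := by
    have h1 := hray 0 ⟨le_rfl, zero_le_one⟩
    have h2 := (hW.isTube h3).shrinker (y 0) (by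
      change W (y 0) = 0
      rw [h1.2, zero_mul])
    have h2' : tr (B (y 0)) = ⟪y 0, grad W (y 0)⟫ / 2 := h2
    rw [h1.1] at h2'
    simp only [hF]
    rw [h2']; ring
  have hF1 : F 1 = tr (B x) - 1 / 2 * ⟪x, e⟫ + (tr ((B x).comp (B x)) + 1 / 2) * L
      + L ^ 2 * tr ((B x).comp ((B x).comp (B x))) := by
    have : y 1 = x := by simp [hy]
    simp only [hF, this, one_mul]
  have hFd : ∀ s ∈ Icc (0 : ℝ) 1, HasDerivWithinAt F
      (-(3 * s ^ 2 * L ^ 3 * tr ((B (y s)).comp ((B (y s)).comp ((B (y s)).comp (B (y s)))))))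
      (Icc 0 1) s := by
    intro s hs
    have hb := hBd s hs
    have h1 : HasDerivAt (fun s => tr (B (y s))) (trL E (-(L • (B (y s)).comp (B (y s))))) s :=
      (trL E).hasFDerivAt.comp_hasDerivAt s hb
    have h2 := hb.clm_comp hb
    have h3 : HasDerivAt (fun s => tr ((B (y s)).comp (B (y s))))
        (trL E ((-(L • (B (y s)).comp (B (y s)))).comp (B (y s))
          + (B (y s)).comp (-(L • (B (y s)).comp (B (y s)))))) s :=
      (trL E).hasFDerivAt.comp_hasDerivAt s h2
    have h4 := hb.clm_comp h2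
    have h5 : HasDerivAt (fun s => tr ((B (y s)).comp ((B (y s)).comp (B (y s)))))
        (trL E ((-(L • (B (y s)).comp (B (y s)))).comp ((B (y s)).comp (B (y s)))
          + (B (y s)).comp ((-(L • (B (y s)).comp (B (y s)))).comp (B (y s))
          + (B (y s)).comp (-(L • (B (y s)).comp (B (y s))))))) s :=
      (trL E).hasFDerivAt.comp_hasDerivAt s h4
    have h6 : HasDerivAt (fun s => ⟪y s, e⟫) L s := by
      have := (hyd s).inner ℝ (hasDerivAt_const s e)
      refine this.congr_deriv ?_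
      rw [inner_zero_right, zero_add, real_inner_smul_left, real_inner_self_eq_norm_sq, he1]
      norm_num
    have h7 : HasDerivAt (fun s : ℝ => s * L) L s := by
      simpa using (hasDerivAt_id s).mul_const L
    have h8 := (((h1.sub (h6.const_mul (1 / 2))).add ((h3.add_const (1 / 2 : ℝ)).mul h7)).add
      ((h7.pow 2).mul h5))
    refine (h8.congr_deriv ?_).hasDerivWithinAt
    have e1 : trL E (-(L • (B (y s)).comp (B (y s)))) = -(L * tr ((B (y s)).comp (B (y s)))) := by
      rw [map_neg, map_smul, smul_eq_mul]; rfl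
    have e2 : ((-(L • (B (y s)).comp (B (y s)))).comp (B (y s))
          + (B (y s)).comp (-(L • (B (y s)).comp (B (y s)))))
        = (-2 * L) • ((B (y s)).comp ((B (y s)).comp (B (y s)))) := by
      ext v
      simp only [_root_.add_apply, _root_.neg_apply, ContinuousLinearMap.comp_apply,
        _root_.smul_apply, map_neg, map_smul]
      module
    have e3 : ((-(L • (B (y s)).comp (B (y s)))).comp ((B (y s)).comp (B (y s)))
          + (B (y s)).comp ((-(L • (B (y s)).comp (B (y s)))).comp (B (y s))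
          + (B (y s)).comp (-(L • (B (y s)).comp (B (y s))))))
        = (-3 * L) • ((B (y s)).comp ((B (y s)).comp ((B (y s)).comp (B (y s))))) := by
      ext v
      simp only [_root_.add_apply, _root_.neg_apply, ContinuousLinearMap.comp_apply,
        _root_.smul_apply, map_neg, map_smul, map_add]
      module
    rw [e1, e3, e2, map_smul, map_smul, smul_eq_mul, smul_eq_mul, trL_apply, trL_apply,
      Pi.pow_apply]
    simp only [Nat.cast_ofNat]
    ring
  have hCB : ∀ s, ‖B (y s)‖ ≤ K := fun s => hW.b2 _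
  have hbound : ∀ s ∈ Icc (0 : ℝ) 1,
      ‖-(3 * s ^ 2 * L ^ 3 * tr ((B (y s)).comp ((B (y s)).comp ((B (y s)).comp (B (y s))))))‖
        ≤ 3 * Module.finrank ℝ E * K ^ 4 * |L| ^ 3 := by
    intro s hs
    have h1 := hCB s
    have h2 : |tr ((B (y s)).comp ((B (y s)).comp ((B (y s)).comp (B (y s)))))|
        ≤ Module.finrank ℝ E * K ^ 4 := by
      refine (abs_tr_le _).trans ?_
      have h3 : ‖(B (y s)).comp ((B (y s)).comp ((B (y s)).comp (B (y s))))‖
          ≤ K * (K * (K * K)) := by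
        refine (ContinuousLinearMap.opNorm_comp_le _ _).trans (mul_le_mul h1 ?_ (norm_nonneg _) hK)
        refine (ContinuousLinearMap.opNorm_comp_le _ _).trans (mul_le_mul h1 ?_ (norm_nonneg _) hK)
        exact (ContinuousLinearMap.opNorm_comp_le _ _).trans (mul_le_mul h1 h1 (norm_nonneg _) hK)
      calc _ ≤ (Module.finrank ℝ E : ℝ) * (K * (K * (K * K))) := by gcongr
        _ = _ := by ring
    rw [norm_neg, Real.norm_eq_abs, abs_mul, abs_mul, abs_mul, abs_pow L 3]
    have h5 : |(3 : ℝ)| = 3 := by norm_num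
    have h6 : |s ^ 2| ≤ 1 := by
      rw [abs_of_nonneg (sq_nonneg s)]
      nlinarith [hs.1, hs.2]
    rw [h5]
    calc 3 * |s ^ 2| * |L| ^ 3 * |tr ((B (y s)).comp ((B (y s)).comp ((B (y s)).comp (B (y s)))))|
        ≤ 3 * 1 * |L| ^ 3 * (Module.finrank ℝ E * K ^ 4) := by gcongr
      _ = _ := by ring
  have hfin := (convex_Icc (0 : ℝ) 1).norm_image_sub_le_of_norm_hasDerivWithin_le hFd hbound
    (show (0 : ℝ) ∈ Icc (0 : ℝ) 1 from ⟨le_rfl, zero_le_one⟩)
    (show (1 : ℝ) ∈ Icc (0 : ℝ) 1 from ⟨zero_le_one, le_rfl⟩)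
  rw [hF0, sub_zero, sub_zero, Real.norm_eq_abs, Real.norm_eq_abs, hF1, abs_one, mul_one] at hfin
  exact hfin

lemma TubeD.monoK (hW : TubeD W c K) {K' : ℝ} (h : K ≤ K') : TubeD W c K' where
  cpos := hW.cpos
  smooth := hW.smooth
  b0 := fun x => (hW.b0 x).trans h
  b1 := fun x => (hW.b1 x).trans h
  b2 := fun x => (hW.b2 x).trans h
  bx := fun x => (hW.bx x).trans h
  eik := hW.eik
  ric := fun x hx => (hW.ric x hx).trans (mul_le_mul_of_nonneg_right h (sq_nonneg _))

lemma TubeD.tube3 (hW : TubeD W c K) (h3 : ContDiff ℝ 3 W) {K' : ℝ} (h : K ≤ K')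
    (h' : 3 * Module.finrank ℝ E * K ^ 4 ≤ K') : Tube3 W c K' where
  toTubeD := hW.monoK h
  ric2 := fun x hx => (hW.ric2 h3 hx).trans (mul_le_mul_of_nonneg_right h' (by positivity))

end Vale.Agent.P218.H313
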