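import Vale.Agent.P218.H63.X5

/-! Second order geometry of the tube: functions constant along the normals. -/

open MeasureTheory Set Filter Topology Metric
open scoped ENNReal NNReal RealInnerProductSpace

namespace Vale.Agent.P218.H313

open Vale.Agent.P214 (IntegralVarifold proj divAlong IsTestField)
open Vale.Agent.P218.H63 (IsTubeShrinker)

set_option linter.unusedSectionVars false
set_option linter.unusedVariables false

variable {E : Type*} [NormedAddCommGroup E] [InnerProductSpace ℝ E] [FiniteDimensional ℝ E]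
variable {m q : ℕ} {c K : ℝ} {W v : E → ℝ}

/-- A Jacobi field with three derivatives of polynomial growth, constant along the normals. -/
structure J3 (W v : E → ℝ) (c : ℝ) : Prop where
  cd : ContDiff ℝ 3 v
  b0 : PB v
  b1 : PB (grad v)
  b2 : PB (fderiv ℝ (grad v))
  b3 : PB (fderiv ℝ (fderiv ℝ (grad v)))
  nrm : ∀ x, |W x| < c → ⟪grad v x, grad W x⟫ = 0
  jac0 : ∀ x, W x = 0 → jac W v x = 0

/-- the Hessian of a function constant along normals, in the direction of the normal -/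
lemma hess_normal (hW : TubeD W c K) (hv : ContDiff ℝ 2 v)
    (hn : ∀ x, |W x| < c → ⟪grad v x, grad W x⟫ = 0) {x : E} (hx : |W x| < c) :
    fderiv ℝ (grad v) x (grad W x) = -(fderiv ℝ (grad W) x (grad v x)) := by
  have h1 : ContDiff ℝ 1 (grad W) := contDiff_grad_one hW.smooth
  have h1v : ContDiff ℝ 1 (grad v) := contDiff_grad_one hv
  have hd : HasFDerivAt (grad W) (fderiv ℝ (grad W) x) x :=
    (h1.differentiable (by norm_num) x).hasFDerivAt
  have hdv : HasFDerivAt (grad v) (fderiv ℝ (grad v) x) x :=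
    (h1v.differentiable (by norm_num) x).hasFDerivAt
  have h2 := hdv.inner ℝ hd
  have h3 : (fun y => ⟪grad v y, grad W y⟫) =ᶠ[𝓝 x] fun _ => (0 : ℝ) := by
    filter_upwards [hW.isOpen.mem_nhds hx] with y hy using hn y hy
  have h4 : HasFDerivAt (fun y => ⟪grad v y, grad W y⟫) (0 : E →L[ℝ] ℝ) x :=
    (hasFDerivAt_const (0 : ℝ) x).congr_of_eventuallyEq h3
  have h5 := h2.unique h4
  apply ext_inner_left ℝ
  intro w
  have h6 := congrArg (fun L : E →L[ℝ] ℝ => L w) h5
  simp at h6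
  rw [inner_neg_right]
  have e1 : ⟪fderiv ℝ (grad v) x w, grad W x⟫ = ⟪w, fderiv ℝ (grad v) x (grad W x)⟫ :=
    hess_symm hv x w (grad W x)
  have e2 : ⟪grad v x, fderiv ℝ (grad W) x w⟫ = ⟪w, fderiv ℝ (grad W) x (grad v x)⟫ := by
    rw [real_inner_comm, hess_symm hW.smooth]
  rw [← e1, ← e2]
  linarith

/-- symmetry of the third derivative -/
lemma third_symm {f : E → ℝ} (h3 : ContDiff ℝ 3 f) (x a b : E) :
    fderiv ℝ (fderiv ℝ (grad f)) x a b = fderiv ℝ (fderiv ℝ (grad f)) x b a := by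
  have hg2 : ContDiff ℝ 2 (grad f) := contDiff_grad (n := 2) h3
  have hs : IsSymmSndFDerivAt ℝ (grad f) x := by
    apply ContDiffAt.isSymmSndFDerivAt hg2.contDiffAt
    simp
  exact hs.eq a b

/-- the derivative of the Hessian in the direction of the normal -/
lemma third_normal (hW : TubeD W c K) (hW3 : ContDiff ℝ 3 W) (hv3 : ContDiff ℝ 3 v)
    (hn : ∀ x, |W x| < c → ⟪grad v x, grad W x⟫ = 0) {x : E} (hx : |W x| < c) :
    fderiv ℝ (fderiv ℝ (grad v)) x (grad W x)
      = -(fderiv ℝ (fderiv ℝ (grad W)) x (grad v x))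
        - (fderiv ℝ (grad W) x).comp (fderiv ℝ (grad v) x)
        - (fderiv ℝ (grad v) x).comp (fderiv ℝ (grad W) x) := by
  have hv2 : ContDiff ℝ 2 v := hv3.of_le (by norm_num)
  have dW : HasFDerivAt (grad W) (fderiv ℝ (grad W) x) x :=
    ((contDiff_grad_one hW.smooth).differentiable (by norm_num) x).hasFDerivAt
  have dv : HasFDerivAt (grad v) (fderiv ℝ (grad v) x) x :=
    ((contDiff_grad_one hv2).differentiable (by norm_num) x).hasFDerivAt
  have dW2 : HasFDerivAt (fderiv ℝ (grad W)) (fderiv ℝ (fderiv ℝ (grad W)) x) x :=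
    ((contDiff_hess hW3).differentiable (by norm_num) x).hasFDerivAt
  have dv2 : HasFDerivAt (fderiv ℝ (grad v)) (fderiv ℝ (fderiv ℝ (grad v)) x) x :=
    ((contDiff_hess hv3).differentiable (by norm_num) x).hasFDerivAt
  have h1 := dv2.clm_apply dW
  have h2 := (dW2.clm_apply dv).neg
  have h3 : (fun y => fderiv ℝ (grad v) y (grad W y))
      =ᶠ[𝓝 x] -(fun y => fderiv ℝ (grad W) y (grad v y)) := by
    filter_upwards [hW.isOpen.mem_nhds hx] with y hy using hess_normal hW hv2 hn hy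
  have h4 := h1.unique (h2.congr_of_eventuallyEq h3)
  ext h
  have h5 := congrArg (fun L : E →L[ℝ] E => L h) h4
  simp at h5
  have e1 := third_symm hv3 x h (grad W x)
  have e2 := third_symm hW3 x h (grad v x)
  rw [e1, e2] at h5
  simp only [_root_.sub_apply, _root_.neg_apply, ContinuousLinearMap.comp_apply]
  rw [← sub_eq_zero] at h5 ⊢
  rw [← h5]
  abel

/-- the derivative of `tr D²W` along `S` -/
lemma tr_third_tangent (hW : TubeD W c K) (hW3 : ContDiff ℝ 3 W) {p : E} (hp : W p = 0) {z : E}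
    (hz : ⟪grad W p, z⟫ = 0) :
    tr (fderiv ℝ (fderiv ℝ (grad W)) p z) = 1 / 2 * ⟪p, fderiv ℝ (grad W) p z⟫ := by
  have hc := hW.cpos
  have hK := hW.K_nonneg
  set k : E → ℝ := fun x => tr (fderiv ℝ (grad W) x) - 1 / 2 * ⟪x, grad W x⟫
    + (tr ((fderiv ℝ (grad W) x).comp (fderiv ℝ (grad W) x)) + 1 / 2) * W x with hk
  have dW0 : HasFDerivAt W (fderiv ℝ W p) p := (hW.diff p).hasFDerivAt
  have dW : HasFDerivAt (grad W) (fderiv ℝ (grad W) p) p :=
    ((contDiff_grad_one hW.smooth).differentiable (by norm_num) p).hasFDerivAt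
  have dW2 : HasFDerivAt (fderiv ℝ (grad W)) (fderiv ℝ (fderiv ℝ (grad W)) p) p :=
    ((contDiff_hess hW3).differentiable (by norm_num) p).hasFDerivAt
  have d1 : HasFDerivAt (fun x => tr (fderiv ℝ (grad W) x))
      ((trL E).comp (fderiv ℝ (fderiv ℝ (grad W)) p)) p := (trL E).hasFDerivAt.comp p dW2
  have d2 := (hasFDerivAt_id (𝕜 := ℝ) p).inner ℝ dW
  have d3 := dW2.clm_comp dW2
  have d4 := (trL E).hasFDerivAt.comp p d3
  have d5 := (d1.sub (d2.const_mul (1 / 2))).add ((d4.add_const (1 / 2 : ℝ)).mul dW0)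
  have hk0 : HasFDerivAt k (0 : E →L[ℝ] ℝ) p := by
    rw [hasFDerivAt_iff_isLittleO]
    have hkp : k p = 0 := by
      have h1 := hW.ric p (by rw [hp, abs_zero]; exact hc)
      rw [hp] at h1
      simp only [hk, hp]
      exact abs_nonpos_iff.1 (h1.trans (by simp))
    rw [Asymptotics.isLittleO_iff]
    intro ε hε
    have hball : ∀ᶠ x in 𝓝 p, K * K ^ 2 * ‖x - p‖ ≤ ε := by
      have h1 : Tendsto (fun x : E => K * K ^ 2 * ‖x - p‖) (𝓝 p) (𝓝 (K * K ^ 2 * ‖p - p‖)) := by
        exact ((continuous_id.sub continuous_const).norm.const_mul _).tendsto p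
      rw [sub_self, norm_zero, mul_zero] at h1
      exact h1.eventually_le_const hε
    have htube : ∀ᶠ x in 𝓝 p, |W x| < c :=
      hW.isOpen.mem_nhds (by change |W p| < c; rw [hp, abs_zero]; exact hc)
    filter_upwards [hball, htube] with x hx1 hx2
    have hlip : |W x| ≤ K * ‖x - p‖ := by
      have := (convex_univ : Convex ℝ (univ : Set E)).norm_image_sub_le_of_norm_fderiv_le
        (f := W) (C := K) (fun y _ => hW.diff y) (fun y _ => by rw [← norm_grad]; exact hW.b1 y)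
        (mem_univ p) (mem_univ x)
      rwa [hp, sub_zero, Real.norm_eq_abs] at this
    have h2 := hW.ric x hx2
    rw [hkp]
    simp only [_root_.zero_apply, sub_zero]
    rw [Real.norm_eq_abs]
    calc |k x| ≤ K * W x ^ 2 := h2
      _ = K * |W x| ^ 2 := by rw [sq_abs]
      _ ≤ K * (K * ‖x - p‖) ^ 2 := by gcongr
      _ = (K * K ^ 2 * ‖x - p‖) * ‖x - p‖ := by ring
      _ ≤ ε * ‖x - p‖ := mul_le_mul_of_nonneg_right hx1 (norm_nonneg _)
  have h6 := HasFDerivAt.unique (f := k) d5 hk0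
  have h7 := congrArg (fun L : E →L[ℝ] ℝ => L z) h6
  simp [hp] at h7
  have e1 : ⟪z, grad W p⟫ = 0 := by rw [real_inner_comm]; exact hz
  have e2 : fderiv ℝ W p z = 0 := by rw [← inner_grad]; exact hz
  rw [e1, e2] at h7
  change tr (fderiv ℝ (fderiv ℝ (grad W)) p z) - _ + _ = 0 at h7
  linarith

/-- `jac W v` in the tube, for `v` constant along the normals -/
noncomputable def Jt (W v : E → ℝ) (x : E) : ℝ :=
  tr (fderiv ℝ (grad v) x) - 1 / 2 * ⟪x, grad v x⟫
    + (tr ((fderiv ℝ (grad W) x).comp (fderiv ℝ (grad W) x)) + 1 / 2) * v x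

lemma hess_nn (hW : TubeD W c K) (hv : ContDiff ℝ 2 v)
    (hn : ∀ x, |W x| < c → ⟪grad v x, grad W x⟫ = 0) {x : E} (hx : |W x| < c) :
    ⟪fderiv ℝ (grad v) x (grad W x), grad W x⟫ = 0 := by
  rw [hess_normal hW hv hn hx, inner_neg_left, hess_symm hW.smooth, hW.hess_grad hx,
    inner_zero_right, neg_zero]

lemma jac_eq_Jt (hW : TubeD W c K) (hv : ContDiff ℝ 2 v)
    (hn : ∀ x, |W x| < c → ⟪grad v x, grad W x⟫ = 0) {x : E} (hx : |W x| < c) :
    jac W v x = Jt W v x := by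
  unfold jac Jt
  rw [hess_nn hW hv hn hx]; ring

/-- the derivative of `Jt` in the direction of the normal -/
lemma Jt_deriv (hW : TubeD W c K) (hW3 : ContDiff ℝ 3 W) (hv3 : ContDiff ℝ 3 v)
    (hn : ∀ x, |W x| < c → ⟪grad v x, grad W x⟫ = 0) {p : E} (hp : W p = 0) :
    fderiv ℝ (Jt W v) p (grad W p) = thx W v p := by
  have hc := hW.cpos
  have hpc : |W p| < c := by rw [hp, abs_zero]; exact hc
  have hv2 : ContDiff ℝ 2 v := hv3.of_le (by norm_num)
  have dv0 : HasFDerivAt v (fderiv ℝ v p) p := (hv3.differentiable (by norm_num) p).hasFDerivAt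
  have dv : HasFDerivAt (grad v) (fderiv ℝ (grad v) p) p :=
    ((contDiff_grad_one hv2).differentiable (by norm_num) p).hasFDerivAt
  have dv2 : HasFDerivAt (fderiv ℝ (grad v)) (fderiv ℝ (fderiv ℝ (grad v)) p) p :=
    ((contDiff_hess hv3).differentiable (by norm_num) p).hasFDerivAt
  have dW2 : HasFDerivAt (fderiv ℝ (grad W)) (fderiv ℝ (fderiv ℝ (grad W)) p) p :=
    ((contDiff_hess hW3).differentiable (by norm_num) p).hasFDerivAt
  have d1 : HasFDerivAt (fun x => tr (fderiv ℝ (grad v) x))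
      ((trL E).comp (fderiv ℝ (fderiv ℝ (grad v)) p)) p := (trL E).hasFDerivAt.comp p dv2
  have d2 := (hasFDerivAt_id (𝕜 := ℝ) p).inner ℝ dv
  have d3 := dW2.clm_comp dW2
  have d4 := (trL E).hasFDerivAt.comp p d3
  have d5 := (d1.sub (d2.const_mul (1 / 2))).add ((d4.add_const (1 / 2 : ℝ)).mul dv0)
  have h6 : HasFDerivAt (Jt W v) _ p := d5
  rw [h6.fderiv]
  have r1 := third_normal hW hW3 hv3 hn hpc
  have r2 := hW.riccati hW3 hpc
  have rr3 := tr_third_tangent hW hW3 hp (z := grad v p) (by rw [real_inner_comm]; exact hn p hpc)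
  have r4 := hess_normal hW hv2 hn hpc
  have r5 : fderiv ℝ v p (grad W p) = 0 := by rw [← inner_grad]; exact hn p hpc
  have r6 : ⟪grad W p, grad v p⟫ = 0 := by rw [real_inner_comm]; exact hn p hpc
  simp
  rw [r1, r2, r4, r5, r6]
  simp only [map_sub, map_neg, inner_neg_right, ContinuousLinearMap.comp_neg,
    ContinuousLinearMap.neg_comp, ContinuousLinearMap.comp_assoc, trL_apply]
  rw [rr3, tr_comm (fderiv ℝ (grad v) p) (fderiv ℝ (grad W) p)]
  unfold thx
  ring

lemma PG.hess_comp {A B : E → E →L[ℝ] E} (hA : PG A) (hB : PG B) :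
    PG (fun x => (A x).comp (B x)) :=
  PG.bilin (ContinuousLinearMap.compL ℝ E E E) hA hB

lemma PG.tr {A : E → E →L[ℝ] E} (hA : PG A) : PG (fun x => tr (A x)) := PG.clm (trL E) hA

lemma TubeD.pg_hess (hW : TubeD W c K) (hW3 : ContDiff ℝ 3 W)
    (hWb : PB (fderiv ℝ (fderiv ℝ (grad W)))) : PG (fderiv ℝ (grad W)) where
  cd := contDiff_hess hW3
  b0 := PB.of_bound (C := K) hW.b2
  b1 := hWb

namespace J3

lemma cd2 (hv : J3 W v c) : ContDiff ℝ 2 v := hv.cd.of_le (by norm_num)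

lemma pg (hv : J3 W v c) : PG v where
  cd := hv.cd.of_le (by norm_num)
  b0 := hv.b0
  b1 := hv.b1.mono fun x => by rw [norm_grad]

lemma pg_grad (hv : J3 W v c) : PG (grad v) where
  cd := contDiff_grad_one hv.cd2
  b0 := hv.b1
  b1 := hv.b2

lemma pg_hess (hv : J3 W v c) : PG (fderiv ℝ (grad v)) where
  cd := contDiff_hess hv.cd
  b0 := hv.b2
  b1 := hv.b3

lemma pg_Jt (hv : J3 W v c) (hW : TubeD W c K) (hW3 : ContDiff ℝ 3 W)
    (hWb : PB (fderiv ℝ (fderiv ℝ (grad W)))) : PG (Jt W v) := by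
  have h1 := hW.pg_hess hW3 hWb
  exact (hv.pg_hess.tr.sub (PG.const_mul (1 / 2) (PG.id'.inner' hv.pg_grad))).add
    (((h1.hess_comp h1).tr.add (PG.const (1 / 2))).mul hv.pg)

end J3

/-- polynomial growth in terms of the weights -/
lemma PB.exists_wt {F : Type*} [NormedAddCommGroup F] {f : E → F} (hf : PB f) :
    ∃ (C : ℝ) (j : ℕ), 0 ≤ C ∧ ∀ x, ‖f x‖ ≤ C * wt j x := by
  obtain ⟨C, p, hC, h⟩ := hf
  refine ⟨C * 2 ^ p, p, by positivity, fun x => (h x).trans ?_⟩
  have h1 : 1 + ‖x‖ ≤ 2 * (1 + ‖x‖ ^ 2) := by nlinarith [sq_nonneg (‖x‖ - 1 / 2), norm_nonneg x]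
  calc C * (1 + ‖x‖) ^ p ≤ C * (2 * (1 + ‖x‖ ^ 2)) ^ p := by gcongr
    _ = C * 2 ^ p * wt p x := by unfold wt; rw [mul_pow]; ring

section ray

variable (hW : TubeD W c K) (hW3 : ContDiff ℝ 3 W) (hv : J3 W v c)
include hW hW3 hv

/-- comparison of `Jt` with a linear function along the segment to the foot point -/
lemma Jt_ray (hWb : PB (fderiv ℝ (fderiv ℝ (grad W)))) {x : E} (hx : |W x| < c) {b C : ℝ}
    (hb : ∀ s ∈ Icc (0 : ℝ) 1,
      |fderiv ℝ (Jt W v) (x - ((1 - s) * W x) • grad W x) (grad W (x - ((1 - s) * W x) • grad W x))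
        - b| ≤ C) : |Jt W v x - W x * b| ≤ C * |W x| := by
  set e := grad W x with he
  set L := W x with hL
  set y : ℝ → E := fun s => x - ((1 - s) * L) • e with hy
  have hyd : ∀ s, HasDerivAt y (L • e) s := by
    intro s
    have h1 : HasDerivAt (fun s : ℝ => (1 - s) * L) (-1 * L) s :=
      ((hasDerivAt_id s).const_sub 1).mul_const L
    have h2 := (h1.smul_const e).const_sub x
    refine h2.congr_deriv ?_
    rw [neg_one_mul, neg_smul, neg_neg]
  have hray : ∀ s ∈ Icc (0 : ℝ) 1, grad W (y s) = e ∧ W (y s) = s * L := fun s hs =>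
    hW.ray hW3 hx hs
  have hJd := (hv.pg_Jt hW hW3 hWb).diff
  set F : ℝ → ℝ := fun s => Jt W v (y s) - s * (L * b) with hF
  have hFd : ∀ s ∈ Icc (0 : ℝ) 1,
      HasDerivWithinAt F (L * (fderiv ℝ (Jt W v) (y s) (grad W (y s)) - b)) (Icc 0 1) s := by
    intro s hs
    have h1 := (hJd (y s)).hasFDerivAt.comp_hasDerivAt s (hyd s)
    have h2 : HasDerivAt (fun s : ℝ => s * (L * b)) (L * b) s := by
      simpa using (hasDerivAt_id s).mul_const (L * b)
    refine ((h1.sub h2).congr_deriv ?_).hasDerivWithinAt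
    rw [map_smul, (hray s hs).1, smul_eq_mul]; ring
  have hbound : ∀ s ∈ Icc (0 : ℝ) 1,
      ‖L * (fderiv ℝ (Jt W v) (y s) (grad W (y s)) - b)‖ ≤ C * |L| := by
    intro s hs
    rw [Real.norm_eq_abs, abs_mul, mul_comm]
    exact mul_le_mul_of_nonneg_right (hb s hs) (abs_nonneg _)
  have hfin := (convex_Icc (0 : ℝ) 1).norm_image_sub_le_of_norm_hasDerivWithin_le hFd hbound
    (show (0 : ℝ) ∈ Icc (0 : ℝ) 1 from ⟨le_rfl, zero_le_one⟩)
    (show (1 : ℝ) ∈ Icc (0 : ℝ) 1 from ⟨zero_le_one, le_rfl⟩)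
  have hF0 : F 0 = 0 := by
    have h1 := (hray 0 ⟨le_rfl, zero_le_one⟩).2
    rw [zero_mul] at h1
    have h2 : |W (y 0)| < c := by rw [h1, abs_zero]; exact hW.cpos
    simp only [hF, zero_mul, sub_zero]
    rw [← jac_eq_Jt hW hv.cd2 hv.nrm h2]
    exact hv.jac0 _ h1
  have hF1 : F 1 = Jt W v x - L * b := by simp [hF, hy]
  rw [hF0, hF1, sub_zero, sub_zero, Real.norm_eq_abs, Real.norm_eq_abs, abs_one, mul_one] at hfin
  exact hfin

lemma norm_ray_sub_le {x : E} (hx : |W x| < c) {s : ℝ} (hs : s ∈ Icc (0 : ℝ) 1) :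
    ‖(x - ((1 - s) * W x) • grad W x) - x‖ ≤ |W x| := by
  have h1 : ‖grad W x‖ = 1 := hW.eik x hx
  rw [sub_sub_cancel_left, norm_neg, norm_smul, h1, mul_one, Real.norm_eq_abs, abs_mul]
  have h2 : |1 - s| ≤ 1 := by rw [abs_le]; constructor <;> linarith [hs.1, hs.2]
  calc |1 - s| * |W x| ≤ 1 * |W x| := mul_le_mul_of_nonneg_right h2 (abs_nonneg _)
    _ = |W x| := one_mul _

/-- **functions constant along normals, Jacobi on `S`: the expansion of `jac W v`** -/
theorem J3.exists_JF (hWb : PB (fderiv ℝ (fderiv ℝ (grad W)))) :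
    ∃ (K' : ℝ) (q' : ℕ), ∀ K'' q'', K' ≤ K'' → q' ≤ q'' → JF W v c K'' q'' := by
  have hc := hW.cpos
  have hK := hW.K_nonneg
  have hpg := hv.pg_Jt hW hW3 hWb
  obtain ⟨C₀, j₀, hC₀, h0⟩ := hv.b0.exists_wt
  obtain ⟨C₁, j₁, hC₁, h1⟩ := hv.b1.exists_wt
  obtain ⟨C₂, j₂, hC₂, h2⟩ := hv.b2.exists_wt
  -- polynomial growth of `jac W v`
  have hApb : PB (fderiv ℝ (grad W)) := PB.of_bound (C := K) hW.b2
  have hgpb : PB (grad W) := PB.of_bound (C := K) hW.b1
  have hjpb : PB (jac W v) := by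
    have e1 : jac W v = fun x => Jt W v x - ⟪fderiv ℝ (grad v) x (grad W x), grad W x⟫ := by
      ext x; unfold jac Jt; ring
    rw [e1]
    exact hpg.b0.sub ((hv.b2.clm_apply hgpb).inner' hgpb)
  obtain ⟨C₃, j₃, hC₃, h3⟩ := hjpb.exists_wt
  -- polynomial growth of the derivative
  obtain ⟨C₄, p₄, hC₄, h4⟩ := hpg.b1
  obtain ⟨C₅, j₅, hC₅, h5⟩ := (PB.of_le (f := fun x : E => (1 + ‖x‖) ^ p₄) (C := 1) (p := p₄)
    (fun x => by rw [Real.norm_of_nonneg (by positivity), one_mul])).exists_wt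
  set B := C₄ * (1 + c) ^ p₄ * C₅ * K with hB
  have hB0 : 0 ≤ B := by positivity
  refine ⟨C₀ + C₁ + C₂ + C₃ / c + B, j₀ + j₁ + j₂ + j₃ + j₅, fun K'' q'' hK'' hq'' => ?_⟩
  have hC3c : 0 ≤ C₃ / c := by positivity
  have mono : ∀ {C : ℝ} {j : ℕ} {x : E}, C ≤ K'' → 0 ≤ C → j ≤ q'' → C * wt j x ≤ K'' * wt q'' x :=
    fun {C j x} hC hC0 hj => mul_le_mul hC (wtx_mono hj x) (wt_pos j x).le (hC0.trans hC)
  have near : ∀ x, |W x| < c → ∀ s ∈ Icc (0 : ℝ) 1,
      |fderiv ℝ (Jt W v) (x - ((1 - s) * W x) • grad W x)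
        (grad W (x - ((1 - s) * W x) • grad W x))| ≤ B * wt j₅ x := by
    intro x hx s hs
    have e1 := norm_ray_sub_le hW hW3 hv hx hs
    set y := x - ((1 - s) * W x) • grad W x with hy
    have e2 : ‖y‖ ≤ ‖x‖ + c := by
      have : ‖y‖ ≤ ‖y - x‖ + ‖x‖ := by
        have := norm_add_le (y - x) x
        rwa [sub_add_cancel] at this
      linarith
    have e3 : (1 + ‖y‖) ^ p₄ ≤ (1 + c) ^ p₄ * (1 + ‖x‖) ^ p₄ := by
      rw [← mul_pow]
      have : 1 + ‖y‖ ≤ (1 + c) * (1 + ‖x‖) := by nlinarith [norm_nonneg x, hc]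
      gcongr
    have e4 := h5 x
    rw [Real.norm_of_nonneg (by positivity)] at e4
    calc |fderiv ℝ (Jt W v) y (grad W y)| ≤ ‖fderiv ℝ (Jt W v) y‖ * ‖grad W y‖ :=
          (fderiv ℝ (Jt W v) y).le_opNorm _
      _ ≤ (C₄ * (1 + ‖y‖) ^ p₄) * K :=
          mul_le_mul (h4 y) (hW.b1 y) (norm_nonneg _) (by positivity)
      _ ≤ (C₄ * ((1 + c) ^ p₄ * (C₅ * wt j₅ x))) * K := by
          have := e3.trans (mul_le_mul_of_nonneg_left e4 (by positivity))
          gcongr
      _ = B * wt j₅ x := by rw [hB]; ring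
  refine ⟨hv.cd2, fun x => ?_, fun x => (h1 x).trans (mono (by linarith) hC₁ (by omega)),
    fun x => (h2 x).trans (mono (by linarith) hC₂ (by omega)), hv.nrm, fun x => ?_, ?_⟩
  · have := h0 x
    rw [Real.norm_eq_abs] at this
    exact this.trans (mono (by linarith) hC₀ (by omega))
  · by_cases hx : |W x| < c
    · rw [jac_eq_Jt hW hv.cd2 hv.nrm hx]
      have e1 := Jt_ray hW hW3 hv hWb hx (b := 0) (C := B * wt j₅ x) (by
        intro s hs; rw [sub_zero]; exact near x hx s hs)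
      rw [mul_zero, sub_zero] at e1
      exact e1.trans (mul_le_mul_of_nonneg_right (mono (by linarith) hB0 (by omega))
        (abs_nonneg _))
    · push Not at hx
      have e1 := h3 x
      rw [Real.norm_eq_abs] at e1
      have e2 : C₃ * wt j₃ x ≤ (C₃ / c) * wt j₃ x * |W x| := by
        have : C₃ * wt j₃ x = (C₃ / c) * wt j₃ x * c := by field_simp
        rw [this]
        have := wt_pos j₃ x
        gcongr
      exact e1.trans (e2.trans (mul_le_mul_of_nonneg_right (mono (by linarith) hC3c (by omega))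
        (abs_nonneg _)))
  · intro R ε hε
    -- uniform continuity
    have hGc : Continuous (fun x => fderiv ℝ (Jt W v) x (grad W x)) :=
      (hpg.cd.continuous_fderiv (by norm_num)).clm_apply hW.pg_grad.cont
    have hθc : Continuous (thx W v) := by
      unfold thx
      have i1 := (contDiff_grad_one hW.smooth).continuous_fderiv (by norm_num)
      have i2 := (contDiff_grad_one hv.cd2).continuous_fderiv (by norm_num)
      exact (continuous_const.mul ((trL E).continuous.comp (i1.clm_comp i2))).sub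
        ((continuous_const.mul hv.pg.cont).mul
          ((trL E).continuous.comp (i1.clm_comp (i1.clm_comp i1))))
    have hcpt : IsCompact (closedBall (0 : E) (R + c)) := by
      have : ProperSpace E := FiniteDimensional.proper_real E
      exact isCompact_closedBall _ _
    have u1 := hcpt.uniformContinuousOn_of_continuous hGc.continuousOn
    have u2 := hcpt.uniformContinuousOn_of_continuous hθc.continuousOn
    rw [Metric.uniformContinuousOn_iff] at u1 u2
    obtain ⟨δ₁, hδ₁, g1⟩ := u1 (ε / 2) (by positivity)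
    obtain ⟨δ₂, hδ₂, g2⟩ := u2 (ε / 2) (by positivity)
    refine ⟨min c (min δ₁ δ₂), by positivity, fun x hxR hx => ?_⟩
    have hxc : |W x| < c := hx.trans_le (min_le_left _ _)
    have hx1 : |W x| < δ₁ := hx.trans_le ((min_le_right _ _).trans (min_le_left _ _))
    have hx2 : |W x| < δ₂ := hx.trans_le ((min_le_right _ _).trans (min_le_right _ _))
    rw [jac_eq_Jt hW hv.cd2 hv.nrm hxc]
    refine Jt_ray hW hW3 hv hWb hxc fun s hs => ?_
    have a1 := norm_ray_sub_le hW hW3 hv hxc hs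
    have a0 := norm_ray_sub_le hW hW3 hv hxc (s := 0) ⟨le_rfl, zero_le_one⟩
    have r0 := hW.ray hW3 hxc (s := 0) ⟨le_rfl, zero_le_one⟩
    set y := x - ((1 - s) * W x) • grad W x with hy
    set y0 := x - ((1 - 0) * W x) • grad W x with hy0
    have a2 : ‖y - y0‖ ≤ |W x| := by
      have e1 : y - y0 = (s * W x) • grad W x := by
        rw [hy, hy0, sub_sub_sub_cancel_left, ← sub_smul]
        congr 1; ring
      rw [e1, norm_smul, hW.eik x hxc, mul_one, Real.norm_eq_abs, abs_mul, abs_of_nonneg hs.1]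
      calc s * |W x| ≤ 1 * |W x| := mul_le_mul_of_nonneg_right hs.2 (abs_nonneg _)
        _ = |W x| := one_mul _
    have mem : ∀ z : E, ‖z - x‖ ≤ |W x| → z ∈ closedBall (0 : E) (R + c) := by
      intro z hz
      rw [mem_closedBall, dist_zero_right]
      have : ‖z‖ ≤ ‖z - x‖ + ‖x‖ := by
        have := norm_add_le (z - x) x
        rwa [sub_add_cancel] at this
      linarith
    have k1 := g1 y (mem y a1) y0 (mem y0 a0) (by rw [dist_eq_norm]; linarith)
    have k2 := g2 y0 (mem y0 a0) x (mem x (by rw [sub_self, norm_zero]; exact abs_nonneg _))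
      (by rw [dist_eq_norm]; linarith)
    have hWy0 : W y0 = 0 := by rw [r0.2, zero_mul]
    have k3 : fderiv ℝ (Jt W v) y0 (grad W y0) = thx W v y0 :=
      Jt_deriv hW hW3 hv.cd hv.nrm hWy0
    rw [Real.dist_eq] at k1 k2
    rw [k3] at k1
    have k4 := abs_add_le (fderiv ℝ (Jt W v) y (grad W y) - thx W v y0) (thx W v y0 - thx W v x)
    rw [sub_add_sub_cancel] at k4
    linarith

end ray

end Vale.Agent.P218.H313
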