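import Vale.Agent.P218.H63.X6
import Vale.Agent.P218.H63.X4
import Vale.Agent.P218.H588.Q

/-! Second order expansion at a shrinker: integration by parts, the symmetric cubic form. -/

open MeasureTheory Set Filter Topology Metric
open scoped ENNReal NNReal RealInnerProductSpace

namespace Vale.Agent.P218.H313

open Vale.Agent.P214 (IntegralVarifold proj divAlong IsTestField)
open Vale.Agent.P218.H588 (Phi lc SOD Tri)

set_option linter.unusedSectionVars false
set_option linter.unusedVariables false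

variable {E : Type*} [NormedAddCommGroup E] [InnerProductSpace ℝ E] [FiniteDimensional ℝ E]
variable {m q : ℕ} {c K : ℝ} {W u v : E → ℝ}

lemma PG.apply' {A : E → E →L[ℝ] E} {z : E → E} (hA : PG A) (hz : PG z) :
    PG (fun x => A x (z x)) :=
  PG.bilin (ContinuousLinearMap.id ℝ (E →L[ℝ] E)) hA hz

/-- the field `u² A ∇v` -/
noncomputable def XXu (W v u : E → ℝ) (x : E) : E := u x ^ 2 • fderiv ℝ (grad W) x (grad v x)

lemma pg_XX (hW : TubeD W c K) (hW3 : ContDiff ℝ 3 W) (hWb : PB (fderiv ℝ (fderiv ℝ (grad W))))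
    (hu : J3 W u c) (hv : J3 W v c) : PG (XXu W v u) :=
  (hu.pg.pow 2).smul ((hW.pg_hess hW3 hWb).apply' hv.pg_grad)

/-- the tangential divergence of `u² A ∇v` on `S` -/
lemma div_XX (hW : TubeD W c K) (hW3 : ContDiff ℝ 3 W) (hu : J3 W u c) (hv : J3 W v c) {p : E}
    (hp : W p = 0) :
    tr (fderiv ℝ (XXu W v u) p) - ⟪fderiv ℝ (XXu W v u) p (grad W p), grad W p⟫
        - 1 / 2 * ⟪p, XXu W v u p⟫
      = u p ^ 2 * tr ((fderiv ℝ (grad W) p).comp (fderiv ℝ (grad v) p))
        + 2 * u p * ⟪fderiv ℝ (grad W) p (grad v p), grad u p⟫ := by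
  have hc := hW.cpos
  have hpc : |W p| < c := by rw [hp, abs_zero]; exact hc
  have du : HasFDerivAt u (fderiv ℝ u p) p := (hu.pg.diff p).hasFDerivAt
  have dv : HasFDerivAt (grad v) (fderiv ℝ (grad v) p) p := (hv.pg_grad.diff p).hasFDerivAt
  have dW2 : HasFDerivAt (fderiv ℝ (grad W)) (fderiv ℝ (fderiv ℝ (grad W)) p) p :=
    ((contDiff_hess hW3).differentiable (by norm_num) p).hasFDerivAt
  set A := fderiv ℝ (grad W) p with hA
  set B := fderiv ℝ (grad v) p with hB
  set z := grad v p with hz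
  set g := grad W p with hg
  set D := fderiv ℝ (fderiv ℝ (grad W)) p with hD
  have d1 := (du.pow 2).smul (dW2.clm_apply dv)
  have d2 : HasFDerivAt (XXu W v u)
      (u p ^ 2 • (D z + A.comp B) + ((2 * u p) • fderiv ℝ u p).smulRight (A z)) p := by
    refine d1.congr_fderiv ?_
    ext h
    have e1 : D h z = D z h := third_symm hW3 p h z
    simp only [_root_.add_apply, _root_.smul_apply, ContinuousLinearMap.comp_apply,
      ContinuousLinearMap.smulRight_apply, ContinuousLinearMap.flip_apply, smul_eq_mul,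
      nsmul_eq_mul, Nat.cast_ofNat]
    rw [← hA, ← hz, e1]
    simp only [Nat.reduceSub, pow_one]
    rw [add_comm (A (B h)) (D z h)]
  rw [d2.fderiv]
  have rr3 : tr (D z) = 1 / 2 * ⟪p, A z⟫ :=
    tr_third_tangent hW hW3 hp (z := z) (by rw [real_inner_comm]; exact hv.nrm p hpc)
  have r4 : D z g = -(A (A z)) := by
    have e1 : D z g = D g z := third_symm hW3 p z g
    have e2 : D g = -(A.comp A) := hW.riccati hW3 hpc
    rw [e1, e2]; rfl
  have hAs : ∀ a b, ⟪A a, b⟫ = ⟪a, A b⟫ := fun a b => hess_symm hW.smooth p a b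
  have hAg : A g = 0 := hW.hess_grad hpc
  have r5 : fderiv ℝ u p g = 0 := by rw [← inner_grad]; exact hu.nrm p hpc
  have t1 : tr (((2 * u p) • fderiv ℝ u p).smulRight (A z)) = 2 * u p * ⟪grad u p, A z⟫ := by
    have h2 := tr_comp_smulRight (ContinuousLinearMap.id ℝ E) ((2 * u p) • fderiv ℝ u p) (A z)
    rw [ContinuousLinearMap.id_comp] at h2
    rw [h2]
    simp only [ContinuousLinearMap.coe_id', id_eq, _root_.smul_apply, smul_eq_mul]
    rw [inner_grad]
  rw [tr_add, tr_smul, tr_add, t1, rr3]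
  have t2 : ⟪(u p ^ 2 • (D z + A.comp B) + ((2 * u p) • fderiv ℝ u p).smulRight (A z)) g, g⟫
      = 0 := by
    simp only [_root_.add_apply, _root_.smul_apply, ContinuousLinearMap.comp_apply,
      ContinuousLinearMap.smulRight_apply]
    rw [r4, r5, smul_zero, zero_smul, add_zero, real_inner_smul_left, inner_add_left,
      inner_neg_left, hAs, hAs (B g) g, hAg, inner_zero_right, inner_zero_right]
    ring
  rw [t2]
  unfold XXu
  rw [← hA, ← hz, real_inner_smul_right, real_inner_comm (grad u p) (A z)]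
  ring

variable [MeasurableSpace E] [BorelSpace E]
variable {ι : Type*} {U : Ultrafilter ι} {N : ι → Measure E} {T : ι → E → Submodule ℝ E}
  {H : ι → E → E} {κ : Measure E}

/-- **integration by parts**: the two forms of the cubic form agree -/
theorem QQ_eq_Phi (hW : TubeD W c K) (hW3 : ContDiff ℝ 3 W)
    (hWb : PB (fderiv ℝ (fderiv ℝ (grad W)))) (hW0 : ∀ᵐ x ∂κ, W x = 0)
    (hint : ∀ f : E → ℝ, Continuous f → PB f → Integrable (fun x => f x * rho x) κ)
    (hst : ∀ X : E → E, ContDiff ℝ 1 X → PB X → PB (fderiv ℝ X) →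
      ∫ x, (tr (fderiv ℝ X x) - ⟪fderiv ℝ X x (grad W x), grad W x⟫ - 1 / 2 * ⟪x, X x⟫) * rho x ∂κ
        = 0)
    (hu : J3 W u c) (hv : J3 W v c) : QF κ W v u = Phi κ W u u v := by
  have hpg := pg_XX hW hW3 hWb hu hv
  have h1 := hst (XXu W v u) hpg.cd hpg.b0 hpg.b1
  have hA := hW.pg_hess hW3 hWb
  have ht : PG (fun x => tr ((fderiv ℝ (grad W) x).comp
      ((fderiv ℝ (grad W) x).comp (fderiv ℝ (grad W) x)))) := (hA.hess_comp (hA.hess_comp hA)).tr
  have hB : PG (fun x => tr ((fderiv ℝ (grad W) x).comp (fderiv ℝ (grad v) x))) :=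
    (hA.hess_comp hv.pg_hess).tr
  have hi1 : PG (fun x => ⟪fderiv ℝ (grad W) x (grad v x), grad u x⟫) :=
    (hA.apply' hv.pg_grad).inner' hu.pg_grad
  have hi2 : PG (fun x => ⟪fderiv ℝ (grad W) x (grad u x), grad u x⟫) :=
    (hA.apply' hu.pg_grad).inner' hu.pg_grad
  have hi3 : PG (fun x => ⟪fderiv ℝ (grad W) x (grad u x), grad v x⟫) :=
    (hA.apply' hu.pg_grad).inner' hv.pg_grad
  set f1 : E → ℝ := fun x => u x ^ 2 * tr ((fderiv ℝ (grad W) x).comp (fderiv ℝ (grad v) x))
    + 2 * u x * ⟪fderiv ℝ (grad W) x (grad v x), grad u x⟫ with hf1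
  have pf1 : PG f1 := ((hu.pg.pow 2).mul hB).add ((PG.const_mul 2 hu.pg).mul hi1)
  have e1 : ∫ x, f1 x * rho x ∂κ = 0 := by
    rw [← h1]
    apply integral_congr_ae
    filter_upwards [hW0] with x hx
    rw [div_XX hW hW3 hu hv hx]
  set f2 : E → ℝ := fun x => u x * ⟪fderiv ℝ (grad W) x (grad u x), grad v x⟫
    + u x * ⟪fderiv ℝ (grad W) x (grad v x), grad u x⟫
    + v x * ⟪fderiv ℝ (grad W) x (grad u x), grad u x⟫
    - tr ((fderiv ℝ (grad W) x).comp ((fderiv ℝ (grad W) x).comp (fderiv ℝ (grad W) x)))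
      * (u x * u x * v x) with hf2
  have pf2 : PG f2 := (((hu.pg.mul hi3).add (hu.pg.mul hi1)).add (hv.pg.mul hi2)).sub
    (ht.mul ((hu.pg.mul hu.pg).mul hv.pg))
  have e2 : QF κ W v u = ∫ x, (-2 * (f1 x * rho x) + 1 * (f2 x * rho x)) ∂κ := by
    unfold QF
    congr 1
    ext x
    have hs : ⟪fderiv ℝ (grad W) x (grad v x), grad u x⟫
        = ⟪fderiv ℝ (grad W) x (grad u x), grad v x⟫ := by
      rw [hess_symm hW.smooth, real_inner_comm]
    simp only [hf1, hf2, thx, qd2]
    rw [hs]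
    ring
  rw [e2, integral_comb2 (hint f1 pf1.cont pf1.b0) (hint f2 pf2.cont pf2.b0), e1]
  unfold Phi
  simp only [hf2, mul_zero, zero_add, one_mul]

end Vale.Agent.P218.H313
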