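import Vale.Agent.P218.H63.X7

/-! Linear combinations of Jacobi fields; the cubic form as a trilinear form. -/

open MeasureTheory Set Filter Topology Metric
open scoped ENNReal NNReal RealInnerProductSpace

namespace Vale.Agent.P218.X8

open Vale.Agent.P218.H313
open Vale.Agent.P218.H588 (Phi lc)

set_option linter.unusedSectionVars false
set_option linter.unusedVariables false

variable {E : Type*} [NormedAddCommGroup E] [InnerProductSpace ℝ E] [FiniteDimensional ℝ E]
variable {k q : ℕ} {c K : ℝ} {W : E → ℝ} {ζ : Fin k → E → ℝ}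

section vec

variable {F : Type*} [NormedAddCommGroup F] [NormedSpace ℝ F]

/-- linear combinations of vector valued maps -/
noncomputable def lv (f : Fin k → E → F) (a : EuclideanSpace ℝ (Fin k)) (x : E) : F :=
  ∑ i, a i • f i x

lemma fderiv_lv {f : Fin k → E → F} (hf : ∀ i, Differentiable ℝ (f i))
    (a : EuclideanSpace ℝ (Fin k)) (x : E) :
    fderiv ℝ (lv f a) x = ∑ i, a i • fderiv ℝ (f i) x := by
  have := HasFDerivAt.fun_sum (u := Finset.univ) fun i (_ : i ∈ Finset.univ) =>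
    ((hf i x).hasFDerivAt.const_smul (a i))
  exact this.fderiv

lemma norm_lv_le {f : Fin k → E → F} (a : EuclideanSpace ℝ (Fin k)) {B : ℝ} {x : E}
    (h : ∀ i, ‖f i x‖ ≤ B) : ‖lv f a x‖ ≤ (∑ i, |a i|) * B := by
  unfold lv
  rw [Finset.sum_mul]
  refine (norm_sum_le _ _).trans (Finset.sum_le_sum fun i _ => ?_)
  rw [norm_smul, Real.norm_eq_abs]
  exact mul_le_mul_of_nonneg_left (h i) (abs_nonneg _)

lemma pb_lv {f : Fin k → E → F} (h : ∀ i, PB (f i)) (a : EuclideanSpace ℝ (Fin k)) :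
    PB (lv f a) := by
  classical
  have : ∀ s : Finset (Fin k), PB (fun x => ∑ i ∈ s, a i • f i x) := by
    intro s
    induction s using Finset.induction_on with
    | empty => simpa using PB.const (0 : F)
    | insert b s hb ih =>
      simp_rw [Finset.sum_insert hb]
      exact ((PB.const (a b)).smul (h b)).add ih
  exact this Finset.univ

end vec

lemma lc_eq_lv (ζ : Fin k → E → ℝ) (a : EuclideanSpace ℝ (Fin k)) : lc ζ a = lv ζ a := by
  ext x; simp [lc, lv]

lemma grad_lc (h : ∀ i, ContDiff ℝ 1 (ζ i)) (a : EuclideanSpace ℝ (Fin k)) :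
    grad (lc ζ a) = lv (fun i => grad (ζ i)) a := by
  ext x
  refine grad_unique fun v => ?_
  rw [lc_eq_lv, fderiv_lv (fun i => (h i).differentiable (by norm_num))]
  unfold lv
  rw [sum_inner]
  simp [real_inner_smul_left, inner_grad]

lemma fderiv_grad_lc (h : ∀ i, ContDiff ℝ 2 (ζ i)) (a : EuclideanSpace ℝ (Fin k)) :
    fderiv ℝ (grad (lc ζ a)) = lv (fun i => fderiv ℝ (grad (ζ i))) a := by
  ext1 x
  rw [grad_lc (fun i => (h i).of_le (by norm_num)), fderiv_lv fun i =>
    (contDiff_grad_one (h i)).differentiable (by norm_num)]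
  rfl

lemma fderiv3_lc (h : ∀ i, ContDiff ℝ 3 (ζ i)) (a : EuclideanSpace ℝ (Fin k)) :
    fderiv ℝ (fderiv ℝ (grad (lc ζ a))) = lv (fun i => fderiv ℝ (fderiv ℝ (grad (ζ i)))) a := by
  ext1 x
  rw [fderiv_grad_lc (fun i => (h i).of_le (by norm_num)), fderiv_lv fun i =>
    (contDiff_hess (h i)).differentiable (by norm_num)]
  rfl

lemma contDiff_lc {n : WithTop ℕ∞} (h : ∀ i, ContDiff ℝ n (ζ i)) (a : EuclideanSpace ℝ (Fin k)) :
    ContDiff ℝ n (lc ζ a) :=
  ContDiff.sum fun i _ => contDiff_const.mul (h i)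

lemma jac_lc (h : ∀ i, ContDiff ℝ 2 (ζ i)) (a : EuclideanSpace ℝ (Fin k)) (x : E) :
    jac W (lc ζ a) x = ∑ i, a i * jac W (ζ i) x := by
  unfold jac
  rw [fderiv_grad_lc h, grad_lc (fun i => (h i).of_le (by norm_num)), ← trL_apply]
  unfold lv lc
  rw [map_sum, _root_.sum_apply, sum_inner, inner_sum, Finset.mul_sum, Finset.mul_sum,
    ← Finset.sum_sub_distrib, ← Finset.sum_sub_distrib, ← Finset.sum_add_distrib]
  refine Finset.sum_congr rfl fun i _ => ?_
  rw [map_smul, _root_.smul_apply, real_inner_smul_left, real_inner_smul_right,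
    smul_eq_mul, trL_apply]
  ring

lemma thx_lc (h : ∀ i, ContDiff ℝ 2 (ζ i)) (a : EuclideanSpace ℝ (Fin k)) (x : E) :
    thx W (lc ζ a) x = ∑ i, a i * thx W (ζ i) x := by
  unfold thx
  rw [fderiv_grad_lc h, ← trL_apply, ← trL_apply]
  unfold lv lc
  rw [ContinuousLinearMap.comp_finsetSum, map_sum, Finset.mul_sum, Finset.mul_sum, Finset.sum_mul,
    ← Finset.sum_sub_distrib]
  refine Finset.sum_congr rfl fun i _ => ?_
  rw [ContinuousLinearMap.comp_smul, map_smul, smul_eq_mul, trL_apply, trL_apply]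
  ring

lemma jf_mono {v : E → ℝ} {K' : ℝ} (hv : JF W v c K q) (h : K ≤ K') : JF W v c K' q where
  cd := hv.cd
  b0 := fun x => (hv.b0 x).trans (mul_le_mul_of_nonneg_right h (wt_pos _ _).le)
  b1 := fun x => (hv.b1 x).trans (mul_le_mul_of_nonneg_right h (wt_pos _ _).le)
  b2 := fun x => (hv.b2 x).trans (mul_le_mul_of_nonneg_right h (wt_pos _ _).le)
  nrm := hv.nrm
  j0 := fun x => (hv.j0 x).trans (mul_le_mul_of_nonneg_right
    (mul_le_mul_of_nonneg_right h (wt_pos _ _).le) (abs_nonneg _))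
  j1 := hv.j1

/-- linear combinations of Jacobi fields constant along the normals -/
theorem jf_lc (h : ∀ i, JF W (ζ i) c K q) (a : EuclideanSpace ℝ (Fin k)) :
    JF W (lc ζ a) c ((∑ i, |a i|) * K) q where
  cd := contDiff_lc (fun i => (h i).cd) a
  b0 := fun x => by
    rw [lc_eq_lv, mul_assoc, ← Real.norm_eq_abs]
    exact norm_lv_le (f := ζ) a fun i => by rw [Real.norm_eq_abs]; exact (h i).b0 x
  b1 := fun x => by
    rw [grad_lc (fun i => (h i).cd.of_le (by norm_num)), mul_assoc]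
    exact norm_lv_le a fun i => (h i).b1 x
  b2 := fun x => by
    rw [fderiv_grad_lc (fun i => (h i).cd), mul_assoc]
    exact norm_lv_le a fun i => (h i).b2 x
  nrm := fun x hx => by
    rw [grad_lc (fun i => (h i).cd.of_le (by norm_num))]
    unfold lv
    rw [sum_inner]
    refine Finset.sum_eq_zero fun i _ => ?_
    rw [real_inner_smul_left, (h i).nrm x hx, mul_zero]
  j0 := fun x => by
    rw [jac_lc (fun i => (h i).cd), mul_assoc, mul_assoc, Finset.sum_mul]
    refine (Finset.abs_sum_le_sum_abs _ _).trans (Finset.sum_le_sum fun i _ => ?_)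
    rw [abs_mul]
    have := (h i).j0 x
    calc |a i| * |jac W (ζ i) x| ≤ |a i| * (K * wt q x * |W x|) :=
          mul_le_mul_of_nonneg_left this (abs_nonneg _)
      _ = _ := by ring
  j1 := fun R ε hε => by
    have hA : 0 ≤ ∑ i, |a i| := Finset.sum_nonneg fun i _ => abs_nonneg _
    have hε' : 0 < ε / (∑ i, |a i| + 1) := by positivity
    have h1 : ∀ i, ∃ δ > 0, ∀ x, ‖x‖ ≤ R → |W x| < δ →
        |jac W (ζ i) x - W x * thx W (ζ i) x| ≤ ε / (∑ i, |a i| + 1) * |W x| :=
      fun i => (h i).j1 R _ hε'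
    choose δ hδ h2 using h1
    have h3 : ∀ᶠ d : ℝ in 𝓝[>] (0 : ℝ), 0 < d ∧ ∀ i, d < δ i := by
      refine (eventually_mem_nhdsWithin).and (eventually_all.2 fun i => ?_)
      filter_upwards [Ioo_mem_nhdsGT (hδ i)] with d hd using hd.2
    obtain ⟨d, hd, hdi⟩ := h3.exists
    refine ⟨d, hd, fun x hx hWx => ?_⟩
    rw [jac_lc (fun i => (h i).cd), thx_lc (fun i => (h i).cd), Finset.mul_sum,
      ← Finset.sum_sub_distrib]
    refine (Finset.abs_sum_le_sum_abs _ _).trans ?_
    calc ∑ i, |a i * jac W (ζ i) x - W x * (a i * thx W (ζ i) x)|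
        ≤ ∑ i, |a i| * (ε / (∑ i, |a i| + 1) * |W x|) := by
          refine Finset.sum_le_sum fun i _ => ?_
          have e : a i * jac W (ζ i) x - W x * (a i * thx W (ζ i) x)
              = a i * (jac W (ζ i) x - W x * thx W (ζ i) x) := by ring
          rw [e, abs_mul]
          exact mul_le_mul_of_nonneg_left (h2 i x hx (hWx.trans (hdi i))) (abs_nonneg _)
      _ = (∑ i, |a i|) / (∑ i, |a i| + 1) * (ε * |W x|) := by rw [← Finset.sum_mul]; ring
      _ ≤ 1 * (ε * |W x|) := by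
          refine mul_le_mul_of_nonneg_right ?_ (by positivity)
          rw [div_le_one (by positivity)]; linarith
      _ = ε * |W x| := one_mul _

theorem j3_lc (h : ∀ i, J3 W (ζ i) c) (a : EuclideanSpace ℝ (Fin k)) : J3 W (lc ζ a) c where
  cd := contDiff_lc (fun i => (h i).cd) a
  b0 := by rw [lc_eq_lv]; exact pb_lv (fun i => (h i).b0) a
  b1 := by
    rw [grad_lc (fun i => (h i).cd.of_le (by norm_num))]
    exact pb_lv (fun i => (h i).b1) a
  b2 := by
    rw [fderiv_grad_lc (fun i => (h i).cd.of_le (by norm_num))]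
    exact pb_lv (fun i => (h i).b2) a
  b3 := by
    rw [fderiv3_lc (fun i => (h i).cd)]
    exact pb_lv (fun i => (h i).b3) a
  nrm := fun x hx => by
    rw [grad_lc (fun i => (h i).cd.of_le (by norm_num))]
    unfold lv
    rw [sum_inner]
    refine Finset.sum_eq_zero fun i _ => ?_
    rw [real_inner_smul_left, (h i).nrm x hx, mul_zero]
  jac0 := fun x hx => by
    rw [jac_lc (fun i => (h i).cd2)]
    refine Finset.sum_eq_zero fun i _ => ?_
    rw [(h i).jac0 x hx, mul_zero]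

section phi

variable [MeasurableSpace E] [BorelSpace E] {κ : Measure E}

/-- symmetry of the cubic form -/
lemma phi_swap₁ (hW : ContDiff ℝ 2 W) (u v z : E → ℝ) : Phi κ W u v z = Phi κ W v u z := by
  unfold Phi
  congr 1
  ext x
  have e : ∀ a b : E, ⟪fderiv ℝ (grad W) x a, b⟫ = ⟪fderiv ℝ (grad W) x b, a⟫ := fun a b => by
    rw [hess_symm hW, real_inner_comm]
  rw [e (grad v x) (grad z x), e (grad z x) (grad u x), e (grad u x) (grad v x)]
  ring

lemma phi_swap₂ (hW : ContDiff ℝ 2 W) (u v z : E → ℝ) : Phi κ W u v z = Phi κ W u z v := by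
  unfold Phi
  congr 1
  ext x
  have e : ∀ a b : E, ⟪fderiv ℝ (grad W) x a, b⟫ = ⟪fderiv ℝ (grad W) x b, a⟫ := fun a b => by
    rw [hess_symm hW, real_inner_comm]
  rw [e (grad v x) (grad z x), e (grad z x) (grad u x), e (grad u x) (grad v x)]
  ring

lemma phi_rot (u v z : E → ℝ) : Phi κ W u v z = Phi κ W v z u := by
  unfold Phi
  congr 1
  ext x
  ring

/-- linearity of the cubic form in the first variable -/
lemma phi_lc₁ (hW : TubeD W c K)
    (hint : ∀ f : E → ℝ, Continuous f → PB f → Integrable (fun x => f x * rho x) κ)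
    (hζ : ∀ i, PG (ζ i)) (x : EuclideanSpace ℝ (Fin k)) {v z : E → ℝ} (hv : PG v) (hz : PG z) :
    Phi κ W (lc ζ x) v z = ∑ p, x p * Phi κ W (ζ p) v z := by
  have hA : Continuous (fderiv ℝ (grad W)) := hess_meas hW.smooth
  have hAb : PB (fderiv ℝ (grad W)) := PB.of_bound (C := K) hW.b2
  have ht : Continuous (fun x => tr ((fderiv ℝ (grad W) x).comp
      ((fderiv ℝ (grad W) x).comp (fderiv ℝ (grad W) x)))) := continuous_tr3 hW
  have htb : PB (fun x => tr ((fderiv ℝ (grad W) x).comp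
      ((fderiv ℝ (grad W) x).comp (fderiv ℝ (grad W) x)))) :=
    PB.of_bound (C := Module.finrank ℝ E * K ^ 3) fun x => abs_tr_comp3_le (hW.b2 x) hW.K_nonneg
  have hg : ∀ {f : E → ℝ}, PG f → Continuous (grad f) := fun h => continuous_grad h.cd
  have hgb : ∀ {f : E → ℝ}, PG f → PB (grad f) := fun h => h.b1.mono fun x => by rw [norm_grad]
  unfold Phi
  have e : ∀ p, x p * ∫ y, (ζ p y * ⟪fderiv ℝ (grad W) y (grad v y), grad z y⟫
      + v y * ⟪fderiv ℝ (grad W) y (grad z y), grad (ζ p) y⟫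
      + z y * ⟪fderiv ℝ (grad W) y (grad (ζ p) y), grad v y⟫
      - tr ((fderiv ℝ (grad W) y).comp ((fderiv ℝ (grad W) y).comp (fderiv ℝ (grad W) y)))
        * (ζ p y * v y * z y)) * rho y ∂κ
      = ∫ y, x p * ((ζ p y * ⟪fderiv ℝ (grad W) y (grad v y), grad z y⟫
      + v y * ⟪fderiv ℝ (grad W) y (grad z y), grad (ζ p) y⟫
      + z y * ⟪fderiv ℝ (grad W) y (grad (ζ p) y), grad v y⟫
      - tr ((fderiv ℝ (grad W) y).comp ((fderiv ℝ (grad W) y).comp (fderiv ℝ (grad W) y)))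
        * (ζ p y * v y * z y)) * rho y) ∂κ := fun p => (integral_const_mul _ _).symm
  simp_rw [e]
  rw [← integral_finsetSum]
  · congr 1
    ext y
    rw [grad_lc (fun i => (hζ i).cd)]
    have e1 : ⟪fderiv ℝ (grad W) y (grad z y), lv (fun i => grad (ζ i)) x y⟫
        = ∑ p, x p * ⟪fderiv ℝ (grad W) y (grad z y), grad (ζ p) y⟫ := by
      unfold lv; rw [inner_sum]; simp [real_inner_smul_right]
    have e2 : ⟪fderiv ℝ (grad W) y (lv (fun i => grad (ζ i)) x y), grad v y⟫
        = ∑ p, x p * ⟪fderiv ℝ (grad W) y (grad (ζ p) y), grad v y⟫ := by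
      unfold lv; rw [map_sum, sum_inner]; simp [real_inner_smul_left]
    rw [e1, e2]
    unfold lc
    rw [Finset.sum_mul, Finset.mul_sum, Finset.mul_sum, Finset.sum_mul, Finset.sum_mul,
      Finset.mul_sum, ← Finset.sum_add_distrib, ← Finset.sum_add_distrib,
      ← Finset.sum_sub_distrib, Finset.sum_mul]
    refine Finset.sum_congr rfl fun p _ => ?_
    ring
  · intro p _
    refine (hint _ ?_ ?_).const_mul _
    · exact ((((hζ p).cont.mul ((hA.clm_apply (hg hv)).inner (hg hz))).add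
        (hv.cont.mul ((hA.clm_apply (hg hz)).inner (hg (hζ p))))).add
        (hz.cont.mul ((hA.clm_apply (hg (hζ p))).inner (hg hv)))).sub
        (ht.mul (((hζ p).cont.mul hv.cont).mul hz.cont))
    · exact ((((hζ p).b0.mul ((hAb.clm_apply (hgb hv)).inner' (hgb hz))).add
        (hv.b0.mul ((hAb.clm_apply (hgb hz)).inner' (hgb (hζ p))))).add
        (hz.b0.mul ((hAb.clm_apply (hgb (hζ p))).inner' (hgb hv)))).sub
        (htb.mul (((hζ p).b0.mul hv.b0).mul hz.b0))

lemma pg_lc (hζ : ∀ i, PG (ζ i)) (x : EuclideanSpace ℝ (Fin k)) : PG (lc ζ x) where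
  cd := contDiff_lc (fun i => (hζ i).cd) x
  b0 := by rw [lc_eq_lv]; exact pb_lv (fun i => (hζ i).b0) x
  b1 := by
    rw [lc_eq_lv]
    have e : fderiv ℝ (lv ζ x) = lv (fun i => fderiv ℝ (ζ i)) x := by
      ext1 y; rw [fderiv_lv fun i => (hζ i).cd.differentiable (by norm_num)]; rfl
    rw [e]
    exact pb_lv (fun i => (hζ i).b1) x

/-- the cubic form on linear combinations -/
theorem phi_lc (hW : TubeD W c K)
    (hint : ∀ f : E → ℝ, Continuous f → PB f → Integrable (fun x => f x * rho x) κ)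
    (hζ : ∀ i, PG (ζ i)) (x y z : EuclideanSpace ℝ (Fin k)) :
    Phi κ W (lc ζ x) (lc ζ y) (lc ζ z)
      = ∑ p, ∑ r, ∑ i, x p * y r * z i * Phi κ W (ζ p) (ζ r) (ζ i) := by
  rw [phi_lc₁ hW hint hζ x (pg_lc hζ y) (pg_lc hζ z)]
  refine Finset.sum_congr rfl fun p _ => ?_
  rw [phi_rot, phi_lc₁ hW hint hζ y (pg_lc hζ z) (hζ p), Finset.mul_sum]
  refine Finset.sum_congr rfl fun r _ => ?_
  rw [phi_rot, phi_lc₁ hW hint hζ z (hζ p) (hζ r), Finset.mul_sum, Finset.mul_sum]
  refine Finset.sum_congr rfl fun i _ => ?_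
  rw [phi_rot (ζ i) (ζ p) (ζ r)]
  ring

/-- the coordinate functions -/
noncomputable def cox (i : Fin k) : EuclideanSpace ℝ (Fin k) →ₗ[ℝ] ℝ :=
  (EuclideanSpace.proj (𝕜 := ℝ) i).toLinearMap

lemma cox_apply (i : Fin k) (x : EuclideanSpace ℝ (Fin k)) : cox i x = x i := rfl

/-- the cubic form in the coordinates -/
noncomputable def phiQ (κ : Measure E) (W : E → ℝ) (ζ : Fin k → E → ℝ) :
    EuclideanSpace ℝ (Fin k) →ₗ[ℝ] EuclideanSpace ℝ (Fin k) →ₗ[ℝ]
      EuclideanSpace ℝ (Fin k) →ₗ[ℝ] ℝ :=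
  ∑ p, ∑ r, ∑ i, (cox p).smulRight ((cox r).smulRight (Phi κ W (ζ p) (ζ r) (ζ i) • cox i))

lemma phiQ_sum (x y z : EuclideanSpace ℝ (Fin k)) : phiQ κ W ζ x y z
    = ∑ p, ∑ r, ∑ i, x p * y r * z i * Phi κ W (ζ p) (ζ r) (ζ i) := by
  unfold phiQ
  simp only [LinearMap.sum_apply, LinearMap.smulRight_apply, LinearMap.smul_apply, smul_eq_mul,
    cox_apply]
  refine Finset.sum_congr rfl fun p _ => Finset.sum_congr rfl fun r _ =>
    Finset.sum_congr rfl fun i _ => ?_
  ring

/-- **the trilinear form** -/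
theorem phiQ_apply (hW : TubeD W c K)
    (hint : ∀ f : E → ℝ, Continuous f → PB f → Integrable (fun x => f x * rho x) κ)
    (hζ : ∀ i, PG (ζ i)) (x y z : EuclideanSpace ℝ (Fin k)) :
    phiQ κ W ζ x y z = Phi κ W (lc ζ x) (lc ζ y) (lc ζ z) := by
  rw [phiQ_sum, phi_lc hW hint hζ]

lemma phiQ_symm₁ (hW : TubeD W c K)
    (hint : ∀ f : E → ℝ, Continuous f → PB f → Integrable (fun x => f x * rho x) κ)
    (hζ : ∀ i, PG (ζ i)) (x y z : EuclideanSpace ℝ (Fin k)) :
    phiQ κ W ζ x y z = phiQ κ W ζ y x z := by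
  rw [phiQ_apply hW hint hζ, phiQ_apply hW hint hζ, phi_swap₁ hW.smooth]

lemma phiQ_symm₂ (hW : TubeD W c K)
    (hint : ∀ f : E → ℝ, Continuous f → PB f → Integrable (fun x => f x * rho x) κ)
    (hζ : ∀ i, PG (ζ i)) (x y z : EuclideanSpace ℝ (Fin k)) :
    phiQ κ W ζ x y z = phiQ κ W ζ x z y := by
  rw [phiQ_apply hW hint hζ, phiQ_apply hW hint hζ, phi_swap₂ hW.smooth]

end phi

end Vale.Agent.P218.X8
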